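import Vale.Agent.P073.H655.FillT

/-!
# P073, theorem (T): the filling preserves each cube
-/

namespace Vale.Agent.P073.H655

open MeasureTheory Set Filter Topology Metric
open Vale.Agent.P073.St (V Mat euc)
open Vale.Agent.P073.SQ (ev cube SuppDiffeo)
open Vale.Agent.P073.H880 (Boxes SpecFill)
open _root_.P073 (ConHomeo ConicalOn ConicalWithinAt)
open scoped ContDiff ENNReal

theorem ocube_eq {c : V} {ρ : ℝ} (hρ : 0 < ρ) : ocube c ρ = ball c ρ := by
  ext y
  rw [mem_ball, dist_pi_lt_iff hρ]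
  simp only [ocube, Set.mem_ofPred_eq, Real.dist_eq]

theorem cube_eq {c : V} {ρ : ℝ} (hρ : 0 < ρ) : cube c ρ = closedBall c ρ := by
  ext y
  rw [mem_closedBall, dist_pi_le_iff hρ.le]
  simp only [cube, Set.mem_ofPred_eq, Real.dist_eq]

section
variable {Λ K' : Set V} (W : Boxes Λ K')

theorem center_mem (i : W.ι) : W.c i ∈ ocube (W.c i) (W.ρ i) := fun l => by
  rw [sub_self, abs_zero]; exact W.pos i

theorem ocube_disjoint {i j : W.ι} (hij : i ≠ j) :
    Disjoint (ocube (W.c i) (W.ρ i)) (ocube (W.c j) (W.ρ j)) :=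
  Set.disjoint_left.2 fun y hy hy' => W.disj i j hij y hy (ocube_subset hy')

theorem eq_of_mem {i j : W.ι} {y : V} (hi : y ∈ ocube (W.c i) (W.ρ i))
    (hj : y ∈ ocube (W.c j) (W.ρ j)) : i = j := by
  by_contra h
  exact W.disj i j h y hi (ocube_subset hj)

/-- a homeomorphism of `Λ` which is the identity off the open cubes preserves the open cubes -/
theorem same_cube {φ : V → V} (hφ : ContinuousOn φ Λ) (hinj : InjOn φ Λ) (hmap : MapsTo φ Λ Λ)
    (hid : ∀ y ∈ Λ, y ∉ oU W → φ y = y) (i : W.ι) :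
    MapsTo φ (ocube (W.c i) (W.ρ i)) (ocube (W.c i) (W.ρ i)) := by
  have hsub : ∀ j, ocube (W.c j) (W.ρ j) ⊆ Λ := fun j => ocube_subset.trans (W.sub j)
  have h1 : ∀ y ∈ oU W, φ y ∈ oU W := by
    intro y hy
    by_contra h
    have hyΛ : y ∈ Λ := cU_subset W (oU_subset_cU W hy)
    have h2 : φ (φ y) = φ y := hid _ (hmap hyΛ) h
    have h3 : φ y = y := hinj (hmap hyΛ) hyΛ h2
    rw [h3] at h
    exact h hy
  obtain ⟨j, hj⟩ := mem_iUnion.1 (h1 _ (mem_iUnion.2 ⟨i, center_mem W i⟩))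
  have hconn : IsPreconnected (φ '' ocube (W.c i) (W.ρ i)) := by
    have : IsPreconnected (ocube (W.c i) (W.ρ i)) := by
      rw [ocube_eq (W.pos i)]
      exact (convex_ball _ _).isPreconnected
    exact this.image φ (hφ.mono (hsub i))
  have h3 : φ '' ocube (W.c i) (W.ρ i) ⊆ ocube (W.c j) (W.ρ j) := by
    refine IsPreconnected.subset_left_of_subset_union isOpen_ocube
      (v := ⋃ l : {l : W.ι // l ≠ j}, ocube (W.c l) (W.ρ l))
      (isOpen_iUnion fun l => isOpen_ocube) ?_ ?_ ?_ hconn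
    · exact disjoint_iUnion_right.2 fun l => ocube_disjoint W (Ne.symm l.2)
    · rintro _ ⟨y, hy, rfl⟩
      obtain ⟨l, hl⟩ := mem_iUnion.1 (h1 y (mem_iUnion.2 ⟨i, hy⟩))
      by_cases hlj : l = j
      · left; rw [← hlj]; exact hl
      · right; exact mem_iUnion.2 ⟨⟨l, hlj⟩, hl⟩
    · exact ⟨_, mem_image_of_mem φ (center_mem W i), hj⟩
  have h4 : ∀ l : Fin 3, Function.update (W.c i) l (W.c i l + W.ρ i) ∈
      cube (W.c j) (W.ρ j) := by
    intro l
    set z := Function.update (W.c i) l (W.c i l + W.ρ i) with hz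
    have hzc : z ∈ cube (W.c i) (W.ρ i) := by
      intro m
      by_cases hm : m = l
      · subst hm
        rw [hz, Function.update_self, add_sub_cancel_left, abs_of_pos (W.pos i)]
      · rw [hz, Function.update_of_ne hm, sub_self, abs_zero]
        exact (W.pos i).le
    have hzo : z ∉ ocube (W.c i) (W.ρ i) := by
      intro h
      have := h l
      rw [hz, Function.update_self, add_sub_cancel_left, abs_of_pos (W.pos i)] at this
      exact lt_irrefl _ this
    have hzU : z ∉ oU W := by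
      intro h
      obtain ⟨m, hm⟩ := mem_iUnion.1 h
      by_cases hmi : m = i
      · rw [hmi] at hm; exact hzo hm
      · exact W.disj m i hmi z hm hzc
    have hzΛ : z ∈ Λ := W.sub i hzc
    have hzcl : z ∈ closure (ocube (W.c i) (W.ρ i)) := by
      rw [ocube_eq (W.pos i), closure_ball _ (W.pos i).ne', ← cube_eq (W.pos i)]
      exact hzc
    have h5 : φ z ∈ closure (φ '' ocube (W.c i) (W.ρ i)) :=
      ((hφ z hzΛ).mono (hsub i)).mem_closure_image hzcl
    rw [hid z hzΛ hzU] at h5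
    exact (closure_minimal (h3.trans ocube_subset)
      (isCompact_cube (W.pos j)).isClosed) h5
  have h6 : W.c i ∈ cube (W.c j) (W.ρ j) := by
    intro m
    obtain ⟨l, hl⟩ : ∃ l : Fin 3, l ≠ m := exists_ne m
    have := h4 l m
    rwa [Function.update_of_ne hl.symm] at this
  have hij : i = j := by
    by_contra h
    exact W.disj i j h (W.c i) (center_mem W i) h6
  subst hij
  exact fun y hy => h3 (mem_image_of_mem φ hy)

end

/-- **the filling of the cubes of the target**, with the cubes preserved -/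
theorem exists_fill' (hC : SpecFill) {Ω Λ K : Set V} {g : V → V} (hΩ : IsOpen Ω) (hΛ : IsOpen Λ)
    (hK : K ⊆ Ω) (hKo : IsOpen (Ω \ K)) (hg : St.IsHomeo Ω Λ g)
    (hcon : ∀ x ∈ Ω \ K, ConicalWithinAt g Ω x) (W : Boxes Λ (g '' K)) :
    ∃ H : ConHomeo Ω Λ, (∀ x ∈ Ω, g x ∉ oU W → H.toFun x = g x) ∧
      (∀ i, ∀ x ∈ Ω, g x ∈ ocube (W.c i) (W.ρ i) → H.toFun x ∈ ocube (W.c i) (W.ρ i)) ∧
      ∀ᵐ x ∂(volume : Measure V), x ∈ Ω → g x ∉ oU W → H.toFun =ᶠ[𝓝 x] g := by
  obtain ⟨H, h1, h2, h3⟩ := exists_fill hC hΩ hΛ hK hKo hg hcon W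
  refine ⟨H, h1, ?_, h3⟩
  obtain ⟨k, ⟨hgk, hkg⟩, hgc, hkc⟩ := hg
  have hmaps : MapsTo g Ω Λ := fun x hx => (hgk x hx).1
  have hl : LeftInvOn k g Ω := fun x hx => (hgk x hx).2
  -- the homeomorphism `g ∘ H⁻¹` of `Λ`
  have hφ : ContinuousOn (g ∘ H.invFun) Λ := hgc.comp H.cont_inv H.mapsTo_inv
  have hinj : InjOn (g ∘ H.invFun) Λ :=
    hl.injOn.comp H.right_inv.injOn H.mapsTo_inv
  have hmap : MapsTo (g ∘ H.invFun) Λ Λ := hmaps.comp H.mapsTo_inv
  have hid : ∀ y ∈ Λ, y ∉ oU W → (g ∘ H.invFun) y = y := by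
    intro y hy hyU
    have hx : H.invFun y ∈ Ω := H.mapsTo_inv hy
    have hy' : H.toFun (H.invFun y) = y := H.right_inv hy
    by_cases h : g (H.invFun y) ∈ oU W
    · exact absurd (hy' ▸ h2 _ hx h) hyU
    · show g (H.invFun y) = y
      rw [← h1 _ hx h, hy']
  intro i x hx hgx
  have hHx : H.toFun x ∈ Λ := H.mapsTo hx
  have hli : H.invFun (H.toFun x) = x := H.left_inv hx
  have h4 : H.toFun x ∈ oU W := h2 x hx (mem_iUnion.2 ⟨i, hgx⟩)
  obtain ⟨l, hl'⟩ := mem_iUnion.1 h4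
  have h5 := same_cube W hφ hinj hmap hid l hl'
  have h6 : g x ∈ ocube (W.c l) (W.ρ l) := by
    have : (g ∘ H.invFun) (H.toFun x) = g x := by
      show g (H.invFun (H.toFun x)) = g x
      rw [hli]
    rwa [this] at h5
  rwa [eq_of_mem W hgx h6]

/-! ### small cubes -/

/-- small cubes in a given neighbourhood -/
theorem exists_small (hB : SpecBoxesIn) {Ω K N : Set V} (hΩ : IsOpen Ω)
    (hb : Bornology.IsBounded Ω) (hN : IsOpen N) (hKN : K ⊆ N) (hNΩ : N ⊆ Ω)
    (hKo : IsOpen (Ω \ K)) (hnull : ∀ k : Fin 3, volume ((fun x : V => x k) '' K) = 0) {δ : ℝ}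
    (hδ : 0 < δ) :
    ∃ W : Boxes Ω K, (∀ i, cube (W.c i) (W.ρ i) ⊆ N) ∧ ∀ i, W.ρ i < δ := by
  have h1 : ∀ (k : Fin 3) (m : ℤ), ∃ t ∈ Ioo ((m : ℝ) * δ) ((m + 1) * δ),
      t ∉ (fun x : V => x k) '' K := by
    intro k m
    by_contra h
    push Not at h
    have h2 : volume (Ioo ((m : ℝ) * δ) ((m + 1) * δ)) ≤ 0 := by
      rw [← hnull k]
      exact measure_mono h
    rw [Real.volume_Ioo] at h2
    have : (m + 1) * δ - m * δ = δ := by ring
    rw [this] at h2
    exact absurd (ENNReal.ofReal_eq_zero.1 (le_antisymm h2 bot_le)) (not_le.2 hδ)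
  choose t ht ht' using h1
  set N' : Set V := N ∩ {y | ∀ k m, y k ≠ t k m} with hN'
  have hcl : ∀ k, IsClosed (range (t k)) := by
    intro k
    have h2 : LocallyFinite fun m : ℤ => ({t k m} : Set ℝ) := by
      intro x
      refine ⟨Ioo (x - δ) (x + δ), Ioo_mem_nhds (by linarith) (by linarith), ?_⟩
      refine (Set.finite_Icc (⌊x / δ⌋ - 3) (⌈x / δ⌉ + 3)).subset ?_
      rintro m ⟨y, hy, hy'⟩
      rw [mem_singleton_iff] at hy
      subst hy
      have h3 := (ht k m).1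
      have h4 := (ht k m).2
      have h5 : x / δ - 2 < m := by
        rw [sub_lt_iff_lt_add, div_lt_iff₀ hδ]
        have := hy'.1
        nlinarith
      have h6 : (m : ℝ) < x / δ + 1 := by
        rw [← sub_lt_iff_lt_add, lt_div_iff₀ hδ]
        have := hy'.2
        nlinarith
      constructor
      · have h7 : ((⌊x / δ⌋ : ℤ) : ℝ) ≤ x / δ := Int.floor_le _
        have h8 : ((⌊x / δ⌋ - 3 : ℤ) : ℝ) ≤ (m : ℝ) := by
          push_cast
          linarith
        exact_mod_cast h8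
      · have h7 : x / δ ≤ ((⌈x / δ⌉ : ℤ) : ℝ) := Int.le_ceil _
        have h8 : (m : ℝ) ≤ ((⌈x / δ⌉ + 3 : ℤ) : ℝ) := by
          push_cast
          linarith
        exact_mod_cast h8
    have h3 := h2.isClosed_iUnion fun m => isClosed_singleton
    rwa [iUnion_singleton_eq_range] at h3
  have hN'o : IsOpen N' := by
    have : {y : V | ∀ k m, y k ≠ t k m} = ⋂ k, (fun y : V => y k) ⁻¹' (range (t k))ᶜ := by
      ext y
      simp only [Set.mem_ofPred_eq, mem_iInter, mem_preimage, mem_compl_iff, mem_range, not_exists]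
      exact ⟨fun h k m hm => h k m hm.symm, fun h k m hm => h k m hm.symm⟩
    rw [hN', this]
    exact hN.inter (isOpen_iInter_of_finite fun k =>
      (hcl k).isOpen_compl.preimage (continuous_apply k))
  have hKN' : K ⊆ N' := fun y hy => ⟨hKN hy, fun k m h => ht' k m ⟨y, hy, h⟩⟩
  obtain ⟨W, hW⟩ := hB Ω K N' hΩ hb hN'o hKN' (inter_subset_left.trans hNΩ) hKo hnull
  refine ⟨W, fun i => (hW i).trans inter_subset_left, fun i => ?_⟩
  by_contra hρ
  rw [not_lt] at hρ
  set m : ℤ := ⌊W.c i 0 / δ⌋ with hm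
  have h3 : (m : ℝ) ≤ W.c i 0 / δ := Int.floor_le _
  have h4 : W.c i 0 / δ < m + 1 := Int.lt_floor_add_one _
  rw [le_div_iff₀ hδ] at h3
  rw [div_lt_iff₀ hδ] at h4
  have h5 := (ht 0 m).1
  have h6 := (ht 0 m).2
  have h7 : Function.update (W.c i) 0 (t 0 m) ∈ cube (W.c i) (W.ρ i) := by
    intro l
    by_cases hl : l = 0
    · subst hl
      rw [Function.update_self, abs_le]
      constructor <;> nlinarith
    · rw [Function.update_of_ne hl, sub_self, abs_zero]
      exact (W.pos i).le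
  exact (hW i h7).2 0 m (Function.update_self _ _ _)

end Vale.Agent.P073.H655
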