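import Vale.Agent.P073.H655.SameT
import Vale.Agent.P073.SQ.Glue
import Mathlib.MeasureTheory.Function.Jacobian

/-!
# P073, theorem (T): gluing, and the points near the singular set
-/

namespace Vale.Agent.P073.H655

open MeasureTheory Set Filter Topology Metric
open Vale.Agent.P073.St (V Mat euc)
open Vale.Agent.P073.SQ (ev cube SuppDiffeo)
open Vale.Agent.P073.H880 (Boxes SpecFill)
open scoped ContDiff ENNReal

/-! ### gluing -/

theorem exists_glue {Λ K' : Set V} (hΛ : IsOpen Λ) (W : Boxes Λ K') (D : W.ι → Set V)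
    (hD : ∀ i, D i ⊆ ocube (W.c i) (W.ρ i)) (T : W.ι → V → V)
    (hT : ∀ i, SuppDiffeo (D i) (T i)) :
    ∃ S : V → V, St.IsDiffeo Λ Λ S ∧ (∀ i, ∀ y ∈ ocube (W.c i) (W.ρ i), S =ᶠ[𝓝 y] T i) ∧
      ∀ y ∈ Λ, (∀ i, y ∉ ocube (W.c i) (W.ρ i)) → S =ᶠ[𝓝 y] id := by
  obtain ⟨S, h1, h2, h3, h4⟩ := SQ.specGlue Λ W.ι D T hΛ hT
    (fun i => (hD i).trans (ocube_subset.trans (W.sub i)))
    (fun i j hij => (ocube_disjoint W hij).mono (hD i) (hD j))
    (fun x hx => by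
      obtain ⟨N, hN, hf⟩ := W.fin x hx
      exact ⟨N, hN, hf.subset fun i ⟨z, hz, hz'⟩ => ⟨z, ocube_subset (hD i hz), hz'⟩⟩)
  refine ⟨S, h1, fun i y hy => h4 i y (W.sub i (ocube_subset hy)) fun j hj hyj =>
    hj (eq_of_mem W (hD j hyj) hy), ?_⟩
  intro y hy hno
  have hnoD : ∀ i, y ∉ D i := fun i hi => hno i (hD i hi)
  by_cases hι : Nonempty W.ι
  · obtain ⟨i⟩ := hι
    have h5 := h4 i y hy fun j _ => hnoD j
    have h6 : ∀ᶠ z in 𝓝 y, z ∉ D i := (hT i).compact.isClosed.isOpen_compl.mem_nhds (hnoD i)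
    filter_upwards [h5, h6] with z hz hz'
    rw [hz, (hT i).supp z hz', id]
  · exact Eventually.of_forall fun z => h3 z fun i => absurd ⟨i⟩ hι

/-! ### homeomorphisms -/

theorem isOpen_diff_image {Ω Λ K : Set V} {f : V → V} (hΛ : IsOpen Λ) (hK : K ⊆ Ω)
    (hKo : IsOpen (Ω \ K)) (hf : St.IsHomeo Ω Λ f) : IsOpen (Λ \ f '' K) := by
  obtain ⟨k, ⟨hgk, hkg⟩, hgc, hkc⟩ := hf
  have hpre : Λ \ f '' K = Λ ∩ k ⁻¹' (Ω \ K) := by
    ext y
    constructor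
    · rintro ⟨hy, hy'⟩
      refine ⟨hy, (hkg y hy).1, fun hk => hy' ⟨k y, hk, (hkg y hy).2⟩⟩
    · rintro ⟨hy, -, hk⟩
      refine ⟨hy, ?_⟩
      rintro ⟨x, hx, rfl⟩
      rw [(hgk x (hK hx)).2] at hk
      exact hk hx
  rw [hpre]
  exact hkc.isOpen_inter_preimage hΛ hKo

theorem image_subset {Ω Λ K : Set V} {f : V → V} (hK : K ⊆ Ω) (hf : St.IsHomeo Ω Λ f) :
    f '' K ⊆ Λ := by
  obtain ⟨k, ⟨hgk, -⟩, -, -⟩ := hf
  rintro _ ⟨x, hx, rfl⟩
  exact (hgk x (hK hx)).1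

/-- the part of the singular set in a cube is compact -/
theorem isCompact_part {Λ K' : Set V} (hKo : IsOpen (Λ \ K')) (W : Boxes Λ K') (i : W.ι) :
    IsCompact (K' ∩ cube (W.c i) (W.ρ i)) := by
  have h1 : K' ∩ cube (W.c i) (W.ρ i) = cube (W.c i) (W.ρ i) \ (Λ \ K') := by
    ext y
    constructor
    · rintro ⟨h1, h2⟩
      exact ⟨h2, fun h => h.2 h1⟩
    · rintro ⟨h1, h2⟩
      refine ⟨?_, h1⟩
      by_contra h
      exact h2 ⟨W.sub i h1, h⟩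
  rw [h1]
  exact (isCompact_cube (W.pos i)).diff hKo

theorem part_subset {Λ K' : Set V} (W : Boxes Λ K') (i : W.ι) :
    K' ∩ cube (W.c i) (W.ρ i) ⊆ ocube (W.c i) (W.ρ i) := fun _ hy =>
  mem_ocube_of_mem W hy.1 hy.2

/-! ### the points near the singular set -/

section near
variable {Λ K' : Set V} (W : Boxes Λ K')

/-- the points near a cube, with a coordinate near a coordinate of a point of `K'` in this cube -/
def nearSet (κ : ℝ) : Set V :=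
  {w | ∃ i, (∃ y ∈ cube (W.c i) (W.ρ i), ‖w - y‖ < κ) ∧
    ∃ l : Fin 3, ∃ z ∈ K' ∩ cube (W.c i) (W.ρ i), |w l - z l| < κ}

theorem isOpen_nearSet (κ : ℝ) : IsOpen (nearSet W κ) := by
  rw [isOpen_iff_mem_nhds]
  rintro w ⟨i, ⟨y, hy, hwy⟩, l, z, hz, hwz⟩
  have h1 : ∀ᶠ v in 𝓝 w, ‖v - y‖ < κ :=
    (isOpen_lt (f := fun v : V => ‖v - y‖) (by fun_prop) continuous_const).mem_nhds hwy
  have h2 : ∀ᶠ v in 𝓝 w, |v l - z l| < κ :=
    (isOpen_lt (f := fun v : V => |v l - z l|) (by fun_prop) continuous_const).mem_nhds hwz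
  filter_upwards [h1, h2] with v hv hv'
  exact ⟨i, ⟨y, hy, hv⟩, l, z, hz, hv'⟩

theorem nearSet_mono {κ κ' : ℝ} (h : κ ≤ κ') : nearSet W κ ⊆ nearSet W κ' := by
  rintro w ⟨i, ⟨y, hy, hwy⟩, l, z, hz, hwz⟩
  exact ⟨i, ⟨y, hy, hwy.trans_le h⟩, l, z, hz, hwz.trans_le h⟩

/-- the limit set -/
theorem mem_of_forall_near (hKo : IsOpen (Λ \ K')) {w : V} (hw : w ∈ Λ)
    (h : ∀ κ > 0, w ∈ nearSet W κ) :
    ∃ (i : W.ι) (l : Fin 3), w l ∈ (fun y : V => y l) '' (K' ∩ cube (W.c i) (W.ρ i)) := by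
  by_contra hcon
  push Not at hcon
  obtain ⟨N, hN, hfin⟩ := W.fin w hw
  obtain ⟨r, hr, hrN⟩ := Metric.mem_nhds_iff.1 hN
  have h1 : ∀ i ∈ {i | (cube (W.c i) (W.ρ i) ∩ N).Nonempty}, ∀ᶠ κ : ℝ in 𝓝[>] 0,
      ∀ l : Fin 3, ∀ z ∈ K' ∩ cube (W.c i) (W.ρ i), κ ≤ |w l - z l| := by
    intro i _
    rw [eventually_all]
    intro l
    have hcl : IsClosed ((fun y : V => y l) '' (K' ∩ cube (W.c i) (W.ρ i))) :=
      ((isCompact_part hKo W i).image (continuous_apply l)).isClosed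
    obtain ⟨s, hs, hsN⟩ := Metric.mem_nhds_iff.1 (hcl.isOpen_compl.mem_nhds (hcon i l))
    filter_upwards [Ioo_mem_nhdsGT hs] with κ hκ z hz
    by_contra hlt
    rw [not_le] at hlt
    have : z l ∈ ball (w l) s := by
      rw [mem_ball, Real.dist_eq, abs_sub_comm]
      exact hlt.trans hκ.2
    exact hsN this ⟨z, hz, rfl⟩
  obtain ⟨κ, hκ1, hκ2⟩ := (((eventually_all_finite hfin).2 h1).and (Ioo_mem_nhdsGT hr)).exists
  obtain ⟨i, ⟨y, hy, hwy⟩, l, z, hz, hwz⟩ := h κ hκ2.1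
  have hyN : y ∈ N := by
    apply hrN
    rw [mem_ball, dist_comm, dist_eq_norm]
    exact hwy.trans hκ2.2
  exact absurd hwz (not_lt.2 (hκ1 i ⟨y, hy, hyN⟩ l z hz))

end near

/-! ### null sets -/

theorem null_preimage {E : Set ℝ} (hE : volume E = 0) (l : Fin 3) :
    volume {y : V | y l ∈ E} = 0 :=
  Measure.pi_eval_preimage_null (fun _ : Fin 3 => (volume : Measure ℝ)) hE

/-- preimages of null sets under local diffeomorphisms of class `C¹` -/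
theorem null_preimage_C1 {Ω Λ K : Set V} {f : V → V} (hΛ : IsOpen Λ) (hK : K ⊆ Ω)
    (hKo : IsOpen (Ω \ K)) (hf : St.IsHomeo Ω Λ f) (hfC : ContDiffOn ℝ 1 f (Ω \ K))
    (hinj : ∀ x ∈ Ω \ K, ∀ v, fderiv ℝ f x v = 0 → v = 0) {Z : Set V} (hZ : volume Z = 0) :
    volume ((Ω \ K) ∩ f ⁻¹' Z) = 0 := by
  have hop := isOpen_diff_image hΛ hK hKo hf
  obtain ⟨k, ⟨hgk, hkg⟩, hgc, hkc⟩ := hf
  have hd : DifferentiableOn ℝ k ((Λ \ f '' K) ∩ Z) := by
    intro y hy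
    have hyx : k y ∈ Ω \ K := by
      refine ⟨(hkg y hy.1.1).1, fun h => hy.1.2 ⟨k y, h, (hkg y hy.1.1).2⟩⟩
    have h1 : HasFDerivAt f (fderiv ℝ f (k y)) (k y) :=
      ((hfC.contDiffAt (hKo.mem_nhds hyx)).differentiableAt (by simp)).hasFDerivAt
    have hi : Function.Injective (fderiv ℝ f (k y) : V →ₗ[ℝ] V) := by
      rw [injective_iff_map_eq_zero]
      exact fun v hv => hinj _ hyx v hv
    set e : V ≃L[ℝ] V :=
      (LinearEquiv.ofInjectiveEndo (fderiv ℝ f (k y) : V →ₗ[ℝ] V) hi).toContinuousLinearEquiv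
      with he
    have h2 : (e : V →L[ℝ] V) = fderiv ℝ f (k y) := by
      ext v : 1
      rfl
    rw [← h2] at h1
    have h3 := h1.of_local_left_inverse (hkc.continuousAt (hΛ.mem_nhds hy.1.1))
      (by filter_upwards [hΛ.mem_nhds hy.1.1] with z hz using (hkg z hz).2)
    exact h3.differentiableAt.differentiableWithinAt
  have h4 := MeasureTheory.addHaar_image_eq_zero_of_differentiableOn_of_addHaar_eq_zero
    (volume : Measure V) hd
    (measure_mono_null inter_subset_right hZ)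
  refine measure_mono_null ?_ h4
  rintro x ⟨hx, hxZ⟩
  refine ⟨f x, ⟨⟨(hgk x hx.1).1, ?_⟩, hxZ⟩, (hgk x hx.1).2⟩
  rintro ⟨x', hx', he⟩
  have h5 := (hgk x' (hK hx')).2
  rw [he, (hgk x hx.1).2] at h5
  exact hx.2 (h5 ▸ hx')

end Vale.Agent.P073.H655
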