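import Vale.Agent.P073.H655.Ibp
import Vale.Agent.P073.H655.GlueT

/-!
# P073: maps equal to `f` on the singular set and smooth off it
-/

namespace Vale.Agent.P073.H655

open MeasureTheory Set Filter Topology Metric Vale.Agent.P073.St Vale.Agent.P073.AB
open Vale.Agent.P073.SQ (ev)
open Vale.Agent.P073.H880 (integrable_mul_of_support)
open scoped ContDiff ENNReal

variable {p : ℝ} {Ω Λ K : Set V}

open Classical in
/-- gluing of homeomorphisms: `f` on `K`, `g` off `K` -/
theorem glue_homeo (hΩ : IsOpen Ω) (hΛ : IsOpen Λ) (hK : K ⊆ Ω) (hKo : IsOpen (Ω \ K))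
    {f g : V → V} (hf : St.IsHomeo Ω Λ f) (hg : St.IsHomeo (Ω \ K) (Λ \ f '' K) g)
    {δ : V → ℝ} (hδ : ContinuousOn δ Ω) (hδK : ∀ x ∈ K, δ x = 0)
    (hgf : ∀ x ∈ Ω \ K, ‖g x - f x‖ ≤ δ x)
    (hgf' : ∀ x ∈ Ω \ K, ‖g x - f x‖ ≤ infDist (f x) (Λ \ f '' K)ᶜ / 2) :
    St.IsHomeo Ω Λ (fun x => if x ∈ K then f x else g x) := by
  have hKo' : IsOpen (Λ \ f '' K) := isOpen_diff_image hΛ hK hKo hf
  obtain ⟨f', ⟨hff', hf'f⟩, hfc, hf'c⟩ := hf
  obtain ⟨g', ⟨hgg', hg'g⟩, hgc, hg'c⟩ := hg
  set G : V → V := fun x => if x ∈ K then f x else g x with hG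
  have hGK : ∀ x ∈ K, G x = f x := fun x hx => if_pos hx
  have hGo : ∀ x, x ∉ K → G x = g x := fun x hx => if_neg hx
  set G' : V → V := fun y => if y ∈ f '' K then f' y else g' y with hG'
  have hG'K : ∀ y ∈ f '' K, G' y = f' y := fun x hx => if_pos hx
  have hG'o : ∀ y, y ∉ f '' K → G' y = g' y := fun x hx => if_neg hx
  have hmap : ∀ x ∈ Ω, G x ∈ Λ ∧ G' (G x) = x := by
    intro x hx
    by_cases hxK : x ∈ K
    · rw [hGK x hxK, hG'K _ ⟨x, hxK, rfl⟩]
      exact hff' x hx
    · rw [hGo x hxK]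
      have h1 := hgg' x ⟨hx, hxK⟩
      rw [hG'o _ h1.1.2]
      exact ⟨h1.1.1, h1.2⟩
  have hmap' : ∀ y ∈ Λ, G' y ∈ Ω ∧ G (G' y) = y := by
    intro y hy
    by_cases hyK : y ∈ f '' K
    · rw [hG'K y hyK]
      obtain ⟨x, hx, rfl⟩ := hyK
      rw [(hff' x (hK hx)).2, hGK x hx]
      exact ⟨hK hx, rfl⟩
    · rw [hG'o y hyK]
      have h1 := hg'g y ⟨hy, hyK⟩
      rw [hGo _ h1.1.2]
      exact ⟨h1.1.1, h1.2⟩
  have hGf : ∀ x ∈ Ω, ‖G x - f x‖ ≤ δ x := by
    intro x hx
    by_cases hxK : x ∈ K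
    · rw [hGK x hxK, sub_self, norm_zero, hδK x hxK]
    · rw [hGo x hxK]; exact hgf x ⟨hx, hxK⟩
  refine ⟨G', ⟨hmap, hmap'⟩, ?_, ?_⟩
  · -- continuity of `G`
    intro x hx
    by_cases hxK : x ∈ K
    · have h1 : Tendsto (fun z => G z - f z) (𝓝[Ω] x) (𝓝 0) := by
        have h2 : Tendsto δ (𝓝[Ω] x) (𝓝 0) := by
          have := hδ x hx
          unfold ContinuousWithinAt at this
          rwa [hδK x hxK] at this
        refine squeeze_zero_norm' ?_ h2
        filter_upwards [self_mem_nhdsWithin] with z hz using hGf z hz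
      have h3 := h1.add (hfc x hx)
      simp only [sub_add_cancel, zero_add] at h3
      show Tendsto G (𝓝[Ω] x) (𝓝 (G x))
      rw [hGK x hxK]
      exact h3
    · have h1 : ContinuousAt g x := hgc.continuousAt (hKo.mem_nhds ⟨hx, hxK⟩)
      have h2 : G =ᶠ[𝓝 x] g := by
        filter_upwards [hKo.mem_nhds ⟨hx, hxK⟩] with z hz using hGo z hz.2
      exact (h1.congr h2.symm).continuousWithinAt
  · -- continuity of the inverse
    intro y hy
    by_cases hyK : y ∈ f '' K
    · have hmapf : ∀ z ∈ Λ, f (G' z) ∈ Λ := fun z hz => (hff' _ (hmap' z hz).1).1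
      have hclose : ∀ z ∈ Λ, ‖f (G' z) - y‖ ≤ 2 * ‖z - y‖ := by
        intro z hz
        by_cases hzK : z ∈ f '' K
        · have : f (G' z) = z := by
            rw [hG'K z hzK]
            exact (hf'f z hz).2
          rw [this]
          linarith [norm_nonneg (z - y)]
        · have hx := hg'g z ⟨hz, hzK⟩
          rw [hG'o z hzK]
          have h1 := hgf' (g' z) hx.1
          rw [hx.2] at h1
          have h2 : infDist (f (g' z)) (Λ \ f '' K)ᶜ ≤ dist (f (g' z)) y :=
            infDist_le_dist_of_mem fun h => h.2 hyK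
          rw [dist_eq_norm] at h2
          have h3 : ‖f (g' z) - y‖ ≤ ‖z - f (g' z)‖ + ‖z - y‖ := by
            have : f (g' z) - y = -(z - f (g' z)) + (z - y) := by abel
            rw [this]
            refine (norm_add_le _ _).trans ?_
            rw [norm_neg]
          linarith
      have h1 : Tendsto (fun z => f (G' z)) (𝓝[Λ] y) (𝓝[Λ] y) := by
        refine tendsto_nhdsWithin_iff.2 ⟨?_, ?_⟩
        · rw [tendsto_iff_norm_sub_tendsto_zero]
          have h2 : Tendsto (fun z : V => 2 * ‖z - y‖) (𝓝[Λ] y) (𝓝 0) := by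
            have h3 : Tendsto (fun z : V => 2 * ‖z - y‖) (𝓝 y) (𝓝 (2 * ‖y - y‖)) :=
              (continuous_const.mul (continuous_id.sub continuous_const).norm).tendsto y
            rw [sub_self, norm_zero, mul_zero] at h3
            exact h3.mono_left nhdsWithin_le_nhds
          refine squeeze_zero' (Eventually.of_forall fun z => norm_nonneg _) ?_ h2
          filter_upwards [self_mem_nhdsWithin] with z hz using hclose z hz
        · filter_upwards [self_mem_nhdsWithin] with z hz using hmapf z hz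
      have h2 : Tendsto (fun z => f' (f (G' z))) (𝓝[Λ] y) (𝓝 (f' y)) := (hf'c y hy).tendsto.comp h1
      show Tendsto G' (𝓝[Λ] y) (𝓝 (G' y))
      rw [hG'K y hyK]
      refine h2.congr' ?_
      filter_upwards [self_mem_nhdsWithin] with z hz using (hff' _ (hmap' z hz).1).2
    · have h1 : ContinuousAt g' y := hg'c.continuousAt (hKo'.mem_nhds ⟨hy, hyK⟩)
      have h2 : G' =ᶠ[𝓝 y] g' := by
        filter_upwards [hKo'.mem_nhds ⟨hy, hyK⟩] with z hz using hG'o z hz.2
      exact (h1.congr h2.symm).continuousWithinAt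

/-- the cutoff functions -/
theorem exists_cutoff (hKo : IsOpen (Ω \ K)) {h : V → ℝ} (hh : ContDiff ℝ ∞ h)
    (hsupp : Function.support h = Ω \ K) (hh0 : ∀ x, 0 ≤ h x) :
    ∃ (M : ℝ) (θ : ℕ → V → ℝ), 0 ≤ M ∧ (∀ n, ContDiff ℝ ∞ (θ n)) ∧ (∀ n x, 0 ≤ θ n x ∧ θ n x ≤ 1) ∧
      (∀ (n : ℕ) x, h x * (n + 1) ≤ 1 → θ n x = 0) ∧
      (∀ x ∈ Ω \ K, ∀ᶠ n in atTop, θ n x = 1) ∧
      ∀ (n : ℕ) x j, |fderiv ℝ (θ n) x (ev j)| * h x ^ 2 ≤ M * |fderiv ℝ h x (ev j)| * (4 / (n + 1)) := by
  obtain ⟨M, hM⟩ := (isCompact_Icc (a := (1:ℝ)) (b := 2)).exists_bound_of_continuousOn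
    (f := fun t => deriv (fun s => Real.smoothTransition (s - 1)) t) (by
      have h1 : ContDiff ℝ 1 (fun s : ℝ => Real.smoothTransition (s - 1)) :=
        Real.smoothTransition.contDiff.comp (contDiff_id.sub contDiff_const)
      exact (h1.continuous_deriv (by simp)).continuousOn)
  have hst : ContDiff ℝ ∞ (fun s : ℝ => Real.smoothTransition (s - 1)) :=
    Real.smoothTransition.contDiff.comp (contDiff_id.sub contDiff_const)
  have hM0 : 0 ≤ M := (norm_nonneg _).trans (hM 1 (by norm_num))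
  refine ⟨M, fun n x => Real.smoothTransition (h x * (n + 1) - 1), hM0, fun n => ?_, fun n x => ?_,
    fun n x hx => ?_, fun x hx => ?_, fun n x j => ?_⟩
  · exact Real.smoothTransition.contDiff.comp ((hh.mul contDiff_const).sub contDiff_const)
  · exact ⟨Real.smoothTransition.nonneg _, Real.smoothTransition.le_one _⟩
  · exact Real.smoothTransition.zero_iff_nonpos.2 (by linarith)
  · have hx0 : 0 < h x := by
      have h1 : x ∈ Function.support h := by rw [hsupp]; exact hx
      exact lt_of_le_of_ne (hh0 x) (Ne.symm h1)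
    obtain ⟨N, hN⟩ := exists_nat_gt (2 / h x)
    filter_upwards [eventually_ge_atTop N] with n hn
    apply Real.smoothTransition.one_of_one_le
    have h2 : (N : ℝ) ≤ n := by exact_mod_cast hn
    have h3 : 2 < N * h x := by rwa [div_lt_iff₀ hx0] at hN
    nlinarith
  · -- the derivative
    have hn : (0 : ℝ) < n + 1 := by positivity
    set t : ℝ := h x * (n + 1) with ht
    have hhd : DifferentiableAt ℝ h x := hh.differentiable (by simp) x
    have h1 : HasFDerivAt (fun x => Real.smoothTransition (h x * (n + 1) - 1))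
        (deriv (fun s => Real.smoothTransition (s - 1)) t • ((n + 1 : ℝ) • fderiv ℝ h x)) x := by
      have h2 : HasDerivAt (fun s => Real.smoothTransition (s - 1))
          (deriv (fun s => Real.smoothTransition (s - 1)) t) t :=
        ((hst.differentiable (by simp)) t).hasDerivAt
      have h3 : HasFDerivAt (fun x => h x * (n + 1)) ((n + 1 : ℝ) • fderiv ℝ h x) x :=
        hhd.hasFDerivAt.mul_const _
      exact h2.comp_hasFDerivAt x h3
    have h4 : fderiv ℝ (fun x => Real.smoothTransition (h x * (n + 1) - 1)) x (ev j) =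
        deriv (fun s => Real.smoothTransition (s - 1)) t * ((n + 1) * fderiv ℝ h x (ev j)) := by
      rw [h1.fderiv]
      rfl
    rw [h4, abs_mul, abs_mul, abs_of_pos hn]
    by_cases ht1 : t < 1
    · have h5 : deriv (fun s => Real.smoothTransition (s - 1)) t = 0 := by
        have h6 : (fun s => Real.smoothTransition (s - 1)) =ᶠ[𝓝 t] fun _ => (0 : ℝ) := by
          filter_upwards [gt_mem_nhds ht1] with s hs
          exact Real.smoothTransition.zero_iff_nonpos.2 (by linarith)
        rw [h6.deriv_eq, deriv_const]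
      rw [h5, abs_zero, zero_mul, zero_mul]
      positivity
    by_cases ht2 : 2 < t
    · have h5 : deriv (fun s => Real.smoothTransition (s - 1)) t = 0 := by
        have h6 : (fun s => Real.smoothTransition (s - 1)) =ᶠ[𝓝 t] fun _ => (1 : ℝ) := by
          filter_upwards [lt_mem_nhds ht2] with s hs
          exact Real.smoothTransition.one_of_one_le (by linarith)
        rw [h6.deriv_eq, deriv_const]
      rw [h5, abs_zero, zero_mul, zero_mul]
      positivity
    rw [not_lt] at ht1 ht2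
    have h5 : |deriv (fun s => Real.smoothTransition (s - 1)) t| ≤ M := hM t ⟨ht1, ht2⟩
    have h7 : h x = t / (n + 1) := by rw [ht]; field_simp
    have h8 : (n + 1 : ℝ) * h x ^ 2 ≤ 4 / (n + 1) := by
      rw [h7, div_pow, le_div_iff₀ hn]
      have : (n + 1 : ℝ) * (t ^ 2 / (n + 1) ^ 2) * (n + 1) = t ^ 2 := by field_simp
      rw [this]
      nlinarith [hh0 x]
    calc |deriv (fun s => Real.smoothTransition (s - 1)) t| * ((n + 1) * |fderiv ℝ h x (ev j)|) *
          h x ^ 2
        = |deriv (fun s => Real.smoothTransition (s - 1)) t| * |fderiv ℝ h x (ev j)| *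
          ((n + 1) * h x ^ 2) := by ring
      _ ≤ M * |fderiv ℝ h x (ev j)| * (4 / (n + 1)) := by gcongr

end Vale.Agent.P073.H655
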