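import Vale.Agent.P073.RT.Rows
import Vale.Agent.P073.Net.NearDefs
import Vale.Agent.P073.PK.Sob560c
import Vale.Agent.P073.PA285.Top
import Mathlib.MeasureTheory.Integral.IntervalIntegral.AbsolutelyContinuousFun
import Mathlib.MeasureTheory.SpecificCodomains.Pi

/-!
# P073, theorem (RT), row G3: conical approximants
-/

namespace Vale.Agent.P073.H655

open MeasureTheory Set Filter Topology Metric Vale.Agent.P073.St
open _root_.P073 (ConHomeo)
open _root_.P073.PLS (Rat3)
open scoped ContDiff ENNReal NNReal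

/-- a continuous function which is locally `L`-Lipschitz at every point is `L`-Lipschitz -/
theorem norm_sub_le_of_loc {u : ℝ → V} {s t L : ℝ} (hst : s ≤ t)
    (hu : ContinuousOn u (Icc s t))
    (h : ∀ r ∈ Icc s t, ∀ᶠ r' in 𝓝 r, ‖u r' - u r‖ ≤ L * |r' - r|) :
    ‖u t - u s‖ ≤ L * (t - s) := by
  set S : Set ℝ := {r | ‖u r - u s‖ ≤ L * (r - s)} with hS
  have hcl : IsClosed (S ∩ Icc s t) := by
    have h1 : ContinuousOn (fun r => (‖u r - u s‖, L * (r - s))) (Icc s t) :=
      ((hu.sub continuousOn_const).norm).prodMk (by fun_prop)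
    have h2 := h1.preimage_isClosed_of_isClosed isClosed_Icc OrderClosedTopology.isClosed_le'
    rw [inter_comm]
    exact h2
  have key : Icc s t ⊆ S := by
    apply hcl.Icc_subset_of_forall_exists_gt
    · change ‖u s - u s‖ ≤ L * (s - s)
      simp
    · rintro r ⟨hr, hrs⟩ y hy
      have h1 : ∀ᶠ r' in 𝓝[>] r, ‖u r' - u r‖ ≤ L * |r' - r| :=
        mem_nhdsWithin_of_mem_nhds (h r ⟨hrs.1, hrs.2.le⟩)
      have h2 : ∀ᶠ r' in 𝓝[>] r, r' ∈ Ioc r y := Ioc_mem_nhdsGT hy
      obtain ⟨r', h3, h4⟩ := (h1.and h2).exists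
      refine ⟨r', ?_, h4⟩
      change ‖u r' - u s‖ ≤ L * (r' - s)
      rw [abs_of_pos (sub_pos.2 h4.1)] at h3
      calc ‖u r' - u s‖ ≤ ‖u r' - u r‖ + ‖u r - u s‖ := norm_sub_le_norm_sub_add_norm_sub _ _ _
        _ ≤ L * (r' - r) + L * (r - s) := add_le_add h3 hr
        _ = L * (r' - s) := by ring
  exact key ⟨hst, le_rfl⟩

/-- a Lipschitz curve is the integral of its derivative -/
theorem exists_D_of_lip {u : ℝ → V} {C : ℝ≥0} (hu : LipschitzOnWith C u (Icc 0 1)) :
    ∃ D : ℝ → V, IntervalIntegrable D volume 0 1 ∧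
      ∀ t ∈ Icc (0:ℝ) 1, u t = u 0 + ∫ s in (0:ℝ)..t, D s := by
  have hi : ∀ i, ∀ t ∈ Icc (0:ℝ) 1, AbsolutelyContinuousOnInterval (fun r => u r i) 0 t := by
    intro i t ht
    have h1 : LipschitzOnWith C (fun r => u r i) (uIcc 0 t) := by
      rw [uIcc_of_le ht.1]
      intro x hx y hy
      refine le_trans ?_ (hu ⟨hx.1, hx.2.trans ht.2⟩ ⟨hy.1, hy.2.trans ht.2⟩)
      exact edist_le_pi_edist (u x) (u y) i
    exact h1.absolutelyContinuousOnInterval
  have hint : ∀ t ∈ Icc (0:ℝ) 1, ∀ i, IntervalIntegrable (deriv fun r => u r i) volume 0 t :=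
    fun t ht i => (hi i t ht).intervalIntegrable_deriv
  refine ⟨fun t i => deriv (fun r => u r i) t, ?_, fun t ht => ?_⟩
  · rw [intervalIntegrable_iff_integrableOn_Ioc_of_le zero_le_one]
    refine integrable_pi_iff.2 fun i => ?_
    have h1 := hint 1 ⟨zero_le_one, le_rfl⟩ i
    rwa [intervalIntegrable_iff_integrableOn_Ioc_of_le zero_le_one] at h1
  · funext i
    have h1 : (∫ s in (0:ℝ)..t, (fun i => deriv (fun r => u r i) s : V)) i =
        ∫ s in (0:ℝ)..t, deriv (fun r => u r i) s := by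
      rw [intervalIntegral.integral_of_le ht.1, intervalIntegral.integral_of_le ht.1]
      refine eval_integral (f := fun s => (fun i => deriv (fun r => u r i) s : V)) (fun j => ?_) i
      have h1 := hint t ht j
      rwa [intervalIntegrable_iff_integrableOn_Ioc_of_le ht.1] at h1
    rw [Pi.add_apply, h1, (hi i t ht).integral_deriv_eq_sub]
    ring

/-- **Row G3** -/
theorem specApp : RT.SpecApp := by
  intro p Ω Λ K f g F hp hΩ hΛ hf hF hg hK hKo hgK hinf hloc δ hδ
  have hfc : ContinuousOn f Ω := hf.choose_spec.2.1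
  have hgc : ContinuousOn g Ω := hg.choose_spec.2.1
  have hvol : volume Ω ≠ ⊤ := PK.volume_ne_top_of_domain hΩ
  obtain ⟨o, ho⟩ := (PK.ae_ratGood hp hΩ.1 hvol hfc hF).exists
  have hfAC := PK.RatGood.ratAC ho
  have hgAC : _root_.P073.Top.RatAC o Ω g := by
    intro a ha b hb hab
    obtain ⟨D, hD, hDe⟩ := hfAC a ha b hb hab
    set γ : ℝ → V := fun t => a + t • (b - a) with hγ
    have hγΩ : ∀ t ∈ Icc (0:ℝ) 1, γ t ∈ Ω := by
      intro t ht
      apply hab
      rw [segment_eq_image']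
      exact ⟨t, ht, rfl⟩
    have hγc : Continuous γ := by fun_prop
    have hγd : ∀ s t, ‖γ t - γ s‖ = ‖b - a‖ * |t - s| := by
      intro s t
      simp only [hγ, add_sub_add_left_eq_sub, ← sub_smul, norm_smul, Real.norm_eq_abs]
      ring
    set u : ℝ → V := fun t => g (γ t) - f (γ t) with hu
    have huc : ContinuousOn u (Icc 0 1) :=
      (hgc.comp hγc.continuousOn hγΩ).sub (hfc.comp hγc.continuousOn hγΩ)
    have hu0 : ∀ s ∈ Icc (0:ℝ) 1, ∀ τ ∈ Icc (0:ℝ) 1, γ τ ∈ K → ‖u s‖ ≤ ‖b - a‖ * |s - τ| := by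
      intro s hs τ hτ hτK
      by_cases hsK : γ s ∈ K
      · have : u s = 0 := by simp only [hu, hgK _ hsK, sub_self]
        rw [this, norm_zero]
        positivity
      · refine (hinf ⟨_, hτK⟩ _ ⟨hγΩ s hs, hsK⟩).trans ?_
        refine (infDist_le_dist_of_mem hτK).trans ?_
        rw [dist_eq_norm, hγd]
    have key : ∀ s ∈ Icc (0:ℝ) 1, ∀ t ∈ Icc (0:ℝ) 1, s ≤ t → ‖u t - u s‖ ≤ ‖b - a‖ * (t - s) := by
      intro s hs t ht hst
      by_cases hτ : ∃ τ ∈ Icc s t, γ τ ∈ K
      · obtain ⟨τ, hτ, hτK⟩ := hτ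
        have hτ' : τ ∈ Icc (0:ℝ) 1 := ⟨hs.1.trans hτ.1, hτ.2.trans ht.2⟩
        have h1 := hu0 s hs τ hτ' hτK
        have h2 := hu0 t ht τ hτ' hτK
        rw [abs_of_nonpos (by linarith [hτ.1])] at h1
        rw [abs_of_nonneg (by linarith [hτ.2])] at h2
        calc ‖u t - u s‖ ≤ ‖u t‖ + ‖u s‖ := norm_sub_le _ _
          _ ≤ ‖b - a‖ * (t - τ) + ‖b - a‖ * -(s - τ) := add_le_add h2 h1
          _ = ‖b - a‖ * (t - s) := by ring
      · push Not at hτ
        refine norm_sub_le_of_loc hst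
          (huc.mono (Icc_subset_Icc hs.1 ht.2)) fun r hr => ?_
        have h1 := hloc (γ r) ⟨hγΩ r ⟨hs.1.trans hr.1, hr.2.trans ht.2⟩, hτ r hr⟩
        have h2 := (hγc.continuousAt (x := r)).eventually h1
        filter_upwards [h2] with r' h3
        have h4 : u r' - u r = (g (γ r') - g (γ r)) - (f (γ r') - f (γ r)) := by
          simp only [hu]
          abel
        rw [h4]
        refine h3.trans ?_
        rw [one_mul, hγd]
    have hlip : LipschitzOnWith (Real.toNNReal ‖b - a‖) u (Icc 0 1) := by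
      refine LipschitzOnWith.of_dist_le_mul fun s hs t ht => ?_
      rw [Real.coe_toNNReal _ (norm_nonneg _), dist_eq_norm, Real.dist_eq]
      rcases le_total s t with h | h
      · rw [norm_sub_rev, abs_sub_comm, abs_of_nonneg (by linarith)]
        exact key s hs t ht h
      · rw [abs_of_nonneg (by linarith)]
        exact key t ht s hs h
    obtain ⟨D', hD', hDe'⟩ := exists_D_of_lip hlip
    refine ⟨fun t => D t + D' t, hD.add hD', fun t ht => ?_⟩
    have hi1 : IntervalIntegrable D volume 0 t :=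
      hD.mono_set (by rw [uIcc_of_le ht.1, uIcc_of_le zero_le_one]; exact Icc_subset_Icc le_rfl ht.2)
    have hi2 : IntervalIntegrable D' volume 0 t :=
      hD'.mono_set (by rw [uIcc_of_le ht.1, uIcc_of_le zero_le_one]; exact Icc_subset_Icc le_rfl ht.2)
    rw [intervalIntegral.integral_add hi1 hi2]
    have h1 := hDe t ht
    have h2 := hDe' t ht
    have h3 : u t = g (a + t • (b - a)) - f (a + t • (b - a)) := rfl
    have h4 : u 0 = g a - f a := by simp [hu, hγ]
    rw [h3, h4, h1] at h2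
    have h5 : g (a + t • (b - a)) = (g a - f a + ∫ s in (0:ℝ)..t, D' s) +
        (f a + ∫ s in (0:ℝ)..t, D s) := by
      rw [← h2]
      abel
    rw [h5]
    abel
  obtain ⟨h, hh, -⟩ := PA285.netOutN 1 Ω Λ g o
    { ι := Empty, a := Empty.elim, b := Empty.elim, ne := fun i => i.elim, sub := fun i => i.elim,
      fin := fun _ _ _ => Set.toFinite _, meet := fun i => i.elim }
    (fun i => i.elim) le_rfl (by norm_num) hΩ.1 hΩ.2.1 hΛ.1 hg hgAC (fun i => i.elim)
    ⟨fun i => i.elim, fun i => i.elim⟩ (fun i => i.elim) (fun i => i.elim) (fun i => i.elim)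
    (fun _ => δ) continuousOn_const (fun _ _ => hδ)
  exact ⟨h, hh⟩

end Vale.Agent.P073.H655
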