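import Vale.Agent.P073.H880.PL

/-!
# P073: the closure of the class of diffeomorphically approximable maps
-/

namespace Vale.Agent.P073.H655

open MeasureTheory Set Filter Topology Metric Vale.Agent.P073.AB Vale.Agent.P073.H880
open Vale.Agent.P073.St (V Mat euc frob jac int)
open Vale.Agent.P073.SQ (ev)
open scoped ContDiff ENNReal

variable {p : ℝ} {Ω Λ : Set V}

/-- the error of a diffeomorphism, from the integral -/
theorem err_le_int (hp : 1 ≤ p) (hΩ : IsOpen Ω) {f h : V → V} {F : V → Mat}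
    (hF : St.IsSobolev p Ω f F) (hh : ContDiffOn ℝ ∞ h Ω) (hhS : St.IsSobolev p Ω h (jac h)) :
    err p Ω f F h ≤
      4 * ENNReal.ofReal (int Ω (fun x => euc (h x - f x) ^ p + frob (jac h x - F x) ^ p)) := by
  refine le_trans (le_of_eq ?_) (lintegral_le_int hp hF hhS)
  unfold err
  congr 1
  refine Finset.sum_congr rfl fun j _ => ?_
  refine setLIntegral_congr_fun hΩ.measurableSet fun x hx => ?_
  have h1 : cl (jac h x) (ev j) = fderiv ℝ h x (ev j) := by
    rw [cl_ev]
    funext i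
    exact jac_eq hΩ hh hx i j
  simp only [h1]

/-- **the closure**: limits of diffeomorphically approximable maps are diffeomorphically
approximable -/
theorem approximable_of_limit (hp : 1 ≤ p) (hΩ : St.IsBoundedDomain Ω)
    (hΛ : St.IsBoundedDomain Λ) {f : V → V} {F : V → Mat} (hf : St.IsHomeo Ω Λ f)
    (hF : St.IsSobolev p Ω f F) {g : ℕ → V → V} {G : ℕ → V → Mat}
    (hG : ∀ k, St.IsSobolev p Ω (g k) (G k))
    (hg : ∀ k, St.DiffeoApproximable p Ω Λ (g k) (G k))
    (hlim : Tendsto (fun k => int Ω (fun x => euc (g k x - f x) ^ p + frob (G k x - F x) ^ p))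
      atTop (𝓝 0)) : St.DiffeoApproximable p Ω Λ f F := by
  have hfc : ContinuousOn f Ω := hf.choose_spec.2.1
  have hdif : ∀ k, ∃ h : V → V, St.IsDiffeo Ω Λ h ∧
      err p Ω (g k) (G k) h ≤ 4 * ENNReal.ofReal (1 / ((k : ℝ) + 1)) := by
    intro k
    obtain ⟨h, hh, hlimk⟩ := hg k
    obtain ⟨m, hm⟩ := (hlimk.eventually (gt_mem_nhds
      (show (0 : ℝ) < 1 / ((k : ℝ) + 1) by positivity))).exists
    refine ⟨h m, (hh m).1, ?_⟩
    refine (err_le_int hp hΩ.1 (hG k) (diffeo_smooth (hh m).1) (hh m).2).trans ?_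
    gcongr
  refine approximable_of hp hΩ hΛ hfc hF (b := fun k : ℕ => 2 ^ (p - 1) *
    (4 * ENNReal.ofReal (1 / ((k : ℝ) + 1)) + 4 * ENNReal.ofReal (int Ω
      (fun x => euc (g k x - f x) ^ p + frob (G k x - F x) ^ p)))) ?_ (fun k => ?_) fun k => ?_
  · have e1 := ENNReal.tendsto_ofReal (tendsto_one_div_add_atTop_nhds_zero_nat (𝕜 := ℝ))
    have e2 := ENNReal.tendsto_ofReal hlim
    rw [ENNReal.ofReal_zero] at e1 e2
    have e3 := ENNReal.Tendsto.const_mul (a := 4) e2 (Or.inr (by norm_num))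
    have e1' := ENNReal.Tendsto.const_mul (a := 4) e1 (Or.inr (by norm_num))
    have e4 := ENNReal.Tendsto.const_mul (a := (2 : ℝ≥0∞) ^ (p - 1)) (e1'.add e3)
      (Or.inr two_rpow_ne_top)
    simpa using e4
  · exact ENNReal.mul_ne_top two_rpow_ne_top (ENNReal.add_ne_top.2
      ⟨ENNReal.mul_ne_top (by norm_num) ENNReal.ofReal_ne_top,
      ENNReal.mul_ne_top (by norm_num) ENNReal.ofReal_ne_top⟩)
  · obtain ⟨h, hh, hhe⟩ := hdif k
    refine ⟨h, hh, (err_le hp hΩ.1 (hG k) (diffeo_smooth hh)).trans ?_⟩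
    gcongr
    exact lintegral_le_int hp hF (hG k)

end Vale.Agent.P073.H655
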