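import Vale.Agent.P073.Bdl.B2

/-!
# P073: fine approximation of a composition
-/

set_option maxSynthPendingDepth 3

namespace Vale.Agent.P073

open MeasureTheory Set Filter Topology Metric
open scoped Real InnerProductSpace ENNReal ContDiff

variable {Ω Λ Ξ : Set R3} {f g : R3 → R3} {F G : R3 → R3 →L[ℝ] R3} {C C' : R3 → ℝ}

theorem IsDiffeo.comp {g₁ g₂ : R3 → R3} (h1 : IsDiffeo Ω Λ g₁) (h2 : IsDiffeo Λ Ξ g₂) :
    IsDiffeo Ω Ξ (g₂ ∘ g₁) := by
  obtain ⟨b1, c1, k1, d1, i1⟩ := h1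
  obtain ⟨b2, c2, k2, d2, i2⟩ := h2
  have m2 : MapsTo k2 Ξ Λ := by
    intro z hz
    obtain ⟨y, hy, rfl⟩ := b2.surjOn hz
    rw [i2.1 hy]
    exact hy
  refine ⟨b2.comp b1, c2.comp c1 b1.mapsTo, k1 ∘ k2, d1.comp d2 m2, ?_, ?_⟩
  · intro x hx
    show k1 (k2 (g₂ (g₁ x))) = x
    rw [i2.1 (b1.mapsTo hx), i1.1 hx]
  · intro z hz
    show g₂ (g₁ (k1 (k2 z))) = z
    rw [i1.2 (m2 hz), i2.2 hz]

theorem IsHomeo.comp {f g : R3 → R3} (h1 : IsHomeo Ω Λ f) (h2 : IsHomeo Λ Ξ g) :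
    IsHomeo Ω Ξ (g ∘ f) := by
  obtain ⟨b1, c1, k1, d1, i1⟩ := h1
  obtain ⟨b2, c2, k2, d2, i2⟩ := h2
  have m2 : MapsTo k2 Ξ Λ := by
    intro z hz
    obtain ⟨y, hy, rfl⟩ := b2.surjOn hz
    rw [i2.1 hy]
    exact hy
  refine ⟨b2.comp b1, c2.comp c1 b1.mapsTo, k1 ∘ k2, d1.comp d2 m2, ?_, ?_⟩
  · intro x hx
    show k1 (k2 (g (f x))) = x
    rw [i2.1 (b1.mapsTo hx), i1.1 hx]
  · intro z hz
    show g (f (k1 (k2 z))) = z
    rw [i1.2 (m2 hz), i2.2 hz]

/-- **the composition of finely approximable maps is finely approximable** -/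
theorem Fine.comp (hΩ : IsOpen Ω) (hΩb : Bornology.IsBounded Ω) (hΛ : IsOpen Λ)
    (hf : Fine Ω Λ f F C) (hg : Fine Λ Ξ g G C') :
    ∃ H C'', Fine Ω Ξ (g ∘ f) H C'' := by
  classical
  obtain ⟨hfb, hfc, k, hkc, hkf, hfk⟩ := hf.homeo
  obtain ⟨-, hgc, -⟩ := hg.homeo
  have hfΛ : ∀ x ∈ Ω, f x ∈ Λ := fun x hx => hfb.mapsTo hx
  have hkΩ : MapsTo k Λ Ω := by
    intro y hy
    obtain ⟨x, hx, rfl⟩ := hfb.surjOn hy
    rw [hkf hx]
    exact hx
  set f' : R3 → R3 := Ω.indicator f with hf'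
  have hff' : ∀ x ∈ Ω, f' x = f x := fun x hx => indicator_of_mem hx f
  have hf'm : Measurable f' := by
    rw [hf', ← piecewise_eq_indicator]
    exact hfc.measurable_piecewise continuousOn_const hΩ.measurableSet
  have hCf : ContinuousOn (fun x => C' (f x)) Ω := hg.contC.comp hfc hfb.mapsTo
  refine ⟨fun x => (G (f' x)).comp (F x), fun x => 2 * C' (f x) * C x, hf.homeo.comp hg.homeo,
    ?_, (continuousOn_const.mul hCf).mul hf.contC, fun x hx =>
      mul_pos (mul_pos two_pos (hg.posC _ (hfΛ x hx))) (hf.posC x hx), fun x hx => ?_,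
    fun w hw => ?_⟩
  · have h1 : Measurable fun x => ((G (f' x), F x) : (R3 →L[ℝ] R3) × (R3 →L[ℝ] R3)) :=
      (hg.meas.comp hf'm).prodMk hf.meas
    have h2 : Continuous fun q : (R3 →L[ℝ] R3) × (R3 →L[ℝ] R3) => q.1.comp q.2 :=
      continuous_fst.clm_comp continuous_snd
    exact h2.measurable.comp h1
  · rw [hff' x hx]
    have h1 := hg.bdF _ (hfΛ x hx)
    have h2 := hf.bdF x hx
    have h3 := hg.posC _ (hfΛ x hx)
    have h4 := hf.posC x hx
    refine (ContinuousLinearMap.opNorm_comp_le _ _).trans ?_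
    calc ‖G (f x)‖ * ‖F x‖ ≤ C' (f x) * C x := mul_le_mul h1 h2 (norm_nonneg _) h3.le
      _ ≤ 2 * C' (f x) * C x := by nlinarith [mul_pos h3 h4]
  -- the weight at least one
  set w1 : R3 → ℝ := fun x => |w x| + 1 with hw1
  have hw1c : ContinuousOn w1 Ω := hw.abs.add continuousOn_const
  have hw10 : ∀ x, 1 ≤ w1 x := fun x => by
    have := abs_nonneg (w x)
    simp only [hw1]; linarith
  have hww : ∀ x, w x ≤ w1 x := fun x => by
    have := le_abs_self (w x)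
    simp only [hw1]; linarith
  -- the weight in the middle
  set φ : R3 → ℝ := fun x => w1 x * (C x ^ 4 + 1) with hφ
  have hφc : ContinuousOn φ Ω := hw1c.mul ((hf.contC.pow 4).add continuousOn_const)
  have hφ1 : ∀ x ∈ Ω, w1 x ≤ φ x := by
    intro x hx
    have h1 : 0 ≤ C x ^ 4 := by positivity
    have h2 := hw10 x
    simp only [hφ]
    nlinarith
  set W : R3 → ℝ := fun y => 16 * φ (k y) with hW
  have hφk : ContinuousOn (fun y => φ (k y)) Λ := hφc.comp hkc hkΩ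
  have hWc : ContinuousOn W Λ := continuousOn_const.mul hφk
  obtain ⟨g₁, hg₁, hg₁1, hg₁2, hg₁3, hg₁4⟩ := hg.approx W hWc
  -- the derivative of `g₁`
  have hDg : ContinuousOn (fderiv ℝ g₁) Λ := hg₁.2.1.continuousOn_fderiv_of_isOpen hΛ (by simp)
  -- the volume
  have hvol : volume Ω ≠ ⊤ := hΩb.measure_lt_top.ne
  obtain ⟨η, hη, hηv⟩ : ∃ η : ℝ, 0 < η ∧ ENNReal.ofReal η * volume Ω ≤ ENNReal.ofReal (1 / 4) := by
    refine ⟨1 / (4 * ((volume Ω).toReal + 1)), by positivity, ?_⟩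
    rw [← ENNReal.ofReal_toReal hvol, ← ENNReal.ofReal_mul (by positivity)]
    apply ENNReal.ofReal_le_ofReal
    rw [ENNReal.toReal_ofReal ENNReal.toReal_nonneg]
    have h1 : (0:ℝ) ≤ (volume Ω).toReal := ENNReal.toReal_nonneg
    rw [div_mul_eq_mul_div, one_mul, div_le_div_iff₀ (by positivity) (by norm_num)]
    nlinarith
  -- the open condition
  obtain ⟨w2, hw2c, hw20, hw2⟩ := exists_weight hΩ hfc (p := fun x y =>
      y ∈ Λ ∧ C' y < 2 * C' (f x) ∧ ‖g y - g (f x)‖ * w1 x < 1 / 2 ∧ 8 * w1 x < W y ∧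
        ‖fderiv ℝ g₁ y - fderiv ℝ g₁ (f x)‖ * (w1 x * C x) < η) (by
    intro a ha
    have hfa : ContinuousAt f a := hfc.continuousAt (hΩ.mem_nhds ha)
    have t1 : Tendsto (fun q : R3 × R3 => f q.1) (𝓝 (a, f a)) (𝓝 (f a)) :=
      hfa.tendsto.comp (continuous_fst.tendsto (a, f a))
    have t2 : Tendsto (fun q : R3 × R3 => q.2) (𝓝 (a, f a)) (𝓝 (f a)) :=
      continuous_snd.tendsto (a, f a)
    have tw : Tendsto (fun q : R3 × R3 => w1 q.1) (𝓝 (a, f a)) (𝓝 (w1 a)) :=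
      (hw1c.continuousAt (hΩ.mem_nhds ha)).tendsto.comp (continuous_fst.tendsto (a, f a))
    have tC : Tendsto (fun q : R3 × R3 => C q.1) (𝓝 (a, f a)) (𝓝 (C a)) :=
      (hf.contC.continuousAt (hΩ.mem_nhds ha)).tendsto.comp (continuous_fst.tendsto (a, f a))
    have nΛ := hΛ.mem_nhds (hfΛ a ha)
    have e1 : ∀ᶠ q : R3 × R3 in 𝓝 (a, f a), q.2 ∈ Λ := t2.eventually nΛ
    have cC' : ContinuousAt C' (f a) := hg.contC.continuousAt nΛ
    have p' := hg.posC _ (hfΛ a ha)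
    have e2 : ∀ᶠ q : R3 × R3 in 𝓝 (a, f a), C' q.2 < 2 * C' (f q.1) :=
      (cC'.tendsto.comp t2).eventually_lt ((cC'.tendsto.comp t1).const_mul 2) (by linarith)
    have cg : ContinuousAt g (f a) := hgc.continuousAt nΛ
    have e3 : ∀ᶠ q : R3 × R3 in 𝓝 (a, f a), ‖g q.2 - g (f q.1)‖ * w1 q.1 < 1 / 2 := by
      have h1 := (((cg.tendsto.comp t2).sub (cg.tendsto.comp t1)).norm).mul tw
      rw [sub_self, norm_zero, zero_mul] at h1
      exact h1.eventually_lt_const (by norm_num)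
    have cW : ContinuousAt W (f a) := hWc.continuousAt nΛ
    have e4 : ∀ᶠ q : R3 × R3 in 𝓝 (a, f a), 8 * w1 q.1 < W q.2 := by
      refine (tw.const_mul 8).eventually_lt (cW.tendsto.comp t2) ?_
      have h1 : W (f a) = 16 * φ a := by simp only [hW, hkf ha]
      rw [h1]
      have h2 := hφ1 a ha
      have h3 := hw10 a
      linarith
    have cD : ContinuousAt (fderiv ℝ g₁) (f a) := hDg.continuousAt nΛ
    have e5 : ∀ᶠ q : R3 × R3 in 𝓝 (a, f a),
        ‖fderiv ℝ g₁ q.2 - fderiv ℝ g₁ (f q.1)‖ * (w1 q.1 * C q.1) < η := by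
      have h1 := (((cD.tendsto.comp t2).sub (cD.tendsto.comp t1)).norm).mul (tw.mul tC)
      rw [sub_self, norm_zero, zero_mul] at h1
      exact h1.eventually_lt_const hη
    filter_upwards [e1, e2, e3, e4, e5] with q h1 h2 h3 h4 h5
    exact ⟨h1, h2, h3, h4, h5⟩)
  -- the approximation of `f`
  set w3 : R3 → ℝ := fun x => w2 x + 8 * (w1 x * C' (f x)) with hw3
  have hw3c : ContinuousOn w3 Ω := hw2c.add (continuousOn_const.mul (hw1c.mul hCf))
  have hb3 : ∀ x ∈ Ω, 0 ≤ 8 * (w1 x * C' (f x)) := fun x hx =>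
    mul_nonneg (by norm_num) (mul_nonneg (zero_le_one.trans (hw10 x)) (hg.posC _ (hfΛ x hx)).le)
  obtain ⟨f₁, hf₁, hf₁1, hf₁2, hf₁3, hf₁4⟩ := hf.approx w3 hw3c
  have hp : ∀ x ∈ Ω, f₁ x ∈ Λ ∧ C' (f₁ x) < 2 * C' (f x) ∧
      ‖g (f₁ x) - g (f x)‖ * w1 x < 1 / 2 ∧ 8 * w1 x < W (f₁ x) ∧
        ‖fderiv ℝ g₁ (f₁ x) - fderiv ℝ g₁ (f x)‖ * (w1 x * C x) < η := by
    intro x hx
    refine hw2 x hx (f₁ x) ?_
    refine le_trans (mul_le_mul_of_nonneg_left ?_ (norm_nonneg _)) (hf₁1 x hx)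
    have := hb3 x hx
    simp only [hw3]; linarith
  have hd₁ : ∀ x ∈ Ω, DifferentiableAt ℝ f₁ x := fun x hx =>
    (hf₁.2.1.contDiffAt (hΩ.mem_nhds hx)).differentiableAt (by simp)
  have hd₂ : ∀ y ∈ Λ, DifferentiableAt ℝ g₁ y := fun y hy =>
    (hg₁.2.1.contDiffAt (hΛ.mem_nhds hy)).differentiableAt (by simp)
  have hchain : ∀ x ∈ Ω, fderiv ℝ (g₁ ∘ f₁) x = (fderiv ℝ g₁ (f₁ x)).comp (fderiv ℝ f₁ x) :=
    fun x hx => fderiv_comp x (hd₂ _ (hp x hx).1) (hd₁ x hx)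
  refine ⟨g₁ ∘ f₁, hf₁.comp hg₁, fun x hx => ?_, fun x hx => ?_, fun x hx v => ?_, ?_⟩
  · -- closeness
    obtain ⟨h1, h2, h3, h4, h5⟩ := hp x hx
    have h6 := hg₁1 _ h1
    have hw0 : 0 < w1 x := zero_lt_one.trans_le (hw10 x)
    have h7 : ‖g₁ (f₁ x) - g (f₁ x)‖ * (8 * w1 x) ≤ 1 :=
      (mul_le_mul_of_nonneg_left h4.le (norm_nonneg _)).trans h6
    have h8 : ‖(g₁ ∘ f₁) x - (g ∘ f) x‖ * w x ≤ ‖(g₁ ∘ f₁) x - (g ∘ f) x‖ * w1 x :=
      mul_le_mul_of_nonneg_left (hww x) (norm_nonneg _)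
    refine h8.trans ?_
    have h9 : ‖(g₁ ∘ f₁) x - (g ∘ f) x‖ ≤ ‖g₁ (f₁ x) - g (f₁ x)‖ + ‖g (f₁ x) - g (f x)‖ :=
      norm_sub_le_norm_sub_add_norm_sub _ _ _
    calc ‖(g₁ ∘ f₁) x - (g ∘ f) x‖ * w1 x
        ≤ (‖g₁ (f₁ x) - g (f₁ x)‖ + ‖g (f₁ x) - g (f x)‖) * w1 x :=
          mul_le_mul_of_nonneg_right h9 hw0.le
      _ = ‖g₁ (f₁ x) - g (f₁ x)‖ * w1 x + ‖g (f₁ x) - g (f x)‖ * w1 x := by ring
      _ ≤ 1 / 8 + 1 / 2 := by
          refine add_le_add ?_ h3.le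
          linarith
      _ ≤ 1 := by norm_num
  · -- upper bound of the derivative
    obtain ⟨h1, h2, -⟩ := hp x hx
    rw [hchain x hx]
    refine (ContinuousLinearMap.opNorm_comp_le _ _).trans ?_
    exact mul_le_mul ((hg₁2 _ h1).trans h2.le) (hf₁2 x hx) (norm_nonneg _)
      (mul_nonneg zero_le_two (hg.posC _ (hfΛ x hx)).le)
  · -- lower bound of the derivative
    obtain ⟨h1, h2, -⟩ := hp x hx
    rw [hchain x hx]
    have h3 := hf₁3 x hx v
    have h4 := hg₁3 _ h1 (fderiv ℝ f₁ x v)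
    have h5 := hf.posC x hx
    calc ‖v‖ ≤ C x * ‖fderiv ℝ f₁ x v‖ := h3
      _ ≤ C x * (C' (f₁ x) * ‖fderiv ℝ g₁ (f₁ x) (fderiv ℝ f₁ x v)‖) :=
          mul_le_mul_of_nonneg_left h4 h5.le
      _ ≤ C x * (2 * C' (f x) * ‖fderiv ℝ g₁ (f₁ x) (fderiv ℝ f₁ x v)‖) := by
          refine mul_le_mul_of_nonneg_left ?_ h5.le
          exact mul_le_mul_of_nonneg_right h2.le (norm_nonneg _)
      _ = 2 * C' (f x) * C x * ‖(fderiv ℝ g₁ (f₁ x)).comp (fderiv ℝ f₁ x) v‖ := by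
          rw [ContinuousLinearMap.comp_apply]; ring
  · -- the integral
    set A : R3 → ℝ≥0∞ := fun x => ENNReal.ofReal (1 / 4) *
      ENNReal.ofReal (w3 x * ‖fderiv ℝ f₁ x - F x‖) with hA
    set u : R3 → ℝ≥0∞ := fun y => ENNReal.ofReal ‖fderiv ℝ g₁ y - G y‖ with hu
    have hum : Measurable u :=
      ((measurable_fderiv ℝ g₁).sub hg.meas).norm.ennreal_ofReal
    have hpt : ∀ x ∈ Ω, ENNReal.ofReal (w x * ‖fderiv ℝ (g₁ ∘ f₁) x - (G (f' x)).comp (F x)‖) ≤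
        A x + (ENNReal.ofReal η + ENNReal.ofReal (w1 x * C x) * u (f x)) := by
      intro x hx
      obtain ⟨h1, h2, h3, h4, h5⟩ := hp x hx
      have hw0 : 0 < w1 x := zero_lt_one.trans_le (hw10 x)
      have hC0 := hf.posC x hx
      have hC'0 := hg.posC _ (hfΛ x hx)
      rw [hff' x hx, hchain x hx, hA, hu]
      simp only
      rw [← ENNReal.ofReal_mul (by norm_num), ← ENNReal.ofReal_mul (by positivity),
        ← ENNReal.ofReal_add hη.le (by positivity)]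
      have hw30 : 0 ≤ w3 x := by
        have := hb3 x hx
        have := hw20 x hx
        simp only [hw3]; linarith
      rw [← ENNReal.ofReal_add (by positivity) (by positivity)]
      apply ENNReal.ofReal_le_ofReal
      have e : (fderiv ℝ g₁ (f₁ x)).comp (fderiv ℝ f₁ x) - (G (f x)).comp (F x) =
          (fderiv ℝ g₁ (f₁ x)).comp (fderiv ℝ f₁ x - F x) +
            ((fderiv ℝ g₁ (f₁ x) - fderiv ℝ g₁ (f x)).comp (F x) +
              (fderiv ℝ g₁ (f x) - G (f x)).comp (F x)) := by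
        ext1 v
        simp only [sub_apply, add_apply, ContinuousLinearMap.comp_apply, map_sub]
        abel
      have n1 : ‖(fderiv ℝ g₁ (f₁ x)).comp (fderiv ℝ f₁ x - F x)‖ ≤
          2 * C' (f x) * ‖fderiv ℝ f₁ x - F x‖ :=
        (ContinuousLinearMap.opNorm_comp_le _ _).trans
          (mul_le_mul_of_nonneg_right ((hg₁2 _ h1).trans h2.le) (norm_nonneg _))
      have n2 : ‖(fderiv ℝ g₁ (f₁ x) - fderiv ℝ g₁ (f x)).comp (F x)‖ ≤
          ‖fderiv ℝ g₁ (f₁ x) - fderiv ℝ g₁ (f x)‖ * C x :=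
        (ContinuousLinearMap.opNorm_comp_le _ _).trans
          (mul_le_mul_of_nonneg_left (hf.bdF x hx) (norm_nonneg _))
      have n3 : ‖(fderiv ℝ g₁ (f x) - G (f x)).comp (F x)‖ ≤
          ‖fderiv ℝ g₁ (f x) - G (f x)‖ * C x :=
        (ContinuousLinearMap.opNorm_comp_le _ _).trans
          (mul_le_mul_of_nonneg_left (hf.bdF x hx) (norm_nonneg _))
      have n4 := norm_add_le ((fderiv ℝ g₁ (f₁ x)).comp (fderiv ℝ f₁ x - F x))
        ((fderiv ℝ g₁ (f₁ x) - fderiv ℝ g₁ (f x)).comp (F x) +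
              (fderiv ℝ g₁ (f x) - G (f x)).comp (F x))
      have n5 := norm_add_le ((fderiv ℝ g₁ (f₁ x) - fderiv ℝ g₁ (f x)).comp (F x))
        ((fderiv ℝ g₁ (f x) - G (f x)).comp (F x))
      rw [e]
      set a0 := ‖fderiv ℝ f₁ x - F x‖
      set b0 := ‖fderiv ℝ g₁ (f₁ x) - fderiv ℝ g₁ (f x)‖
      set c0 := ‖fderiv ℝ g₁ (f x) - G (f x)‖
      have n6 : ‖(fderiv ℝ g₁ (f₁ x)).comp (fderiv ℝ f₁ x - F x) +
            ((fderiv ℝ g₁ (f₁ x) - fderiv ℝ g₁ (f x)).comp (F x) +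
              (fderiv ℝ g₁ (f x) - G (f x)).comp (F x))‖ ≤
          2 * C' (f x) * a0 + (b0 * C x + c0 * C x) := by linarith
      have ha0 : 0 ≤ a0 := norm_nonneg _
      calc w x * ‖(fderiv ℝ g₁ (f₁ x)).comp (fderiv ℝ f₁ x - F x) +
            ((fderiv ℝ g₁ (f₁ x) - fderiv ℝ g₁ (f x)).comp (F x) +
              (fderiv ℝ g₁ (f x) - G (f x)).comp (F x))‖
          ≤ w1 x * (2 * C' (f x) * a0 + (b0 * C x + c0 * C x)) :=
            mul_le_mul (hww x) n6 (norm_nonneg _) hw0.le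
        _ = 1 / 4 * (8 * (w1 x * C' (f x)) * a0) + (b0 * (w1 x * C x) + w1 x * C x * c0) := by
            ring
        _ ≤ 1 / 4 * (w3 x * a0) + (η + w1 x * C x * c0) := by
            refine add_le_add ?_ (by linarith)
            refine mul_le_mul_of_nonneg_left (mul_le_mul_of_nonneg_right ?_ ha0) (by norm_num)
            have := hw20 x hx
            simp only [hw3]; linarith
    have hAm : AEMeasurable A (volume.restrict Ω) := by
      have h1 : AEMeasurable w3 (volume.restrict Ω) := hw3c.aemeasurable hΩ.measurableSet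
      have h2 : AEMeasurable (fun x => ‖fderiv ℝ f₁ x - F x‖) (volume.restrict Ω) :=
        (((measurable_fderiv ℝ f₁).sub hf.meas).norm).aemeasurable
      exact (h1.mul h2).ennreal_ofReal.const_mul _
    have hI1 : ∫⁻ x in Ω, A x ≤ ENNReal.ofReal (1 / 4) := by
      rw [hA, lintegral_const_mul' _ _ ENNReal.ofReal_ne_top]
      calc ENNReal.ofReal (1 / 4) * ∫⁻ x in Ω, ENNReal.ofReal (w3 x * ‖fderiv ℝ f₁ x - F x‖)
          ≤ ENNReal.ofReal (1 / 4) * 1 := by gcongr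
        _ = _ := mul_one _
    have hI3 : ∫⁻ x in Ω, ENNReal.ofReal (w1 x * C x) * u (f x) ≤ ENNReal.ofReal (1 / 16) := by
      have h1 := hf.distort hΩ hΛ (φ := fun x => w1 x * C x) (W := fun y => φ (k y))
        (fun x hx => mul_nonneg (zero_le_one.trans (hw10 x)) (hf.posC x hx).le) hφk
        (fun x hx => by
          simp only [hkf hx, hφ]
          have h2 := hw10 x
          have h3 : w1 x * C x * C x ^ 3 = w1 x * C x ^ 4 := by ring
          rw [h3]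
          nlinarith) hum
      refine h1.trans ?_
      calc ∫⁻ y in Λ, ENNReal.ofReal (φ (k y)) * u y
          = ∫⁻ y in Λ, ENNReal.ofReal (1 / 16) * ENNReal.ofReal (W y * ‖fderiv ℝ g₁ y - G y‖) := by
            refine setLIntegral_congr_fun hΛ.measurableSet fun y hy => ?_
            have h3 : 0 ≤ φ (k y) :=
              (zero_le_one.trans (hw10 _)).trans (hφ1 _ (hkΩ hy))
            simp only [hu]
            rw [← ENNReal.ofReal_mul h3, ← ENNReal.ofReal_mul (by norm_num)]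
            congr 1
            simp only [hW]
            ring
        _ = ENNReal.ofReal (1 / 16) * ∫⁻ y in Λ, ENNReal.ofReal (W y * ‖fderiv ℝ g₁ y - G y‖) :=
            lintegral_const_mul' _ _ ENNReal.ofReal_ne_top
        _ ≤ ENNReal.ofReal (1 / 16) * 1 := by gcongr
        _ = _ := mul_one _
    calc ∫⁻ x in Ω, ENNReal.ofReal (w x * ‖fderiv ℝ (g₁ ∘ f₁) x - (G (f' x)).comp (F x)‖)
        ≤ ∫⁻ x in Ω, (A x + (ENNReal.ofReal η + ENNReal.ofReal (w1 x * C x) * u (f x))) :=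
          setLIntegral_mono' hΩ.measurableSet hpt
      _ = (∫⁻ x in Ω, A x) + (ENNReal.ofReal η * volume Ω +
            ∫⁻ x in Ω, ENNReal.ofReal (w1 x * C x) * u (f x)) := by
          rw [lintegral_add_left' hAm, lintegral_add_left measurable_const, setLIntegral_const]
      _ ≤ ENNReal.ofReal (1 / 4) + (ENNReal.ofReal (1 / 4) + ENNReal.ofReal (1 / 16)) := by
          gcongr
      _ = ENNReal.ofReal (1 / 4 + (1 / 4 + 1 / 16)) := by
          rw [ENNReal.ofReal_add (p := 1 / 4) (q := 1 / 4 + 1 / 16) (by norm_num) (by norm_num),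
            ENNReal.ofReal_add (p := 1 / 4) (q := 1 / 16) (by norm_num) (by norm_num)]
      _ ≤ 1 := by
          rw [← ENNReal.ofReal_one]
          exact ENNReal.ofReal_le_ofReal (by norm_num)

/-- the maps of the class generated by composition are finely approximable -/
theorem fine_of_generated (h : Generated Ω Λ f) :
    IsBoundedDomain Ω ∧ IsBoundedDomain Λ ∧ ∃ F C, Fine Ω Λ f F C := by
  induction h with
  | @base Ω Λ f K hΩ hΛ hf hK hloc =>
    refine ⟨hΩ, hΛ, ?_⟩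
    have hK' : max K 0 < Real.sqrt 5 := max_lt hK (by positivity)
    refine fine_of_local hΩ.1 hΩ.2.2 hΛ.1 hΛ.2.1.isPreconnected hΛ.2.2 hf (le_max_right K 0) ?_
      fun a ha => ?_
    · have h5 : (0:ℝ) ≤ 5 := by norm_num
      nlinarith [Real.sq_sqrt h5, Real.sqrt_nonneg 5, le_max_right K 0]
    · rcases hloc a ha with h | h
      · left
        obtain ⟨U, hU, S, T, H⟩ := h
        refine ⟨U, hU, S, T, fun x hx y hy => ⟨(H x hx y hy).1, (H x hx y hy).2.trans ?_⟩⟩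
        exact mul_le_mul_of_nonneg_right (le_max_left _ _) (norm_nonneg _)
      · exact Or.inr h
  | @comp Ω Λ Ξ f g _ _ ih1 ih2 =>
    obtain ⟨h1, h2, F, C, h3⟩ := ih1
    obtain ⟨h4, h5, G, C', h6⟩ := ih2
    exact ⟨h1, h5, h3.comp h1.1 h1.2.2 h2.1 h6⟩

end Vale.Agent.P073
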