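import Vale.Agent.P073.H655.RowsT

/-!
# P073: maps which satisfy a local condition (small distortion, or directional monotonicity) off the
singular set: statements of the rows
-/

namespace Vale.Agent.P073.H655

open MeasureTheory Set Filter Topology Metric
open Vale.Agent.P073.St (V Mat euc)
open scoped ContDiff ENNReal

/-- **Row D1**: a relatively closed set with null coordinate projections does not separate. -/
def SpecConn : Prop :=
  ∀ (Λ K' : Set V), IsOpen Λ → IsPreconnected Λ → K' ⊆ Λ → IsOpen (Λ \ K') →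
    (∀ l : Fin 3, volume ((fun y : V => y l) '' K') = 0) → IsPreconnected (Λ \ K')

/-- **Row D2**: `Vale.Agent.P073.fine_of_local` (Bdl/B2.lean) with the definitions of `St.lean`. -/
def SpecFineLoc : Prop :=
  ∀ (Ω Λ : Set V) (f : V → V) (K : ℝ), IsOpen Ω → Bornology.IsBounded Ω → IsOpen Λ →
    IsPreconnected Λ → Bornology.IsBounded Λ → St.IsHomeo Ω Λ f → K < Real.sqrt 5 →
    (∀ a ∈ Ω, St.SmallDistortionAt K f a ∨ St.DirMonotoneAt f a) →
    ∃ (D : V → V →L[ℝ] V) (C : V → ℝ), Measurable D ∧ ContinuousOn C Ω ∧ (∀ x ∈ Ω, 0 < C x) ∧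
      (∀ x ∈ Ω, ‖D x‖ ≤ C x) ∧
      ∀ w : V → ℝ, ContinuousOn w Ω → ∃ g : V → V, St.IsDiffeo Ω Λ g ∧
        (∀ x ∈ Ω, ‖g x - f x‖ * w x ≤ 1) ∧ (∀ x ∈ Ω, ‖fderiv ℝ g x‖ ≤ C x) ∧
        ∫⁻ x in Ω, ENNReal.ofReal (w x * ‖fderiv ℝ g x - D x‖) ≤ 1

end Vale.Agent.P073.H655
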