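import Vale.Agent.P073.H655.Sob
import Vale.Agent.P073.H655.Clo
import Vale.Agent.P073.H655.RowsD

/-!
# P073: from fine diffeomorphic approximations off the singular set to the closure
-/

namespace Vale.Agent.P073.H655

open MeasureTheory Set Filter Topology Metric Vale.Agent.P073.St Vale.Agent.P073.AB
open Vale.Agent.P073.SQ (ev)
open scoped ContDiff ENNReal

variable {p : ℝ} {Ω Λ K : Set V}

theorem clm_ext {L M : V →L[ℝ] V} (h : ∀ j, L (ev j) = M (ev j)) : L = M := by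
  have h1 : (L : V →ₗ[ℝ] V) = (M : V →ₗ[ℝ] V) := by
    refine (Pi.basisFun ℝ (Fin 3)).ext fun i => ?_
    rw [Pi.basisFun_apply]
    exact h i
  ext v : 1
  exact congrArg (fun N : V →ₗ[ℝ] V => N v) h1

theorem homeo_restrict (hK : K ⊆ Ω) {f : V → V} (hf : St.IsHomeo Ω Λ f) :
    St.IsHomeo (Ω \ K) (Λ \ f '' K) f := by
  obtain ⟨k, ⟨h1, h2⟩, h3, h4⟩ := hf
  refine ⟨k, ⟨fun x hx => ⟨⟨(h1 x hx.1).1, ?_⟩, (h1 x hx.1).2⟩, fun y hy => ⟨⟨(h2 y hy.1).1, ?_⟩,
    (h2 y hy.1).2⟩⟩, h3.mono sdiff_subset, h4.mono sdiff_subset⟩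
  · rintro ⟨x', hx', he⟩
    have h5 := (h1 x' (hK hx')).2
    rw [he, (h1 x hx.1).2] at h5
    exact hx.2 (h5 ▸ hx')
  · exact fun h => hy.2 ⟨k y, h, (h2 y hy.1).2⟩

theorem diffeo_inj (hΩ : IsOpen Ω) (hΛ : IsOpen Λ) {g : V → V} (hg : St.IsDiffeo Ω Λ g) {x : V}
    (hx : x ∈ Ω) {v : V} (hv : fderiv ℝ g x v = 0) : v = 0 := by
  obtain ⟨k, ⟨h1, h2⟩, h3, h4⟩ := hg
  have hgd : HasFDerivAt g (fderiv ℝ g x) x := diffeo_diff hΩ (smooth_of_sm h3) hx
  have hkd : HasFDerivAt k (fderiv ℝ k (g x)) (g x) :=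
    diffeo_diff hΛ (smooth_of_sm h4) (h1 x hx).1
  have h5 : HasFDerivAt (k ∘ g) ((fderiv ℝ k (g x)).comp (fderiv ℝ g x)) x := hkd.comp x hgd
  have h6 : HasFDerivAt (k ∘ g) (ContinuousLinearMap.id ℝ V) x := by
    refine (hasFDerivAt_id x).congr_of_eventuallyEq ?_
    filter_upwards [hΩ.mem_nhds hx] with z hz using (h1 z hz).2
  have h7 := h5.unique h6
  have h8 : fderiv ℝ k (g x) (fderiv ℝ g x v) = v := by
    have := congrArg (fun L : V →L[ℝ] V => L v) h7
    exact this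
  rw [hv, map_zero] at h8
  exact h8.symm

open Classical in
/-- **homeomorphisms equal to `f` on `K`, smooth off `K`, close to `f` in `W^{1,p}`** -/
theorem exists_off (hp : 1 ≤ p) (hΩ : St.IsBoundedDomain Ω) (hΛ : St.IsBoundedDomain Λ)
    (hK : K ⊆ Ω) (hKo : IsOpen (Ω \ K)) {f : V → V} {F : V → Mat} (hf : St.IsHomeo Ω Λ f)
    (hF : St.IsSobolev p Ω f F) {D : V → V →L[ℝ] V} {C : V → ℝ} (hDm : Measurable D)
    (hC : ContinuousOn C (Ω \ K)) (hC0 : ∀ x ∈ Ω \ K, 0 < C x) (hDC : ∀ x ∈ Ω \ K, ‖D x‖ ≤ C x)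
    (happ : ∀ w : V → ℝ, ContinuousOn w (Ω \ K) → ∃ g : V → V,
      St.IsDiffeo (Ω \ K) (Λ \ f '' K) g ∧ (∀ x ∈ Ω \ K, ‖g x - f x‖ * w x ≤ 1) ∧
      (∀ x ∈ Ω \ K, ‖fderiv ℝ g x‖ ≤ C x) ∧
      ∫⁻ x in Ω \ K, ENNReal.ofReal (w x * ‖fderiv ℝ g x - D x‖) ≤ 1)
    {ε : ℝ} (hε : 0 < ε) :
    ∃ (g : V → V) (G : V → Mat), St.IsHomeo Ω Λ g ∧ St.IsSobolev p Ω g G ∧
      ContDiffOn ℝ 1 g (Ω \ K) ∧ (∀ x ∈ Ω \ K, ∀ v, fderiv ℝ g x v = 0 → v = 0) ∧
      (∀ x ∈ K, g x = f x) ∧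
      int Ω (fun x => euc (g x - f x) ^ p + frob (G x - F x) ^ p) ≤ ε := by
  have hp0 : 0 < p := by linarith
  have hev : ∀ j, ‖ev j‖ = 1 := fun j => by unfold ev; rw [Pi.norm_single]; simp
  have hv := PK.volume_ne_top_of_domain hΩ
  have hKo' : IsOpen (Λ \ f '' K) := isOpen_diff_image hΛ.1 hK hKo hf
  have hfU := homeo_restrict hK hf
  have hfc : ContinuousOn f Ω := by
    obtain ⟨_, -, h, -⟩ := hf
    exact h
  -- `D` is the weak derivative
  have hDF : ∀ᵐ x ∂(volume : Measure V), x ∈ Ω \ K → cl (F x) = D x := by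
    have h1 := D_eq hp hv hF hKo sdiff_subset (hfc.mono sdiff_subset) hDm hC hDC (fun n => by
      obtain ⟨g, hg, hgf, -, hgD⟩ := happ (fun _ => n) continuousOn_const
      exact ⟨g, (diffeo_smooth hg).of_le (by simp), hgf, hgD⟩)
    filter_upwards [h1] with x hx hxU
    exact clm_ext (hx hxU)
  -- the choice of `κ`
  obtain ⟨κ, hκ, hκε⟩ : ∃ κ : ℝ, 0 < κ ∧ ENNReal.ofReal (6 ^ p) *
      (ENNReal.ofReal (κ ^ p) * volume Ω + 3 * ENNReal.ofReal κ) ≤ ENNReal.ofReal ε := by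
    have t0 : Tendsto (fun n : ℕ => 1 / ((n : ℝ) + 1)) atTop (𝓝 0) :=
      tendsto_one_div_add_atTop_nhds_zero_nat
    have t1 : Tendsto (fun n : ℕ => ENNReal.ofReal (1 / ((n : ℝ) + 1))) atTop (𝓝 0) := by
      simpa using ENNReal.tendsto_ofReal t0
    have t2 : Tendsto (fun n : ℕ => ENNReal.ofReal ((1 / ((n : ℝ) + 1)) ^ p)) atTop (𝓝 0) := by
      have h2 : Tendsto (fun n : ℕ => (1 / ((n : ℝ) + 1)) ^ p) atTop (𝓝 (0 ^ p)) :=
        t0.rpow_const (Or.inr hp0.le)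
      rw [Real.zero_rpow hp0.ne'] at h2
      simpa using ENNReal.tendsto_ofReal h2
    have t3 := ENNReal.Tendsto.mul_const (b := volume Ω) t2 (Or.inr hv)
    rw [zero_mul] at t3
    have t4 := ENNReal.Tendsto.const_mul (a := 3) t1 (Or.inr (by norm_num))
    rw [mul_zero] at t4
    have t5 := t3.add t4
    rw [add_zero] at t5
    have t6 := ENNReal.Tendsto.const_mul (a := ENNReal.ofReal (6 ^ p)) t5
      (Or.inr ENNReal.ofReal_ne_top)
    rw [mul_zero] at t6
    obtain ⟨n, hn⟩ := (t6.eventually (gt_mem_nhds (ENNReal.ofReal_pos.2 hε))).exists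
    exact ⟨1 / ((n : ℝ) + 1), by positivity, hn.le⟩
  -- the function vanishing on `K`
  obtain ⟨h, hsupp, hh, hr⟩ := hKo.exists_contDiff_support_eq (n := ⊤)
  have hh0 : ∀ x, 0 ≤ h x := fun x => (hr (mem_range_self x)).1
  have hpos : ∀ x ∈ Ω \ K, 0 < h x := by
    intro x hx
    have h1 : x ∈ Function.support h := by rw [hsupp]; exact hx
    exact lt_of_le_of_ne (hh0 x) (Ne.symm h1)
  have hhK : ∀ x, x ∉ Ω \ K → h x = 0 := by
    intro x hx
    by_contra h1
    have : x ∈ Function.support h := h1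
    rw [hsupp] at this
    exact hx this
  -- the distance in the target
  have hΛc : (Λ \ f '' K)ᶜ.Nonempty := by
    have h1 : Λᶜ.Nonempty := by
      rw [nonempty_compl]
      rintro rfl
      exact NormedSpace.unbounded_univ ℝ V (PK.isBounded_of_domain hΛ)
    exact h1.mono (compl_subset_compl.2 sdiff_subset)
  set e : V → ℝ := fun x => infDist (f x) (Λ \ f '' K)ᶜ with he
  have hec : ContinuousOn e (Ω \ K) :=
    (continuous_infDist_pt _).comp_continuousOn (hfc.mono sdiff_subset)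
  have hepos : ∀ x ∈ Ω \ K, 0 < e x := by
    intro x hx
    obtain ⟨k, ⟨h1, -⟩, -, -⟩ := hfU
    exact (hKo'.isClosed_compl.notMem_iff_infDist_pos hΛc).1 fun h => h (h1 x hx).1
  -- the weight
  set w : V → ℝ := fun x => (h x ^ 2)⁻¹ + 2 * (e x)⁻¹ + κ⁻¹ + (2 * C x) ^ (p - 1) * κ⁻¹ with hw
  have hwc : ContinuousOn w (Ω \ K) := by
    refine (((((hh.continuous.continuousOn).pow 2).inv₀ fun x hx => (pow_pos (hpos x hx) 2).ne').add
      (continuousOn_const.mul (hec.inv₀ fun x hx => (hepos x hx).ne'))).add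
        continuousOn_const).add (ContinuousOn.mul ?_ continuousOn_const)
    exact (continuousOn_const.mul hC).rpow_const fun x _ => Or.inr (by linarith)
  obtain ⟨g, hg, hgf, hgC, hgD⟩ := happ w hwc
  have hwb : ∀ x ∈ Ω \ K, 0 ≤ (h x ^ 2)⁻¹ ∧ 0 ≤ 2 * (e x)⁻¹ ∧ 0 ≤ κ⁻¹ ∧
      0 ≤ (2 * C x) ^ (p - 1) * κ⁻¹ := fun x hx =>
    ⟨by positivity, mul_nonneg zero_le_two (inv_nonneg.2 (hepos x hx).le), by positivity,
      mul_nonneg (Real.rpow_nonneg (mul_nonneg zero_le_two (hC0 x hx).le) _) (by positivity)⟩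
  have hb1 : ∀ x ∈ Ω \ K, ‖g x - f x‖ ≤ h x ^ 2 := by
    intro x hx
    obtain ⟨b1, b2, b3, b4⟩ := hwb x hx
    have h1 : ‖g x - f x‖ * (h x ^ 2)⁻¹ ≤ 1 :=
      (mul_le_mul_of_nonneg_left (by rw [hw]; dsimp only; linarith) (norm_nonneg _)).trans (hgf x hx)
    rwa [mul_inv_le_iff₀ (pow_pos (hpos x hx) 2), one_mul] at h1
  have hb2 : ∀ x ∈ Ω \ K, ‖g x - f x‖ ≤ e x / 2 := by
    intro x hx
    obtain ⟨b1, b2, b3, b4⟩ := hwb x hx
    have h1 : ‖g x - f x‖ * (2 * (e x)⁻¹) ≤ 1 :=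
      (mul_le_mul_of_nonneg_left (by rw [hw]; dsimp only; linarith) (norm_nonneg _)).trans (hgf x hx)
    have h2 := hepos x hx
    have h3 : ‖g x - f x‖ * (2 * (e x)⁻¹) = (2 * ‖g x - f x‖) * (e x)⁻¹ := by ring
    rw [h3, mul_inv_le_iff₀ h2, one_mul] at h1
    linarith
  have hb3 : ∀ x ∈ Ω \ K, ‖g x - f x‖ ≤ κ := by
    intro x hx
    obtain ⟨b1, b2, b3, b4⟩ := hwb x hx
    have h1 : ‖g x - f x‖ * κ⁻¹ ≤ 1 :=
      (mul_le_mul_of_nonneg_left (by rw [hw]; dsimp only; linarith) (norm_nonneg _)).trans (hgf x hx)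
    rwa [mul_inv_le_iff₀ hκ, one_mul] at h1
  -- the energy
  have hE : ∫⁻ x in Ω \ K, ENNReal.ofReal (‖fderiv ℝ g x - cl (F x)‖ ^ p) ≤
      ENNReal.ofReal κ := by
    calc ∫⁻ x in Ω \ K, ENNReal.ofReal (‖fderiv ℝ g x - cl (F x)‖ ^ p)
        ≤ ∫⁻ x in Ω \ K, ENNReal.ofReal κ * ENNReal.ofReal (w x * ‖fderiv ℝ g x - D x‖) := by
          refine lintegral_mono_ae ((ae_restrict_iff' hKo.measurableSet).2 ?_)
          filter_upwards [hDF] with x hx hxU
          rw [hx hxU, ← ENNReal.ofReal_mul hκ.le]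
          apply ENNReal.ofReal_le_ofReal
          obtain ⟨b1, b2, b3, b4⟩ := hwb x hxU
          set t := ‖fderiv ℝ g x - D x‖ with ht
          have ht0 : 0 ≤ t := norm_nonneg _
          have ht2 : t ≤ 2 * C x := by
            refine (norm_sub_le _ _).trans ?_
            linarith [hgC x hxU, hDC x hxU]
          have h1 : t ^ p ≤ (2 * C x) ^ (p - 1) * t := by
            rcases ht0.eq_or_lt with h0 | h0
            · rw [← h0, Real.zero_rpow hp0.ne', mul_zero]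
            · have : t ^ p = t ^ (p - 1) * t := by
                rw [← Real.rpow_add_one h0.ne']; congr 1; ring
              rw [this]
              exact mul_le_mul_of_nonneg_right
                (Real.rpow_le_rpow ht0 ht2 (by linarith)) ht0
          have h2 : (2 * C x) ^ (p - 1) ≤ κ * w x := by
            have h3 : κ * ((2 * C x) ^ (p - 1) * κ⁻¹) = (2 * C x) ^ (p - 1) := by
              field_simp
            rw [← h3]
            apply mul_le_mul_of_nonneg_left _ hκ.le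
            rw [hw]; dsimp only; linarith
          calc t ^ p ≤ (2 * C x) ^ (p - 1) * t := h1
            _ ≤ (κ * w x) * t := mul_le_mul_of_nonneg_right h2 ht0
            _ = κ * (w x * t) := by ring
      _ = ENNReal.ofReal κ * ∫⁻ x in Ω \ K, ENNReal.ofReal (w x * ‖fderiv ℝ g x - D x‖) :=
          lintegral_const_mul' _ _ ENNReal.ofReal_ne_top
      _ ≤ ENNReal.ofReal κ * 1 := mul_le_mul_right hgD _
      _ = _ := mul_one _
  have hgs : ContDiffOn ℝ 1 g (Ω \ K) := (diffeo_smooth hg).of_le (by simp)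
  have hgh : St.IsHomeo (Ω \ K) (Λ \ f '' K) g := by
    obtain ⟨k, h1, h3, h4⟩ := hg
    exact ⟨k, h1, (smooth_of_sm h3).continuousOn, (smooth_of_sm h4).continuousOn⟩
  have hGh : St.IsHomeo Ω Λ (fun x => if x ∈ K then f x else g x) :=
    glue_homeo hΩ.1 hΛ.1 hK hKo hf hgh (δ := fun x => h x ^ 2)
      (hh.continuous.pow 2).continuousOn
      (fun x hx => by
        have : h x = 0 := hhK x fun h => h.2 hx
        simp only [this]
        norm_num) hb1 hb2
  obtain ⟨R, -, hR⟩ := norm_bound_of_domain hΛ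
  have hS := sobolev_across hp hΩ hKo hfc hF hgs
    (by
      obtain ⟨_, -, h, -⟩ := hGh
      exact h)
    (B := R) (fun x hx => by
      obtain ⟨_, ⟨h, -⟩, -, -⟩ := hGh
      exact hR _ (h x hx).1) hh hsupp hh0 hb1 (ne_top_of_le_ne_top ENNReal.ofReal_ne_top hE)
  have hGo : ∀ x ∈ Ω \ K, (fun x => if x ∈ K then f x else g x) =ᶠ[𝓝 x] g := by
    intro x hx
    filter_upwards [hKo.mem_nhds hx] with z hz using if_neg hz.2
  refine ⟨_, _, hGh, hS, ?_, ?_, ?_, ?_⟩
  · exact hgs.congr fun x hx => if_neg hx.2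
  · intro x hx v hv'
    rw [(hGo x hx).fderiv_eq] at hv'
    exact diffeo_inj hKo hKo' hg hx hv'
  · exact fun x hx => if_pos hx
  -- the distance
  set u : V → ℝ := fun x => euc ((if x ∈ K then f x else g x) - f x) ^ p +
    frob ((fun i j => if x ∈ K then F x i j else fderiv ℝ g x (ev j) i) - F x) ^ p with hu
  have hnn : ∀ x, 0 ≤ u x := fun x =>
    add_nonneg (Real.rpow_nonneg (Real.sqrt_nonneg _) _) (Real.rpow_nonneg (Real.sqrt_nonneg _) _)
  set E : V → ℝ≥0∞ := (Ω \ K).indicator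
    (fun x => ENNReal.ofReal (‖fderiv ℝ g x - cl (F x)‖ ^ p)) with hEd
  have hub : ∀ x ∈ Ω, ENNReal.ofReal (u x) ≤
      ENNReal.ofReal (6 ^ p) * (ENNReal.ofReal (κ ^ p) + 3 * E x) := by
    intro x hx
    by_cases hxK : x ∈ K
    · have h0 : u x = 0 := by
        rw [hu]
        simp only [if_pos hxK, sub_self]
        have e1 : euc (0 : V) = 0 := by simp [euc]
        have e2 : frob (0 : Mat) = 0 := by simp [frob]
        rw [e1, e2, Real.zero_rpow hp0.ne', add_zero]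
      rw [h0, ENNReal.ofReal_zero]
      exact zero_le
    · have hxU : x ∈ Ω \ K := ⟨hx, hxK⟩
      rw [hEd, indicator_of_mem hxU, show (3 : ℝ≥0∞) = ENNReal.ofReal 3 by simp,
        ← ENNReal.ofReal_mul (by norm_num), ← ENNReal.ofReal_add (by positivity) (by positivity),
        ← ENNReal.ofReal_mul (by positivity)]
      apply ENNReal.ofReal_le_ofReal
      have h1 := H880.final_pt hp ((if x ∈ K then f x else g x) - f x)
        ((fun i j => if x ∈ K then F x i j else fderiv ℝ g x (ev j) i) - F x)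
        (fun j => (fderiv ℝ g x - cl (F x)) (ev j)) (fun i j => by
          show (if x ∈ K then F x i j else fderiv ℝ g x (ev j) i) - F x i j =
            fderiv ℝ g x (ev j) i - cl (F x) (ev j) i
          rw [if_neg hxK, PK.cl_apply]
          congr 1
          rw [Finset.sum_eq_single j]
          · simp [ev]
          · intro l _ hl
            simp [ev, hl]
          · simp)
      refine h1.trans ?_
      apply mul_le_mul_of_nonneg_left _ (by positivity)
      rw [if_neg hxK]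
      apply add_le_add
      · exact Real.rpow_le_rpow (norm_nonneg _) (hb3 x hxU) hp0.le
      · calc ∑ j, ‖(fderiv ℝ g x - cl (F x)) (ev j)‖ ^ p
            ≤ ∑ _j : Fin 3, ‖fderiv ℝ g x - cl (F x)‖ ^ p := by
              refine Finset.sum_le_sum fun j _ => ?_
              apply Real.rpow_le_rpow (norm_nonneg _) _ hp0.le
              refine (ContinuousLinearMap.le_opNorm _ _).trans ?_
              rw [hev, mul_one]
          _ = 3 * ‖fderiv ℝ g x - cl (F x)‖ ^ p := by simp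
  have hint : ∫⁻ x in Ω, ENNReal.ofReal (u x) ≤ ENNReal.ofReal ε := by
    calc ∫⁻ x in Ω, ENNReal.ofReal (u x)
        ≤ ∫⁻ x in Ω, ENNReal.ofReal (6 ^ p) * (ENNReal.ofReal (κ ^ p) + 3 * E x) :=
          setLIntegral_mono' hΩ.1.measurableSet hub
      _ = ENNReal.ofReal (6 ^ p) * (ENNReal.ofReal (κ ^ p) * volume Ω + 3 * ∫⁻ x in Ω, E x) := by
          rw [lintegral_const_mul' _ _ ENNReal.ofReal_ne_top, lintegral_add_left measurable_const,
            setLIntegral_const, lintegral_const_mul' _ _ (by norm_num)]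
      _ ≤ ENNReal.ofReal (6 ^ p) * (ENNReal.ofReal (κ ^ p) * volume Ω +
            3 * ENNReal.ofReal κ) := by
          gcongr
          refine (setLIntegral_le_lintegral _ _).trans ?_
          rw [hEd, lintegral_indicator hKo.measurableSet]
          exact hE
      _ ≤ _ := hκε
  have h1 : int Ω u ≤ (∫⁻ x in Ω, ENNReal.ofReal (u x)).toReal := by
    unfold int
    refine (le_abs_self _).trans ?_
    rw [← Real.norm_eq_abs]
    refine (norm_integral_le_lintegral_norm _).trans (le_of_eq ?_)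
    congr 1
    refine lintegral_congr fun x => ?_
    rw [Real.norm_of_nonneg (hnn x)]
  refine h1.trans ?_
  calc (∫⁻ x in Ω, ENNReal.ofReal (u x)).toReal ≤ (ENNReal.ofReal ε).toReal :=
        ENNReal.toReal_mono ENNReal.ofReal_ne_top hint
    _ = ε := ENNReal.toReal_ofReal hε.le

/-- **the class given by local conditions off `K`**: reduction to maps of class `C¹` off `K` -/
theorem approx_of_local' (hD2 : SpecFineLoc) (hp : 1 ≤ p) (hΩ : St.IsBoundedDomain Ω)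
    (hΛ : St.IsBoundedDomain Λ) (hK : K ⊆ Ω) (hKo : IsOpen (Ω \ K)) {f : V → V} {F : V → Mat}
    (hf : St.IsHomeo Ω Λ f) (hF : St.IsSobolev p Ω f F) (hconn : IsPreconnected (Λ \ f '' K))
    {K₀ : ℝ} (hK₀ : K₀ < Real.sqrt 5)
    (hloc : ∀ a ∈ Ω \ K, St.SmallDistortionAt K₀ f a ∨ St.DirMonotoneAt f a)
    (happr : ∀ (g : V → V) (G : V → Mat), St.IsHomeo Ω Λ g → St.IsSobolev p Ω g G →
      ContDiffOn ℝ 1 g (Ω \ K) → (∀ x ∈ Ω \ K, ∀ v, fderiv ℝ g x v = 0 → v = 0) →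
      (∀ x ∈ K, g x = f x) → St.DiffeoApproximable p Ω Λ g G) :
    St.DiffeoApproximable p Ω Λ f F := by
  obtain ⟨D, C, hDm, hC, hC0, hDC, happ⟩ := hD2 (Ω \ K) (Λ \ f '' K) f K₀ hKo
    ((PK.isBounded_of_domain hΩ).subset sdiff_subset) (isOpen_diff_image hΛ.1 hK hKo hf) hconn
    ((PK.isBounded_of_domain hΛ).subset sdiff_subset) (homeo_restrict hK hf) hK₀ hloc
  have hseq := fun n : ℕ => exists_off hp hΩ hΛ hK hKo hf hF hDm hC hC0 hDC happ
    (ε := 1 / ((n : ℝ) + 1)) (by positivity)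
  choose g G hg hG hgs hginj hgK hgi using hseq
  refine approximable_of_limit hp hΩ hΛ hf hF hG
    (fun n => happr (g n) (G n) (hg n) (hG n) (hgs n) (hginj n) (hgK n)) ?_
  refine squeeze_zero (fun n => ?_) hgi tendsto_one_div_add_atTop_nhds_zero_nat
  exact integral_nonneg fun x =>
    add_nonneg (Real.rpow_nonneg (Real.sqrt_nonneg _) _) (Real.rpow_nonneg (Real.sqrt_nonneg _) _)

/-- the same, with less information about the maps on `K` -/
theorem approx_of_local (hD2 : SpecFineLoc) (hp : 1 ≤ p) (hΩ : St.IsBoundedDomain Ω)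
    (hΛ : St.IsBoundedDomain Λ) (hK : K ⊆ Ω) (hKo : IsOpen (Ω \ K)) {f : V → V} {F : V → Mat}
    (hf : St.IsHomeo Ω Λ f) (hF : St.IsSobolev p Ω f F) (hconn : IsPreconnected (Λ \ f '' K))
    {K₀ : ℝ} (hK₀ : K₀ < Real.sqrt 5)
    (hloc : ∀ a ∈ Ω \ K, St.SmallDistortionAt K₀ f a ∨ St.DirMonotoneAt f a)
    (happr : ∀ (g : V → V) (G : V → Mat), St.IsHomeo Ω Λ g → St.IsSobolev p Ω g G →
      ContDiffOn ℝ 1 g (Ω \ K) → (∀ x ∈ Ω \ K, ∀ v, fderiv ℝ g x v = 0 → v = 0) →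
      g '' K = f '' K → St.DiffeoApproximable p Ω Λ g G) :
    St.DiffeoApproximable p Ω Λ f F :=
  approx_of_local' hD2 hp hΩ hΛ hK hKo hf hF hconn hK₀ hloc
    fun g G h1 h2 h3 h4 h5 => happr g G h1 h2 h3 h4 (image_congr h5)

/-- the complement of the image of `K` is connected -/
theorem conn_of_null (hD1 : SpecConn) (hΩ : St.IsBoundedDomain Ω) (hΛ : St.IsBoundedDomain Λ)
    (hK : K ⊆ Ω) (hKo : IsOpen (Ω \ K)) {f : V → V} (hf : St.IsHomeo Ω Λ f)
    (h : (∀ l : Fin 3, volume ((fun y : V => y l) '' K) = 0) ∨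
      ∀ l : Fin 3, volume ((fun y : V => y l) '' (f '' K)) = 0) :
    IsPreconnected (Λ \ f '' K) := by
  rcases h with h | h
  · have h1 := hD1 Ω K hΩ.1 hΩ.2.1.isPreconnected hK hKo h
    obtain ⟨k, ⟨h2, h3⟩, h4, h5⟩ := homeo_restrict hK hf
    have h6 : Λ \ f '' K = f '' (Ω \ K) := by
      ext y
      exact ⟨fun hy => ⟨k y, (h3 y hy).1, (h3 y hy).2⟩, by
        rintro ⟨x, hx, rfl⟩
        exact (h2 x hx).1⟩
    rw [h6]
    exact h1.image f h4
  · exact hD1 Λ (f '' K) hΛ.1 hΛ.2.1.isPreconnected (image_subset hK hf)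
      (isOpen_diff_image hΛ.1 hK hKo hf) h

end Vale.Agent.P073.H655
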