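import Vale.Agent.P073.RT.Rows
import Vale.Agent.P073.H694.Conn
import Vale.Agent.P073.H655.Off

/-!
# P073: a relatively closed set with small slices does not separate
-/

namespace Vale.Agent.P073.H655

open MeasureTheory Set Filter Topology Metric
open Vale.Agent.P073.St (V)

variable {K' Λ : Set V}

/-- almost all slices of `K'` have null projections -/
def SliceNull (K' : Set V) : Prop :=
  ∀ k : Fin 3, ∀ᵐ t : ℝ, ∀ j, j ≠ k → volume ((fun x : V => x j) '' (K' ∩ {x | x k = t})) = 0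

theorem exists_near {P : ℝ → Prop} (hP : ∀ᵐ t : ℝ, P t) (a : ℝ) {δ : ℝ} (hδ : 0 < δ) :
    ∃ t : ℝ, |t - a| < δ ∧ P t := by
  by_contra hcon
  push Not at hcon
  have h1 : Ioo (a - δ) (a + δ) ⊆ {t | ¬ P t} := by
    intro t ht
    exact hcon t (by rw [abs_lt]; constructor <;> linarith [ht.1, ht.2])
  have h2 := measure_mono_null h1 (ae_iff.1 hP)
  rw [Real.volume_Ioo, ENNReal.ofReal_eq_zero] at h2
  linarith

theorem seg_step2 {c p q : V} {r : ℝ} (hp : p ∈ ball c r) (hq : q ∈ ball c r) {j k : Fin 3}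
    (hj : q j = p j) (hk : q k = p k) (h : p k ∉ (fun y : V => y k) '' (K' ∩ {x | x j = p j})) :
    JoinedIn (ball c r \ K') p q := by
  refine JoinedIn.of_segment_subset fun z hz => ⟨(convex_ball c r).segment_subset hp hq hz, ?_⟩
  intro hzK
  apply h
  have hz' : ∀ i, q i = p i → z i = p i := by
    intro i hi
    obtain ⟨u, v, hu, hv, huv, rfl⟩ := hz
    simp only [Pi.add_apply, Pi.smul_apply, smul_eq_mul]
    rw [hi, ← add_mul, huv, one_mul]
  exact ⟨z, ⟨hzK, hz' j hj⟩, hz' k hk⟩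

theorem joined_ball2 (hO : IsOpen (Λ \ K')) (hN : SliceNull K') {c : V} {r : ℝ}
    (hB : ball c r ⊆ Λ) {a b : V} (ha : a ∈ ball c r \ K') (hb : b ∈ ball c r \ K') :
    JoinedIn (ball c r \ K') a b := by
  have hloc : ∀ x ∈ ball c r \ K', ∃ δ > 0, ball x δ ⊆ ball c r ∧ ball x δ ⊆ K'ᶜ := by
    intro x hx
    have h1 : IsOpen (ball c r ∩ (Λ \ K')) := isOpen_ball.inter hO
    obtain ⟨δ, hδ, hδs⟩ := Metric.isOpen_iff.1 h1 x ⟨hx.1, hB hx.1, hx.2⟩
    exact ⟨δ, hδ, fun y hy => (hδs hy).1, fun y hy => (hδs hy).2.2⟩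
  have hseg : ∀ x x' : V, ∀ δ > 0, ball x δ ⊆ ball c r → ball x δ ⊆ K'ᶜ → x' ∈ ball x δ →
      JoinedIn (ball c r \ K') x x' := by
    intro x x' δ hδ h1 h2 hx'
    refine JoinedIn.of_segment_subset fun z hz => ?_
    have h3 := (convex_ball x δ).segment_subset (mem_ball_self hδ) hx' hz
    exact ⟨h1 h3, h2 h3⟩
  obtain ⟨δ, hδ, hδ1, hδ2⟩ := hloc a ha
  obtain ⟨ε, hε, hε1, hε2⟩ := hloc b hb
  -- the end point
  obtain ⟨b0, hb0, hb0'⟩ := exists_near (hN 0) (b 0) hε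
  have h1 := hb0' 1 (by decide)
  have h2 := hb0' 2 (by decide)
  obtain ⟨b1, hb1, hb1'⟩ := exists_near (measure_eq_zero_iff_ae_notMem.1 h1) (b 1) hε
  obtain ⟨a1, ha1, ha1'⟩ := exists_near (hN 1) (a 1) hδ
  have h3 := ha1' 2 (by decide)
  obtain ⟨a2, ha2, ha2', ha2''⟩ := exists_near ((measure_eq_zero_iff_ae_notMem.1 h2).and
    (measure_eq_zero_iff_ae_notMem.1 h3)) (a 2) hδ
  set a' : V := ![a 0, a1, a2] with ha'
  set b' : V := ![b0, b1, b 2] with hb'
  have ma : a' ∈ ball a δ := by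
    rw [mem_ball, dist_pi_lt_iff hδ]
    intro i
    rw [Real.dist_eq]
    fin_cases i
    · simpa [ha'] using hδ
    · simpa [ha'] using ha1
    · simpa [ha'] using ha2
  have mb : b' ∈ ball b ε := by
    rw [mem_ball, dist_pi_lt_iff hε]
    intro i
    rw [Real.dist_eq]
    fin_cases i
    · simpa [hb'] using hb0
    · simpa [hb'] using hb1
    · simpa [hb'] using hε
  set p1 : V := Function.update a' 0 (b' 0) with hp1
  set p2 : V := Function.update p1 1 (b' 1) with hp2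
  have m1 : p1 ∈ ball c r := H694.update_mem_ball (hδ1 ma) (hε1 mb) 0
  have m2 : p2 ∈ ball c r := H694.update_mem_ball m1 (hε1 mb) 1
  have s1 : JoinedIn (ball c r \ K') a' p1 :=
    seg_step2 (j := 1) (k := 2) (hδ1 ma) m1 (by simp [hp1]) (by simp [hp1])
      (by simpa [ha'] using ha2'')
  have s2 : JoinedIn (ball c r \ K') p1 p2 :=
    seg_step2 (j := 0) (k := 2) m1 m2 (by simp [hp2]) (by simp [hp2])
      (by simpa [hp1, ha', hb'] using ha2')
  have s3 : JoinedIn (ball c r \ K') p2 b' :=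
    seg_step2 (j := 0) (k := 1) m2 (hε1 mb) (by simp [hp1, hp2]) (by simp [hp2])
      (by simpa [hp1, hp2, hb'] using hb1')
  exact (hseg a a' δ hδ hδ1 hδ2 ma).trans
    (s1.trans (s2.trans (s3.trans (hseg b b' ε hε hε1 hε2 mb).symm)))

theorem exists_notMem (hN : SliceNull K') (x : V) {δ : ℝ} (hδ : 0 < δ) :
    ∃ y ∈ ball x δ, y ∉ K' := by
  obtain ⟨b0, hb0, hb0'⟩ := exists_near (hN 0) (x 0) hδ
  obtain ⟨b1, hb1, hb1'⟩ := exists_near (measure_eq_zero_iff_ae_notMem.1 (hb0' 1 (by decide)))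
    (x 1) hδ
  refine ⟨![b0, b1, x 2], ?_, fun h => hb1' ⟨_, ⟨h, rfl⟩, rfl⟩⟩
  rw [mem_ball, dist_pi_lt_iff hδ]
  intro i
  rw [Real.dist_eq]
  fin_cases i
  · simpa using hb0
  · simpa using hb1
  · simpa using hδ

/-- a relatively closed set which does not separate the small balls does not separate -/
theorem preconn_of_balls (hΛ : IsOpen Λ) (hΛc : IsPreconnected Λ)
    (h1 : ∀ (c : V) (r : ℝ), ball c r ⊆ Λ → IsPreconnected (ball c r \ K'))
    (h2 : ∀ x : V, ∀ δ > 0, ∃ y ∈ ball x δ, y ∉ K') : IsPreconnected (Λ \ K') := by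
  intro u v hu hv huv hnu hnv
  by_contra hcon
  rw [not_nonempty_iff_eq_empty] at hcon
  have hopen : ∀ s : Set V, IsOpen {x | ∃ r > 0, ball x r ⊆ Λ ∧ ball x r \ K' ⊆ s} := by
    intro s
    rw [Metric.isOpen_iff]
    rintro x ⟨r, hr, h1, h2⟩
    refine ⟨r / 2, by positivity, fun y hy => ⟨r / 2, by positivity, ?_, ?_⟩⟩
    · refine (ball_subset_ball' ?_).trans h1
      rw [mem_ball] at hy; linarith
    · refine (sdiff_subset_sdiff_left (ball_subset_ball' ?_)).trans h2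
      rw [mem_ball] at hy; linarith
  have hsep : ∀ x ∈ Λ, x ∈ {x | ∃ r > 0, ball x r ⊆ Λ ∧ ball x r \ K' ⊆ u} ∨
      x ∈ {x | ∃ r > 0, ball x r ⊆ Λ ∧ ball x r \ K' ⊆ v} := by
    intro x hx
    obtain ⟨r, hr, hrs⟩ := Metric.isOpen_iff.1 hΛ x hx
    have h3 : ball x r \ K' ⊆ Λ \ K' := sdiff_subset_sdiff_left hrs
    rcases isPreconnected_iff_subset_of_disjoint.1 (h1 x r hrs) u v hu hv (h3.trans huv)
      (by
        rw [← subset_empty_iff, ← hcon]
        exact inter_subset_inter_left _ h3) with h | h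
    · exact Or.inl ⟨r, hr, hrs, h⟩
    · exact Or.inr ⟨r, hr, hrs, h⟩
  have hpt : ∀ s : Set V, IsOpen s → ((Λ \ K') ∩ s).Nonempty →
      (Λ ∩ {x | ∃ r > 0, ball x r ⊆ Λ ∧ ball x r \ K' ⊆ s}).Nonempty := by
    rintro s hs ⟨x, hx, hxs⟩
    obtain ⟨r, hr, hrs⟩ := Metric.isOpen_iff.1 (hΛ.inter hs) x ⟨hx.1, hxs⟩
    exact ⟨x, hx.1, r, hr, fun y hy => (hrs hy).1, fun y hy => (hrs hy.1).2⟩
  obtain ⟨x, hx, ⟨r1, hr1, h11, h12⟩, ⟨r2, hr2, h21, h22⟩⟩ :=
    hΛc _ _ (hopen u) (hopen v) (fun x hx => hsep x hx) (hpt u hu hnu) (hpt v hv hnv)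
  obtain ⟨y, hy, hyK⟩ := h2 x (min r1 r2) (lt_min hr1 hr2)
  have hy1 : y ∈ ball x r1 := ball_subset_ball (min_le_left _ _) hy
  have hy2 : y ∈ ball x r2 := ball_subset_ball (min_le_right _ _) hy
  have : y ∈ (Λ \ K') ∩ (u ∩ v) := ⟨⟨h11 hy1, hyK⟩, h12 ⟨hy1, hyK⟩, h22 ⟨hy2, hyK⟩⟩
  rw [hcon] at this
  exact this

/-- **a relatively closed set with small slices does not separate** -/
theorem preconn_of_slices (hΛ : IsOpen Λ) (hΛc : IsPreconnected Λ) (hO : IsOpen (Λ \ K'))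
    (hN : SliceNull K') : IsPreconnected (Λ \ K') := by
  refine preconn_of_balls hΛ hΛc (fun c r hB => ?_) fun x δ hδ => exists_notMem hN x hδ
  rcases (ball c r \ K').eq_empty_or_nonempty with h | ⟨a, ha⟩
  · rw [h]; exact isPreconnected_empty
  · exact (show IsPathConnected (ball c r \ K') from
      ⟨a, ha, fun {b} hb => joined_ball2 hO hN hB ha hb⟩).isConnected.isPreconnected

theorem sliceNull_of {f : V → V} (h : RT.SmallSlices K' f) : SliceNull K' :=
  fun k => (h k).mono fun _ ht => ht.1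

/-- the complement of the image of a set with small slices is connected -/
theorem conn_of_slices {Ω K : Set V} (hΩ : St.IsBoundedDomain Ω)
    (hK : K ⊆ Ω) (hKo : IsOpen (Ω \ K)) {f : V → V} (hf : St.IsHomeo Ω Λ f)
    (h : SliceNull K) : IsPreconnected (Λ \ f '' K) := by
  have h1 := preconn_of_slices hΩ.1 hΩ.2.1.isPreconnected hKo h
  obtain ⟨k, ⟨h2, h3⟩, h4, h5⟩ := homeo_restrict hK hf
  have h6 : Λ \ f '' K = f '' (Ω \ K) := by
    ext y
    exact ⟨fun hy => ⟨k y, (h3 y hy).1, (h3 y hy).2⟩, by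
      rintro ⟨x, hx, rfl⟩
      exact (h2 x hx).1⟩
  rw [h6]
  exact h1.image f h4

/-- small slices depend only on the values on the set -/
theorem smallSlices_congr {K : Set V} {f g : V → V} (hfg : ∀ x ∈ K, g x = f x)
    (h : RT.SmallSlices K f) : RT.SmallSlices K g := by
  intro k
  filter_upwards [h k] with t ht
  refine ⟨ht.1, fun i => ?_⟩
  have h1 : (fun x : V => g x i) '' (K ∩ {x | x k = t}) =
      (fun x : V => f x i) '' (K ∩ {x | x k = t}) := by
    apply image_congr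
    intro x hx
    rw [hfg x hx.1]
  rw [h1]
  exact ht.2 i

end Vale.Agent.P073.H655
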