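import Vale.Agent.P073.H880.Lim

/-!
# P073, theorem (T): elementary estimates
-/

namespace Vale.Agent.P073.H655

open MeasureTheory Set Filter Topology Metric
open Vale.Agent.P073.St (V Mat euc)
open Vale.Agent.P073.SQ (ev)
open scoped ContDiff ENNReal

variable {p : ℝ}

theorem five (hp : 1 ≤ p) {x1 x2 x3 x4 x5 : ℝ} (h1 : 0 ≤ x1) (h2 : 0 ≤ x2) (h3 : 0 ≤ x3)
    (h4 : 0 ≤ x4) (h5 : 0 ≤ x5) :
    (x1 + x2 + x3 + x4 + x5) ^ p ≤
      5 ^ (p - 1) * (x1 ^ p + x2 ^ p + x3 ^ p + x4 ^ p + x5 ^ p) := by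
  have h := Real.rpow_sum_le_const_mul_sum_rpow_of_nonneg (s := (Finset.univ : Finset (Fin 5)))
    (f := ![x1, x2, x3, x4, x5]) hp (fun j _ => by fin_cases j <;> simpa)
  have hc : ((Finset.univ : Finset (Fin 5)).card : ℝ) = 5 := by simp
  rw [hc] at h
  simpa [Fin.sum_univ_five] using h

/-- the pointwise inequality -/
theorem real_est (hp : 1 ≤ p) {C κ a t d w b : ℝ} (hC : 0 ≤ C) (hκ : 0 ≤ κ) (ha : 0 ≤ a)
    (ht : 0 ≤ t) (hd : 0 ≤ d) (hw : 0 ≤ w) (hb : 0 ≤ b)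
    (h : a ≤ t + C * d + C * κ + (C + 1) * w + κ * b) :
    a ^ p ≤ 5 ^ (p - 1) * (C + 1) ^ p * (t ^ p + d ^ p + κ ^ p + w ^ p + κ ^ p * b ^ p) := by
  have hp0 : 0 ≤ p := by linarith
  have h1 : a ≤ (C + 1) * (t + d + κ + w + κ * b) := by
    have e1 : 0 ≤ C * t := by positivity
    have e2 : 0 ≤ C * (κ * b) := by positivity
    linarith
  calc a ^ p ≤ ((C + 1) * (t + d + κ + w + κ * b)) ^ p := Real.rpow_le_rpow ha h1 hp0
    _ = (C + 1) ^ p * (t + d + κ + w + κ * b) ^ p :=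
        Real.mul_rpow (by positivity) (by positivity)
    _ ≤ (C + 1) ^ p * (5 ^ (p - 1) * (t ^ p + d ^ p + κ ^ p + w ^ p + (κ * b) ^ p)) := by
        gcongr
        exact five hp ht hd hκ hw (by positivity)
    _ = _ := by
        rw [Real.mul_rpow hκ hb]
        ring

/-- the pointwise inequality, extended nonnegative version -/
theorem ennreal_est (hp : 1 ≤ p) {C κ a t d w b : ℝ} (hC : 0 ≤ C) (hκ : 0 ≤ κ) (ha : 0 ≤ a)
    (ht : 0 ≤ t) (hd : 0 ≤ d) (hw : 0 ≤ w) (hb : 0 ≤ b)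
    (h : a ≤ t + C * d + C * κ + (C + 1) * w + κ * b) :
    ENNReal.ofReal (a ^ p) ≤ ENNReal.ofReal (5 ^ (p - 1) * (C + 1) ^ p) *
      (ENNReal.ofReal (t ^ p) + (ENNReal.ofReal (d ^ p) + (ENNReal.ofReal (κ ^ p) +
        (ENNReal.ofReal (w ^ p) + ENNReal.ofReal (κ ^ p) * ENNReal.ofReal (b ^ p))))) := by
  rw [← ENNReal.ofReal_mul (by positivity), ← ENNReal.ofReal_add (by positivity) (by positivity),
    ← ENNReal.ofReal_add (by positivity) (by positivity),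
    ← ENNReal.ofReal_add (by positivity) (by positivity),
    ← ENNReal.ofReal_add (by positivity) (by positivity), ← ENNReal.ofReal_mul (by positivity)]
  apply ENNReal.ofReal_le_ofReal
  have := real_est hp hC hκ ha ht hd hw hb h
  linarith

/-- the choice of `ε` -/
theorem exists_eps (hp : 1 ≤ p) {M : ℝ≥0∞} (hM : M ≠ ⊤) {δ : NNReal} (hδ : 0 < δ) :
    ∃ ε : ℝ, 0 < ε ∧ ε ≤ 1 ∧ ENNReal.ofReal (ε ^ p) * M ≤ δ := by
  lift M to NNReal using hM
  refine ⟨min 1 (δ / (M + 1)), lt_min one_pos (by positivity), min_le_left _ _, ?_⟩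
  set ε : ℝ := min 1 (δ / (M + 1)) with hε
  have h0 : 0 ≤ ε := le_min zero_le_one (by positivity)
  have h1 : ε ^ p ≤ ε := by
    calc ε ^ p ≤ ε ^ (1 : ℝ) :=
          Real.rpow_le_rpow_of_exponent_ge' h0 (min_le_left _ _) zero_le_one hp
      _ = ε := Real.rpow_one ε
  have h2 : ε * M ≤ δ := by
    calc ε * M ≤ (δ / (M + 1)) * (M + 1) := by
          apply mul_le_mul (min_le_right _ _) (by linarith) (by positivity) (by positivity)
      _ = δ := by field_simp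
  calc ENNReal.ofReal (ε ^ p) * (M : ℝ≥0∞) ≤ ENNReal.ofReal ε * ENNReal.ofReal (M : ℝ) := by
        rw [ENNReal.ofReal_coe_nnreal]
        gcongr
    _ = ENNReal.ofReal (ε * M) := (ENNReal.ofReal_mul h0).symm
    _ ≤ ENNReal.ofReal (δ : ℝ) := ENNReal.ofReal_le_ofReal h2
    _ = δ := ENNReal.ofReal_coe_nnreal

/-- finite energy on compact sets -/
theorem energy_ne_top (hp : 1 ≤ p) {Ω Q : Set V} (hΩ : IsOpen Ω) {G : V → V}
    (hG : ContDiffOn ℝ ∞ G Ω) (hQ : IsCompact Q) (hQΩ : Q ⊆ Ω) (j : Fin 3) :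
    ∫⁻ x in Q, ENNReal.ofReal (‖fderiv ℝ G x (ev j)‖ ^ p) ≠ ⊤ := by
  have hp0 : 0 ≤ p := by linarith
  have hc : ContinuousOn (fun x => fderiv ℝ G x (ev j)) Q :=
    ((hG.continuousOn_fderiv_of_isOpen hΩ (by simp)).clm_apply continuousOn_const).mono hQΩ
  obtain ⟨B, hB⟩ := hQ.exists_bound_of_continuousOn hc
  have h1 : ∫⁻ x in Q, ENNReal.ofReal (‖fderiv ℝ G x (ev j)‖ ^ p) ≤
      ∫⁻ x in Q, ENNReal.ofReal (B ^ p) := by
    refine setLIntegral_mono' hQ.measurableSet fun x hx => ?_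
    exact ENNReal.ofReal_le_ofReal (Real.rpow_le_rpow (norm_nonneg _) (hB x hx) hp0)
  refine ne_top_of_le_ne_top ?_ h1
  rw [setLIntegral_const]
  exact ENNReal.mul_ne_top ENNReal.ofReal_ne_top hQ.measure_lt_top.ne

/-- the sum of the energies on the squeezed sets -/
theorem sum_energy (hp : 1 ≤ p) {Ω : Set V} (hΩ : IsOpen Ω) {G : V → V}
    (hG : ContDiffOn ℝ ∞ G Ω) {ι : Type} [Countable ι] {Q : ι → Set V} (hQ : ∀ i, IsCompact (Q i))
    (hQΩ : ∀ i, Q i ⊆ Ω) {κ : ℝ} (hκ : 0 < κ) :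
    ∃ ε : ι → ℝ, (∀ i, 0 < ε i) ∧ (∀ i, ε i ≤ 1) ∧ ∃ T : Fin 3 → V → ℝ≥0∞,
      (∀ j, Measurable (T j)) ∧ (∀ j, ∫⁻ x in Ω, T j x ≤ ENNReal.ofReal κ) ∧
      ∀ j i, ∀ x ∈ Q i, ENNReal.ofReal ((ε i * ‖fderiv ℝ G x (ev j)‖) ^ p) ≤ T j x := by
  obtain ⟨δ, hδ, hδs⟩ := ENNReal.exists_pos_sum_of_countable
    (ENNReal.ofReal_pos.2 hκ).ne' ι
  have h1 : ∀ i, ∃ ε : ℝ, 0 < ε ∧ ε ≤ 1 ∧ ENNReal.ofReal (ε ^ p) *
      (∑ j, ∫⁻ x in Q i, ENNReal.ofReal (‖fderiv ℝ G x (ev j)‖ ^ p)) ≤ δ i := fun i =>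
    exists_eps hp (ENNReal.sum_ne_top.2 fun j _ => energy_ne_top hp hΩ hG (hQ i) (hQΩ i) j) (hδ i)
  choose ε h0 hle hε using h1
  have hmG : ∀ j, Measurable fun x => ENNReal.ofReal (‖fderiv ℝ G x (ev j)‖ ^ p) := fun j =>
    ((measurable_fderiv_apply_const ℝ G (ev j)).norm.pow_const p).ennreal_ofReal
  refine ⟨ε, h0, hle, fun j x => ∑' i, (Q i).indicator (fun x => ENNReal.ofReal (ε i ^ p) *
    ENNReal.ofReal (‖fderiv ℝ G x (ev j)‖ ^ p)) x, fun j => ?_, fun j => ?_, fun j i x hx => ?_⟩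
  · exact Measurable.ennreal_tsum fun i =>
      ((hmG j).const_mul _).indicator (hQ i).measurableSet
  · refine (setLIntegral_le_lintegral _ _).trans ?_
    rw [lintegral_tsum fun i =>
      (((hmG j).const_mul _).indicator (hQ i).measurableSet).aemeasurable]
    refine le_trans (ENNReal.tsum_le_tsum fun i => ?_) hδs.le
    rw [lintegral_indicator (hQ i).measurableSet, lintegral_const_mul _ (hmG j)]
    refine le_trans ?_ (hε i)
    gcongr
    exact Finset.single_le_sum (f := fun j => ∫⁻ x in Q i,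
      ENNReal.ofReal (‖fderiv ℝ G x (ev j)‖ ^ p)) (fun _ _ => zero_le) (Finset.mem_univ j)
  · refine le_trans (le_of_eq ?_) (ENNReal.le_tsum i)
    rw [indicator_of_mem hx, Real.mul_rpow (h0 i).le (norm_nonneg _),
      ENNReal.ofReal_mul (Real.rpow_nonneg (h0 i).le _)]

end Vale.Agent.P073.H655
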