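import Vale.Agent.P073.H655.RowsT
import Vale.Agent.P073.ConicalStrata2

/-!
# P073, theorem (T): filling the cubes of the target
-/

namespace Vale.Agent.P073.H655

open MeasureTheory Set Filter Topology Metric
open Vale.Agent.P073.St (V Mat euc)
open Vale.Agent.P073.SQ (ev cube SuppDiffeo)
open Vale.Agent.P073.H880 (Boxes SpecFill)
open _root_.P073 (ConHomeo ConicalOn ConicalWithinAt)
open scoped ContDiff ENNReal

/-! ### null sets -/

/-- the image of a null set under a Lipschitz map on a set -/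
theorem null_image_lip {h : V → V} {s : Set V} {M : NNReal} (hM : LipschitzOnWith M h s)
    {S : Set V} (hS : volume S = 0) (hs : S ⊆ s) : volume (h '' S) = 0 := by
  have h1 := (hM.mono hs).hausdorffMeasure_image_le (d := (3 : ℝ)) (by norm_num)
  have h2 : (μH[(3 : ℝ)] : Measure V) = volume := by
    have := hausdorffMeasure_pi_real (ι := Fin 3)
    rwa [Fintype.card_fin] at this
  rw [h2, hS, mul_zero] at h1
  exact le_antisymm h1 bot_le

/-- locally Lipschitz maps map null sets to null sets -/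
theorem null_image {h : V → V} {S : Set V} (hS : volume S = 0)
    (hloc : ∀ x ∈ S, ∃ δ > 0, ∃ M : NNReal, LipschitzOnWith M h (ball x δ)) :
    volume (h '' S) = 0 := by
  choose! δ hδ M hM using hloc
  obtain ⟨t, htS, htc, hcov⟩ := TopologicalSpace.countable_cover_nhdsWithin
    (f := fun x => ball x (δ x)) (s := S)
    (fun x hx => mem_nhdsWithin_of_mem_nhds (ball_mem_nhds x (hδ x hx)))
  have h1 : h '' S ⊆ ⋃ x ∈ t, h '' (S ∩ ball x (δ x)) := by
    rintro _ ⟨y, hy, rfl⟩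
    obtain ⟨x, hxt, hyx⟩ := mem_iUnion₂.1 (hcov hy)
    exact mem_iUnion₂.2 ⟨x, hxt, y, ⟨hy, hyx⟩, rfl⟩
  refine measure_mono_null h1 ((measure_biUnion_null_iff htc).2 fun x hx => ?_)
  exact null_image_lip (hM x (htS hx)) (measure_mono_null inter_subset_left hS) inter_subset_right

/-- conical maps map null sets to null sets -/
theorem null_image_conical {U : Set V} {h : V → V} (hU : IsOpen U) (hc : ConicalOn h U)
    (hcont : ContinuousOn h U) {S : Set V} (hS : volume S = 0) (hSU : S ⊆ U) :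
    volume (h '' S) = 0 :=
  null_image hS fun x hx => by
    obtain ⟨δ, hδ, -, M, hM⟩ := _root_.P073.exists_lipschitz_near hU hc hcont (hSU hx)
    exact ⟨δ, hδ, M, hM⟩

/-! ### cubes -/

theorem ocube_subset {c : V} {ρ : ℝ} : ocube c ρ ⊆ cube c ρ := fun _ hy l => (hy l).le

theorem isOpen_ocube {c : V} {ρ : ℝ} : IsOpen (ocube c ρ) := by
  have : ocube c ρ = ⋂ l : Fin 3, {y : V | |y l - c l| < ρ} := by
    ext y; simp [ocube]
  rw [this]
  exact isOpen_iInter_of_finite fun l => isOpen_lt (by fun_prop) continuous_const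

theorem isCompact_cube {c : V} {ρ : ℝ} (hρ : 0 < ρ) : IsCompact (cube c ρ) := by
  have : cube c ρ = closedBall c ρ := by
    ext y
    simp only [cube, mem_setOf_eq, mem_closedBall, dist_pi_le_iff hρ.le, Real.dist_eq]
  rw [this]
  exact isCompact_closedBall c ρ

/-- the boundary of a cube is a null set -/
theorem volume_shell {c : V} {ρ : ℝ} : volume (cube c ρ \ ocube c ρ) = 0 := by
  have h1 : cube c ρ \ ocube c ρ ⊆ ⋃ l : Fin 3, ({y : V | y l = c l + ρ} ∪ {y : V | y l = c l - ρ}) := by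
    rintro y ⟨hy, hy'⟩
    simp only [ocube, mem_setOf_eq, not_forall, not_lt] at hy'
    obtain ⟨l, hl⟩ := hy'
    have h2 := le_antisymm (hy l) hl
    refine mem_iUnion.2 ⟨l, ?_⟩
    have hρ : 0 ≤ ρ := (abs_nonneg _).trans (hy l)
    rcases (abs_eq hρ).1 h2 with h3 | h3
    · left; show y l = _; linarith
    · right; show y l = _; linarith
  have hnull : ∀ (l : Fin 3) (t : ℝ), volume {y : V | y l = t} = 0 := by
    intro l t
    have := Measure.pi_hyperplane (fun _ : Fin 3 => (volume : Measure ℝ)) l t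
    exact this
  refine measure_mono_null h1 ((measure_iUnion_null_iff).2 fun l => ?_)
  exact measure_union_null (hnull l _) (hnull l _)

section boxes

variable {Λ K' : Set V} (W : Boxes Λ K')

/-- the union of the open cubes -/
def oU : Set V := ⋃ i, ocube (W.c i) (W.ρ i)

/-- the union of the closed cubes -/
def cU : Set V := ⋃ i, cube (W.c i) (W.ρ i)

theorem isOpen_oU : IsOpen (oU W) := isOpen_iUnion fun _ => isOpen_ocube

theorem oU_subset_cU : oU W ⊆ cU W := iUnion_mono fun _ => ocube_subset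

theorem cU_subset : cU W ⊆ Λ := iUnion_subset fun i => W.sub i

theorem sub_oU : K' ⊆ oU W := fun y hy => by
  obtain ⟨i, hi⟩ := W.cover y hy
  exact mem_iUnion.2 ⟨i, hi⟩

theorem volume_shells : volume (cU W \ oU W) = 0 := by
  have := W.cnt
  have h1 : cU W \ oU W ⊆ ⋃ i, (cube (W.c i) (W.ρ i) \ ocube (W.c i) (W.ρ i)) := by
    rintro y ⟨hy, hy'⟩
    obtain ⟨i, hi⟩ := mem_iUnion.1 hy
    exact mem_iUnion.2 ⟨i, hi, fun h => hy' (mem_iUnion.2 ⟨i, h⟩)⟩
  exact measure_mono_null h1 (measure_iUnion_null_iff.2 fun i => volume_shell)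

/-- near a point of `Λ` off the cubes there are no cubes -/
theorem eventually_notMem_cU {y : V} (hy : y ∈ Λ) (hy' : y ∉ cU W) : ∀ᶠ z in 𝓝 y, z ∉ cU W := by
  obtain ⟨N, hN, hfin⟩ := W.fin y hy
  have h1 : ∀ i ∈ {i | (cube (W.c i) (W.ρ i) ∩ N).Nonempty}, ∀ᶠ z in 𝓝 y,
      z ∉ cube (W.c i) (W.ρ i) := fun i _ =>
    (isCompact_cube (W.pos i)).isClosed.isOpen_compl.mem_nhds fun h => hy' (mem_iUnion.2 ⟨i, h⟩)
  filter_upwards [(eventually_all_finite hfin).2 h1, hN] with z hz hzN hzU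
  obtain ⟨i, hi⟩ := mem_iUnion.1 hzU
  exact hz i ⟨z, hi, hzN⟩ hi

/-- `K'` does not meet the boundaries of the cubes -/
theorem mem_ocube_of_mem {y : V} (hy : y ∈ K') {i : W.ι} (hi : y ∈ cube (W.c i) (W.ρ i)) :
    y ∈ ocube (W.c i) (W.ρ i) := by
  obtain ⟨j, hj⟩ := W.cover y hy
  by_cases hij : j = i
  · subst hij; exact hj
  · exact absurd hi (W.disj j i hij y hj)

end boxes

/-! ### the filling -/

/-- **the filling of the cubes of the target** -/
theorem exists_fill (hC : SpecFill) {Ω Λ K : Set V} {g : V → V} (hΩ : IsOpen Ω) (hΛ : IsOpen Λ)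
    (hK : K ⊆ Ω) (hKo : IsOpen (Ω \ K)) (hg : St.IsHomeo Ω Λ g)
    (hcon : ∀ x ∈ Ω \ K, ConicalWithinAt g Ω x) (W : Boxes Λ (g '' K)) :
    ∃ H : ConHomeo Ω Λ, (∀ x ∈ Ω, g x ∉ oU W → H.toFun x = g x) ∧
      (∀ x ∈ Ω, g x ∈ oU W → H.toFun x ∈ oU W) ∧
      ∀ᵐ x ∂(volume : Measure V), x ∈ Ω → g x ∉ oU W → H.toFun =ᶠ[𝓝 x] g := by
  obtain ⟨k, ⟨hgk, hkg⟩, hgc, hkc⟩ := hg
  have hmaps : MapsTo g Ω Λ := fun x hx => (hgk x hx).1
  have hmaps' : MapsTo k Λ Ω := fun y hy => (hkg y hy).1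
  have hl : LeftInvOn k g Ω := fun x hx => (hgk x hx).2
  have hr : RightInvOn k g Λ := fun y hy => (hkg y hy).2
  have hK' : g '' K ⊆ Λ := by
    rintro _ ⟨x, hx, rfl⟩
    exact hmaps (hK hx)
  -- the complement of `g '' K`
  have hpre : Λ \ g '' K = Λ ∩ k ⁻¹' (Ω \ K) := by
    ext y
    constructor
    · rintro ⟨hy, hy'⟩
      refine ⟨hy, hmaps' hy, fun hk => hy' ⟨k y, hk, hr hy⟩⟩
    · rintro ⟨hy, -, hk⟩
      refine ⟨hy, ?_⟩
      rintro ⟨x, hx, rfl⟩
      rw [hl (hK hx)] at hk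
      exact hk hx
  have hopen : IsOpen (Λ \ g '' K) := by
    rw [hpre]
    exact hkc.isOpen_inter_preimage hΛ hKo
  have hkcon : ∀ y ∈ Λ \ g '' K, ConicalWithinAt k Λ y := by
    intro y hy
    have h1 : k y ∈ Ω \ K := by
      rw [hpre] at hy
      exact hy.2
    have h2 := (hcon (k y) h1).inverse (k := k) h1.1 hmaps hmaps' hl hr
      (by rw [hr hy.1]; exact hkc y hy.1)
    rwa [hr hy.1] at h2
  obtain ⟨h, hh⟩ := hC Λ Ω (g '' K) k W hΛ hΩ hK' hopen
    ⟨g, ⟨fun y hy => hkg y hy, fun x hx => hgk x hx⟩, hkc, hgc⟩ hkcon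
  have hh' : ∀ y ∈ Λ, y ∉ oU W → h.toFun y = k y := fun y hy hy' =>
    hh y hy fun i hi => hy' (mem_iUnion.2 ⟨i, hi⟩)
  have hsymm : ∀ x, h.symm.toFun x = h.invFun x := fun x => rfl
  have f1 : ∀ x ∈ Ω, g x ∉ oU W → h.symm.toFun x = g x := by
    intro x hx hgx
    have h1 := hh' (g x) (hmaps hx) hgx
    rw [hl hx] at h1
    rw [hsymm]
    conv_lhs => rw [← h1]
    exact h.left_inv (hmaps hx)
  have f2 : ∀ x ∈ Ω, g x ∈ oU W → h.symm.toFun x ∈ oU W := by
    intro x hx hgx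
    by_contra hne
    have hy : h.symm.toFun x ∈ Λ := h.mapsTo_inv hx
    have h1 := hh' _ hy hne
    have h2 : h.toFun (h.symm.toFun x) = x := h.right_inv hx
    rw [h2] at h1
    have h3 : g x = h.symm.toFun x := by
      have h4 : g (k (h.symm.toFun x)) = h.symm.toFun x := hr hy
      rwa [← h1] at h4
    exact hne (h3 ▸ hgx)
  refine ⟨h.symm, f1, f2, ?_⟩
  -- the preimage of the boundaries
  have hnull : volume (h.toFun '' (cU W \ oU W)) = 0 :=
    null_image_conical hΛ h.conical h.cont (volume_shells W)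
      (diff_subset.trans (cU_subset W))
  filter_upwards [measure_eq_zero_iff_ae_notMem.1 hnull] with x hx hxΩ hgx
  have hgc' : ContinuousAt g x := hgc.continuousAt (hΩ.mem_nhds hxΩ)
  have hcU : g x ∉ cU W := by
    intro h1
    apply hx
    refine ⟨g x, ⟨h1, hgx⟩, ?_⟩
    rw [hh' (g x) (hmaps hxΩ) hgx]
    exact hl hxΩ
  filter_upwards [hgc'.eventually (eventually_notMem_cU W (hmaps hxΩ) hcU), hΩ.mem_nhds hxΩ]
    with z hz hzΩ
  exact f1 z hzΩ fun h => hz (oU_subset_cU W h)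

end Vale.Agent.P073.H655
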