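import Vale.Agent.P073.H880.Rows

/-!
# P073: removable singular sets by squeezing in the target, all exponents: statements of the rows
-/

namespace Vale.Agent.P073.H655

open MeasureTheory Set Filter Topology Metric
open Vale.Agent.P073.St (V Mat euc)
open Vale.Agent.P073.SQ (ev cube SuppDiffeo)
open Vale.Agent.P073.H880 (Boxes)
open scoped ContDiff ENNReal

/-- the open cube -/
def ocube (c : V) (ρ : ℝ) : Set V := {y | ∀ l, |y l - c l| < ρ}

/-- **Row S**: the squeezing diffeomorphisms of a cube. `N` is a compact subset of the open cube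
whose three coordinate projections have measure zero. `U` is a neighbourhood of `N` and `D` a
compact set, both independent of `ε`; `T` is the homothety of ratio `ε` on the components of `U`. -/
def SpecSqz : Prop :=
  ∃ C : ℝ, 0 < C ∧ ∀ (c : V) (ρ : ℝ) (N : Set V) (κ : ℝ), 0 < ρ → IsCompact N → N ⊆ ocube c ρ →
    (∀ l : Fin 3, volume ((fun y : V => y l) '' N) = 0) → 0 < κ →
    ∃ U D : Set V, IsOpen U ∧ N ⊆ U ∧ U ⊆ ocube c ρ ∧
      (∀ y ∈ U, ∀ l, ∃ z ∈ N, |y l - z l| < κ) ∧ IsCompact D ∧ D ⊆ ocube c ρ ∧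
      ∀ ε : ℝ, 0 < ε → ε ≤ 1 → ∃ T : V → V, SuppDiffeo D T ∧ (∀ y, ‖T y - y‖ ≤ κ) ∧
        (∀ y, ‖fderiv ℝ T y‖ ≤ C) ∧
        (∀ y ∈ U, fderiv ℝ T y = ε • ContinuousLinearMap.id ℝ V) ∧
        ∀ y, (∀ l, ∀ z ∈ N, κ ≤ |y l - z l|) →
          ‖fderiv ℝ T y - ContinuousLinearMap.id ℝ V‖ ≤ κ

/-- **Row V**: the weak derivative of a component vanishes where the component takes values in a
null set. -/
def SpecVan : Prop :=
  ∀ (p : ℝ) (Ω : Set V) (f : V → V) (F : V → Mat) (i : Fin 3) (N : Set ℝ), 1 ≤ p →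
    St.IsBoundedDomain Ω → St.IsSobolev p Ω f F → ContinuousOn f Ω → volume N = 0 →
    ∀ᵐ x ∂(volume : Measure V), x ∈ Ω → f x i ∈ N → ∀ j, F x i j = 0

/-- **Row B'**: cubes inside a given neighbourhood `N` of `K` (beginning of the proof of row B) -/
def SpecBoxesIn : Prop :=
  ∀ (Ω K N : Set V), IsOpen Ω → Bornology.IsBounded Ω → IsOpen N → K ⊆ N → N ⊆ Ω →
    IsOpen (Ω \ K) → (∀ k : Fin 3, volume ((fun x : V => x k) '' K) = 0) →
    ∃ W : Boxes Ω K, ∀ i, cube (W.c i) (W.ρ i) ⊆ N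

end Vale.Agent.P073.H655
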