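import Vale.Agent.P073.H655.LimT
import Vale.Agent.P073.H739.Van
import Vale.Agent.P073.H739.BoxesIn
import Vale.Agent.P073.H705.Sqz2
import Vale.Agent.P073.H705.Bij
import Vale.Agent.P073.H694.Fill
import Vale.Agent.P073.H880.Fine2

/-!
# P073, theorem (T): removable singular sets whose image has null coordinate projections
-/

namespace Vale.Agent.P073.H655

open MeasureTheory Set Filter Topology
open Vale.Agent.P073.St (V Mat)

variable {p : ℝ} {Ω Λ K : Set V}

/-- **Theorem (T)**, general form -/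
theorem main_T' (hp : 1 ≤ p)
    (hΩ : St.IsBoundedDomain Ω) (hΛ : St.IsBoundedDomain Λ) (hK : K ⊆ Ω) (hKo : IsOpen (Ω \ K))
    {f : V → V} {F : V → Mat} (hf : St.IsHomeo Ω Λ f) (hF : St.IsSobolev p Ω f F)
    (hO : FineOff Ω Λ K f F)
    (hnull : ∀ l : Fin 3, volume ((fun y : V => y l) '' (f '' K)) = 0) :
    St.DiffeoApproximable p Ω Λ f F :=
  main_of H739.specVan H705.specSqz H694.specFill H739.specBoxesIn hp hΩ hΛ hK hKo hf hF hO hnull

theorem specFine' : H880.SpecFine := H880.specFine H705.specBij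

/-- **Theorem (T)**, maps of class `C¹` with invertible derivative off `K` -/
theorem main_T (hp : 1 ≤ p)
    (hΩ : St.IsBoundedDomain Ω) (hΛ : St.IsBoundedDomain Λ) (hK : K ⊆ Ω) (hKo : IsOpen (Ω \ K))
    {f : V → V} {F : V → Mat} (hf : St.IsHomeo Ω Λ f) (hF : St.IsSobolev p Ω f F)
    (hfC : ContDiffOn ℝ 1 f (Ω \ K))
    (hinj : ∀ x ∈ Ω \ K, ∀ v, fderiv ℝ f x v = 0 → v = 0)
    (hnull : ∀ l : Fin 3, volume ((fun y : V => y l) '' (f '' K)) = 0) :
    St.DiffeoApproximable p Ω Λ f F :=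
  main_T' hp hΩ hΛ hK hKo hf hF (fineOff_C1 specFine' hp hΩ hΛ hK hKo hf hF hfC hinj) hnull

/-- **Theorem (T)**, maps which are locally finite piecewise affine off `K` -/
theorem main_T_PA (hp : 1 ≤ p)
    (hΩ : St.IsBoundedDomain Ω) (hΛ : St.IsBoundedDomain Λ) (hK : K ⊆ Ω) (hKo : IsOpen (Ω \ K))
    {f : V → V} {F : V → Mat} (hf : St.IsHomeo Ω Λ f) (hF : St.IsSobolev p Ω f F)
    (hPA : H880.LocPA (Ω \ K) f)
    (hnull : ∀ l : Fin 3, volume ((fun y : V => y l) '' (f '' K)) = 0) :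
    St.DiffeoApproximable p Ω Λ f F :=
  main_T' hp hΩ hΛ hK hKo hf hF (fineOff_PA hp hΩ hΛ hK hKo hf hF hPA) hnull

end Vale.Agent.P073.H655
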