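import Vale.Agent.P073.H655.GlueT
import Vale.Agent.P073.H655.Weak1
import Vale.Agent.P073.H880.Rows2
import Vale.Agent.P073.H880.PL

/-!
# P073: what the constructions use about the map off the singular set
-/

namespace Vale.Agent.P073.H655

open MeasureTheory Set Filter Topology Metric Vale.Agent.P073.AB
open Vale.Agent.P073.St (V Mat euc)
open Vale.Agent.P073.SQ (ev cube SuppDiffeo)
open Vale.Agent.P073.H880 (Boxes SpecFill SpecFine LocPA)
open _root_.P073 (ConHomeo ConicalOn ConicalWithinAt)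
open scoped ContDiff ENNReal

variable {p : ℝ} {Ω Λ K : Set V}

/-- `f` has fine conical approximations off `K`, its weak derivative `F` is its derivative almost
everywhere off `K`, and the preimages of null sets off `K` are null. -/
def FineOff (Ω Λ K : Set V) (f : V → V) (F : V → Mat) : Prop :=
  (∀ ε : V → ℝ, ContinuousOn ε (Ω \ K) → (∀ x ∈ Ω \ K, 0 < ε x) →
    ∃ g : V → V, St.IsHomeo Ω Λ g ∧ (∀ x ∈ K, g x = f x) ∧
      (∀ x ∈ Ω \ K, ConicalWithinAt g Ω x) ∧ (∀ x ∈ Ω \ K, ‖g x - f x‖ ≤ ε x) ∧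
      ∀ x ∈ Ω \ K, ∀ᶠ y in 𝓝 x, ‖(g y - g x) - (f y - f x)‖ ≤ ε x * ‖y - x‖) ∧
  (∀ᵐ x ∂(volume : Measure V), x ∈ Ω \ K → DifferentiableAt ℝ f x ∧
    ∀ j, cl (F x) (ev j) = fderiv ℝ f x (ev j)) ∧
  ∀ Z : Set V, volume Z = 0 → volume ((Ω \ K) ∩ f ⁻¹' Z) = 0

/-- maps of class `C¹` with invertible derivative off `K` -/
theorem fineOff_C1 (hFine : SpecFine) (hp : 1 ≤ p) (hΩ : St.IsBoundedDomain Ω)
    (hΛ : St.IsBoundedDomain Λ) (hK : K ⊆ Ω) (hKo : IsOpen (Ω \ K)) {f : V → V} {F : V → Mat}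
    (hf : St.IsHomeo Ω Λ f) (hF : St.IsSobolev p Ω f F) (hfC : ContDiffOn ℝ 1 f (Ω \ K))
    (hinj : ∀ x ∈ Ω \ K, ∀ v, fderiv ℝ f x v = 0 → v = 0) : FineOff Ω Λ K f F := by
  refine ⟨fun ε hε hε0 => hFine Ω Λ K f ε hΩ.1 (PK.isBounded_of_domain hΩ) hΛ.1
    (PK.isBounded_of_domain hΛ) hK hKo hf hfC hinj hε hε0, ?_,
    fun Z hZ => null_preimage_C1 hΛ.1 hK hKo hf hfC hinj hZ⟩
  filter_upwards [ae_eq_off hp hΩ hF hKo sdiff_subset hfC] with x hx hxK
  exact ⟨(hfC.contDiffAt (hKo.mem_nhds hxK)).differentiableAt (by simp), hx hxK⟩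

/-- uniqueness of the weak derivative on an open set where the map is conical -/
theorem ae_eq_conical (hp : 1 ≤ p) (hΩ : St.IsBoundedDomain Ω) {f : V → V} {F : V → Mat}
    {U : Set V} (hUo' : IsOpen U) (hUΩ : U ⊆ Ω)
    (hc : ContinuousOn f U) (H : ConicalOn f U) (hF : St.IsSobolev p Ω f F) :
    ∀ᵐ x ∂(volume : Measure V), x ∈ U → DifferentiableAt ℝ f x ∧
      ∀ j, cl (F x) (ev j) = fderiv ℝ f x (ev j) := by
  have hv := PK.volume_ne_top_of_domain hΩ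
  set T : Set V := {x | x ∈ U ∧ _root_.P073.linSpace f x = ⊤} with hT
  have hcd : ∀ x ∈ T, ContDiffAt ℝ ∞ f x := fun x hx =>
    _root_.P073.contDiffAt_of_top (H.conicalAt hUo' hx.1) hx.2
  have hTo : IsOpen T := by
    rw [isOpen_iff_mem_nhds]
    intro x hx
    have h1 : ∀ᶠ y in 𝓝 x, ContDiffAt ℝ 1 f y :=
      ((hcd x hx).of_le (by simp)).eventually (by simp)
    filter_upwards [h1, hUo'.mem_nhds hx.1] with y hy hyΩ
    exact ⟨hyΩ, _root_.P073.top_of_differentiableAt (H.conicalAt hUo' hyΩ)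
      (hy.differentiableAt (by simp))⟩
  have hfT : ContDiffOn ℝ 1 f T := fun x hx =>
    ((hcd x hx).of_le (by simp)).contDiffWithinAt
  have hnull := _root_.P073.measure_singular_eq_zero (volume : Measure V) hUo' H hc
  rw [measure_eq_zero_iff_ae_notMem] at hnull
  filter_upwards [hnull, ae_eq_off hp hΩ hF hTo (fun x hx => hUΩ hx.1) hfT] with x hx1 hx2 hxU
  have hxT : x ∈ T := by
    refine ⟨hxU, ?_⟩
    by_contra h
    exact hx1 ⟨hxU, h⟩
  exact ⟨(hcd x hxT).differentiableAt (by simp), hx2 hxT⟩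

/-- maps which are conical off `K` -/
theorem fineOff_conical (hp : 1 ≤ p) (hΩ : St.IsBoundedDomain Ω)
    (hΛ : St.IsBoundedDomain Λ) (hK : K ⊆ Ω) (hKo : IsOpen (Ω \ K)) {f : V → V} {F : V → Mat}
    (hf : St.IsHomeo Ω Λ f) (hF : St.IsSobolev p Ω f F)
    (hcon : ConicalOn f (Ω \ K)) : FineOff Ω Λ K f F := by
  have hcon' : ∀ x ∈ Ω \ K, ConicalWithinAt f Ω x := by
    intro x hx
    obtain ⟨r, hr, h⟩ := hcon x hx
    obtain ⟨s, hs, hb⟩ := Metric.isOpen_iff.1 hKo x hx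
    refine ⟨min r (s / 2), by positivity, fun v hv hxv t ht => ?_⟩
    have hv1 : ‖v‖ ≤ r := hv.trans (min_le_left _ _)
    have hmem : x + v ∈ Ω \ K := by
      apply hb
      rw [mem_ball, dist_eq_norm, add_sub_cancel_left]
      have := hv.trans (min_le_right _ _)
      linarith
    obtain ⟨h1, h2⟩ := h v hv1 hmem t ht
    exact ⟨h1.1, h2⟩
  have hf' := hf
  obtain ⟨k, ⟨hgk, hkg⟩, hgc, hkc⟩ := hf
  refine ⟨fun ε hε hε0 => ⟨f, hf', fun _ _ => rfl, hcon', fun x hx => ?_, fun x hx => ?_⟩, ?_, ?_⟩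
  · rw [sub_self, norm_zero]; exact (hε0 x hx).le
  · refine Eventually.of_forall fun y => ?_
    rw [sub_self, norm_zero]
    exact mul_nonneg (hε0 x hx).le (norm_nonneg _)
  · exact ae_eq_conical hp hΩ hKo sdiff_subset (hgc.mono sdiff_subset) hcon hF
  · -- the inverse is conical off the image of `K`
    intro Z hZ
    have hop := isOpen_diff_image hΛ.1 hK hKo hf'
    have m1 : MapsTo f (Ω \ K) (Λ \ f '' K) := by
      intro x hx
      refine ⟨(hgk x hx.1).1, ?_⟩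
      rintro ⟨x', hx', he⟩
      have h5 := (hgk x' (hK hx')).2
      rw [he, (hgk x hx.1).2] at h5
      exact hx.2 (h5 ▸ hx')
    have m2 : MapsTo k (Λ \ f '' K) (Ω \ K) := fun y hy =>
      ⟨(hkg y hy.1).1, fun h => hy.2 ⟨k y, h, (hkg y hy.1).2⟩⟩
    have hkcon : ConicalOn k (Λ \ f '' K) :=
      hcon.inverse m1 m2 (fun x hx => (hgk x hx.1).2) (fun y hy => (hkg y hy.1).2)
        (hkc.mono sdiff_subset)
    have h1 := null_image_conical hop hkcon (hkc.mono sdiff_subset)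
      (S := (Λ \ f '' K) ∩ Z) (measure_mono_null inter_subset_right hZ) inter_subset_left
    refine measure_mono_null ?_ h1
    rintro x ⟨hx, hxZ⟩
    exact ⟨f x, ⟨m1 hx, hxZ⟩, (hgk x hx.1).2⟩

/-- locally finite piecewise affine maps off `K` -/
theorem fineOff_PA (hp : 1 ≤ p) (hΩ : St.IsBoundedDomain Ω)
    (hΛ : St.IsBoundedDomain Λ) (hK : K ⊆ Ω) (hKo : IsOpen (Ω \ K)) {f : V → V} {F : V → Mat}
    (hf : St.IsHomeo Ω Λ f) (hF : St.IsSobolev p Ω f F)
    (hPA : LocPA (Ω \ K) f) : FineOff Ω Λ K f F :=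
  fineOff_conical hp hΩ hΛ hK hKo hf hF (hPA.conicalOn hKo)

end Vale.Agent.P073.H655
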