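import Vale.Agent.P073.H655.Comp
import Vale.Agent.P073.H694.FineLoc
import Vale.Agent.P073.PK.Sob560a
import Vale.Agent.P073.H655.Off

/-!
# P073: fine approximation of the maps of the class generated by composition
-/

namespace Vale.Agent.P073.H655

open MeasureTheory Set Filter Topology Metric Vale.Agent.P073.H694
open Vale.Agent.P073.St (V Mat euc)
open scoped ContDiff ENNReal NNReal InnerProductSpace

variable {Ω Λ : Set V} {f : V → V}

theorem boundedDomain_E (h : St.IsBoundedDomain Ω) :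
    Vale.Agent.P073.IsBoundedDomain (eE.symm ⁻¹' Ω) := by
  have im : ∀ A : Set V, eE.symm ⁻¹' A = eE '' A := fun A =>
    (eE.image_eq_preimage_symm A).symm
  refine ⟨h.1.preimage eE.symm.continuous, ?_, ?_⟩
  · rw [im]; exact h.2.1.image _ eE.continuous.continuousOn
  · rw [im]; exact eE.lipschitz.isBounded_image (PK.isBounded_of_domain h)

/-- the class in Euclidean space -/
theorem generated_E (h : St.Generated Ω Λ f) :
    Vale.Agent.P073.Generated (eE.symm ⁻¹' Ω) (eE.symm ⁻¹' Λ) (cf f) := by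
  induction h with
  | @base Ω Λ f K hΩ hΛ hf hK hloc =>
    refine Vale.Agent.P073.Generated.base (boundedDomain_E hΩ) (boundedDomain_E hΛ) (homeo_E hf)
      hK fun a ha => ?_
    rcases hloc (eE.symm a) ha with h | h
    · left
      have := small_E (le_refl K) h
      rwa [eE.apply_symm_apply] at this
    · right
      have := dir_E h
      rwa [eE.apply_symm_apply] at this
  | @comp Ω Λ Ξ f g _ _ ih1 ih2 =>
    have h1 := Vale.Agent.P073.Generated.comp ih1 ih2
    have e : cf g ∘ cf f = cf (fun x => g (f x)) := by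
      funext y
      show eE (g (eE.symm (eE (f (eE.symm y))))) = eE (g (f (eE.symm y)))
      rw [eE.symm_apply_apply]
    rwa [e] at h1

/-- fine approximation, in the definitions of `St.lean` -/
def FineV (Ω Λ : Set V) (f : V → V) : Prop :=
  ∃ (D : V → V →L[ℝ] V) (C : V → ℝ), Measurable D ∧ ContinuousOn C Ω ∧ (∀ x ∈ Ω, 0 < C x) ∧
    (∀ x ∈ Ω, ‖D x‖ ≤ C x) ∧
    ∀ w : V → ℝ, ContinuousOn w Ω → ∃ g : V → V, St.IsDiffeo Ω Λ g ∧
      (∀ x ∈ Ω, ‖g x - f x‖ * w x ≤ 1) ∧ (∀ x ∈ Ω, ‖fderiv ℝ g x‖ ≤ C x) ∧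
      ∫⁻ x in Ω, ENNReal.ofReal (w x * ‖fderiv ℝ g x - D x‖) ≤ 1

theorem fineV_of {F : E3 → (E3 →L[ℝ] E3)} {C : E3 → ℝ}
    (hF : Fine (eE.symm ⁻¹' Ω) (eE.symm ⁻¹' Λ) (cf f) F C) : FineV Ω Λ f := by
  have mem : ∀ {x : V}, x ∈ Ω → eE x ∈ eE.symm ⁻¹' Ω := fun {x} hx => by
    simp only [mem_preimage, eE.symm_apply_apply]; exact hx
  refine ⟨fun x => cL (F (eE x)), fun x => cM * C (eE x),
    measurable_cL.comp (hF.meas.comp eE.continuous.measurable), ?_,
    fun x hx => mul_pos cM_pos (hF.posC _ (mem hx)), fun x hx => ?_, ?_⟩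
  · exact continuousOn_const.mul (hF.contC.comp eE.continuous.continuousOn (fun x hx => mem hx))
  · exact (norm_cL_le _).trans (mul_le_mul_of_nonneg_left (hF.bdF _ (mem hx)) cM_pos.le)
  intro w hw
  have hw' : ContinuousOn (fun y : E3 => cM * |w (eE.symm y)|) (eE.symm ⁻¹' Ω) :=
    continuousOn_const.mul (hw.comp eE.symm.continuous.continuousOn (fun _ hx => hx)).abs
  obtain ⟨g, hg1, hg2, hg3, -, hg5⟩ := hF.approx _ hw'
  refine ⟨cg g, diffeo_V hg1, fun x hx => ?_, fun x hx => ?_, ?_⟩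
  · have h1 := hg2 (eE x) (mem hx)
    simp only [eE.symm_apply_apply] at h1
    have h2 : cg g x - f x = eE.symm (g (eE x) - cf f (eE x)) := by
      simp only [cg, cf, map_sub, eE.symm_apply_apply]
    have h3 := norm_symm_le (g (eE x) - cf f (eE x))
    rw [h2]
    calc ‖eE.symm (g (eE x) - cf f (eE x))‖ * w x
        ≤ ‖eE.symm (g (eE x) - cf f (eE x))‖ * |w x| :=
          mul_le_mul_of_nonneg_left (le_abs_self _) (norm_nonneg _)
      _ ≤ (cM * ‖g (eE x) - cf f (eE x)‖) * |w x| :=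
          mul_le_mul_of_nonneg_right h3 (abs_nonneg _)
      _ = ‖g (eE x) - cf f (eE x)‖ * (cM * |w x|) := by ring
      _ ≤ 1 := h1
  · rw [fderiv_cg]
    exact (norm_cL_le _).trans (mul_le_mul_of_nonneg_left (hg3 _ (mem hx)) cM_pos.le)
  · have hpre : Ω = eE ⁻¹' (eE.symm ⁻¹' Ω) := by
      ext x; simp
    calc ∫⁻ x in Ω, ENNReal.ofReal (w x * ‖fderiv ℝ (cg g) x - cL (F (eE x))‖)
        ≤ ∫⁻ x in Ω, ENNReal.ofReal ((cM * |w (eE.symm (eE x))|) *
            ‖fderiv ℝ g (eE x) - F (eE x)‖) := by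
          refine lintegral_mono fun x => ENNReal.ofReal_le_ofReal ?_
          rw [eE.symm_apply_apply, fderiv_cg, cL_sub]
          have h1 := norm_cL_le (fderiv ℝ g (eE x) - F (eE x))
          calc w x * ‖cL (fderiv ℝ g (eE x) - F (eE x))‖
              ≤ |w x| * ‖cL (fderiv ℝ g (eE x) - F (eE x))‖ :=
                mul_le_mul_of_nonneg_right (le_abs_self _) (norm_nonneg _)
            _ ≤ |w x| * (cM * ‖fderiv ℝ g (eE x) - F (eE x)‖) :=
                mul_le_mul_of_nonneg_left h1 (abs_nonneg _)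
            _ = _ := by ring
      _ = ∫⁻ y in eE.symm ⁻¹' Ω, ENNReal.ofReal ((cM * |w (eE.symm y)|) *
            ‖fderiv ℝ g y - F y‖) := by
          conv_lhs => rw [hpre]
          exact mp_eE.setLIntegral_comp_preimage_emb me_eE
            (fun y => ENNReal.ofReal ((cM * |w (eE.symm y)|) * ‖fderiv ℝ g y - F y‖)) _
      _ ≤ 1 := hg5

/-- **fine approximation of the generated class** -/
theorem fineV_of_generated (h : St.Generated Ω Λ f) : FineV Ω Λ f := by
  obtain ⟨-, -, F, C, hF⟩ := fine_of_generated (generated_E h)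
  exact fineV_of hF

end Vale.Agent.P073.H655
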