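import Vale.Agent.P073.H655.RowsM
import Vale.Agent.P073.H655.SameT
import Mathlib.MeasureTheory.Measure.Hausdorff
import Mathlib.MeasureTheory.Integral.MeanInequalities

/-!
# P073, exponents `p > 3`: the image of a singular set of small Hausdorff measure
-/

namespace Vale.Agent.P073.H655

open MeasureTheory Set Filter Topology Metric Vale.Agent.P073.AB
open Vale.Agent.P073.St (V Mat euc)
open Vale.Agent.P073.SQ (ev cube)
open scoped ContDiff ENNReal

/-- Hölder's inequality for sums -/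
theorem tsum_holder {p : ℝ} (hp : 3 < p) {ι : Type} (a b : ι → ℝ≥0∞) :
    ∑' i, a i ^ ((p - 3) / p) * b i ^ (1 / p) ≤
      (∑' i, a i ^ ((p - 3) / (p - 1))) ^ ((p - 1) / p) * (∑' i, b i) ^ (1 / p) := by
  have hp0 : 0 < p := by linarith
  have hp1 : 0 < p - 1 := by linarith
  let _ : MeasurableSpace ι := ⊤
  have hc : (p / (p - 1)).HolderConjugate p := by
    rw [Real.holderConjugate_iff]
    refine ⟨by rw [lt_div_iff₀ hp1]; linarith, ?_⟩
    field_simp
    ring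
  have h := ENNReal.lintegral_mul_le_Lp_mul_Lq (Measure.count : Measure ι) hc
    (f := fun i => a i ^ ((p - 3) / p)) (g := fun i => b i ^ (1 / p))
    measurable_from_top.aemeasurable measurable_from_top.aemeasurable
  simp only [Pi.mul_apply, lintegral_count] at h
  refine h.trans (le_of_eq ?_)
  have e1 : ∀ i, (a i ^ ((p - 3) / p)) ^ (p / (p - 1)) = a i ^ ((p - 3) / (p - 1)) := by
    intro i
    rw [← ENNReal.rpow_mul]
    congr 1
    field_simp
  have e2 : ∀ i, (b i ^ (1 / p)) ^ p = b i := by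
    intro i
    rw [← ENNReal.rpow_mul, one_div_mul_cancel hp0.ne', ENNReal.rpow_one]
  simp_rw [e1, e2]
  congr 2
  field_simp

/-- the image of a set of finite `(p-3)/(p-1)`-dimensional measure has null coordinate
projections -/
theorem null_of_finite (hM : SpecMorrey) (hC : SpecCover) {p : ℝ} (hp : 3 < p) {Ω K : Set V}
    {f : V → V} {F : V → Mat} (hΩ : St.IsBoundedDomain Ω) (hF : St.IsSobolev p Ω f F)
    (hf : ContinuousOn f Ω) (hK : K ⊆ Ω)
    (hfin : Measure.hausdorffMeasure ((p - 3) / (p - 1)) K < ⊤) (l : Fin 3) :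
    volume ((fun y : V => y l) '' (f '' K)) = 0 := by
  have hp0 : 0 < p := by linarith
  have hp1 : 0 < p - 1 := by linarith
  have hp3 : 0 < p - 3 := by linarith
  set s : ℝ := (p - 3) / (p - 1) with hs
  have hs0 : 0 < s := by positivity
  have hs3 : s < 3 := by
    rw [hs, div_lt_iff₀ hp1]; linarith
  obtain ⟨CM, hCM, hMor⟩ := hM p hp
  obtain ⟨C, hCt, hcov⟩ := hC s K hs0 hfin
  -- `K` is a null set
  have hK0 : volume K = 0 := by
    have h2 : (μH[(3 : ℝ)] : Measure V) = volume := by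
      have := hausdorffMeasure_pi_real (ι := Fin 3)
      rwa [Fintype.card_fin] at this
    rw [← h2]
    exact (Measure.hausdorffMeasure_zero_or_top hs3 K).resolve_right hfin.ne
  have hFt : ∫⁻ z in Ω, ENNReal.ofReal (‖cl (F z)‖ ^ p) ≠ ⊤ := by
    have h1 := PK.IsSob.lintegral_ne_top (by linarith) hF
    refine ne_top_of_le_ne_top h1 (le_of_eq ?_)
    refine lintegral_congr fun z => ?_
    rw [← ofReal_norm, ENNReal.ofReal_rpow_of_nonneg (norm_nonneg _) hp0.le]
  -- the estimate in a neighbourhood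
  set B : ℝ≥0∞ := ENNReal.ofReal CM ^ (1 / p) * C ^ ((p - 1) / p) with hB
  have hBt : B ≠ ⊤ := ENNReal.mul_ne_top
    (ENNReal.rpow_ne_top_of_nonneg (by positivity) ENNReal.ofReal_ne_top)
    (ENNReal.rpow_ne_top_of_nonneg (by positivity) hCt)
  have hmain : ∀ N : Set V, IsOpen N → K ⊆ N → N ⊆ Ω →
      volume ((fun y : V => y l) '' (f '' K)) ≤
        B * (∫⁻ z in N, ENNReal.ofReal (‖cl (F z)‖ ^ p)) ^ (1 / p) := by
    intro N hN hKN hNΩ
    obtain ⟨ι, hι, c, ρ, hρ, hcN, hKc, hdis, hsum⟩ := hcov N hN hKN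
    set ν : ι → ℝ≥0∞ := fun i => ∫⁻ z in cube (c i) (ρ i), ENNReal.ofReal (‖cl (F z)‖ ^ p) with hν
    have h1 : (fun y : V => y l) '' (f '' K) ⊆
        ⋃ i, (fun y : V => y l) '' (f '' (cube (c i) (ρ i))) := by
      rintro _ ⟨_, ⟨x, hx, rfl⟩, rfl⟩
      obtain ⟨i, hi⟩ := mem_iUnion.1 (hKc hx)
      exact mem_iUnion.2 ⟨i, _, ⟨x, hi, rfl⟩, rfl⟩
    have h2 : ∀ i, volume ((fun y : V => y l) '' (f '' (cube (c i) (ρ i)))) ≤
        ENNReal.ofReal CM ^ (1 / p) * (ENNReal.ofReal (ρ i) ^ ((p - 3) / p) * ν i ^ (1 / p)) := by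
      intro i
      refine (Real.volume_le_diam _).trans (Metric.ediam_le ?_)
      rintro _ ⟨_, ⟨x, hx, rfl⟩, rfl⟩ _ ⟨_, ⟨y, hy, rfl⟩, rfl⟩
      have h3 := hMor Ω f F hΩ hF hf (c i) (ρ i) (hρ i) ((hcN i).trans hNΩ) x hx y hy
      have h4 : edist (f x l) (f y l) ≤ ENNReal.ofReal ‖f x - f y‖ := by
        rw [edist_dist]
        apply ENNReal.ofReal_le_ofReal
        rw [Real.dist_eq]
        exact norm_le_pi_norm (f x - f y) l
      refine h4.trans ?_
      have h5 : ENNReal.ofReal ‖f x - f y‖ = (ENNReal.ofReal (‖f x - f y‖ ^ p)) ^ (1 / p) := by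
        rw [← ENNReal.ofReal_rpow_of_nonneg (norm_nonneg _) hp0.le, ← ENNReal.rpow_mul,
          mul_one_div_cancel hp0.ne', ENNReal.rpow_one]
      rw [h5]
      refine (ENNReal.rpow_le_rpow h3 (by positivity)).trans (le_of_eq ?_)
      rw [ENNReal.mul_rpow_of_nonneg _ _ (by positivity), ENNReal.ofReal_mul hCM.le,
        ENNReal.mul_rpow_of_nonneg _ _ (by positivity),
        ← ENNReal.ofReal_rpow_of_pos (hρ i), ← ENNReal.rpow_mul, mul_assoc]
      congr 3
      field_simp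
    have h6 : ∑' i, ν i ≤ ∫⁻ z in N, ENNReal.ofReal (‖cl (F z)‖ ^ p) := by
      rw [hν, ← lintegral_iUnion₀ (fun i => (isCompact_cube (hρ i)).measurableSet.nullMeasurableSet)
        (fun i j hij => hdis i j hij)]
      exact lintegral_mono_set (iUnion_subset hcN)
    have h7 : ∑' i, ENNReal.ofReal (ρ i) ^ s ≤ C := by
      refine le_trans (le_of_eq ?_) hsum
      exact tsum_congr fun i => ENNReal.ofReal_rpow_of_pos (hρ i)
    calc volume ((fun y : V => y l) '' (f '' K))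
        ≤ ∑' i, volume ((fun y : V => y l) '' (f '' (cube (c i) (ρ i)))) :=
          (measure_mono h1).trans (measure_iUnion_le _)
      _ ≤ ∑' i, ENNReal.ofReal CM ^ (1 / p) *
            (ENNReal.ofReal (ρ i) ^ ((p - 3) / p) * ν i ^ (1 / p)) := ENNReal.tsum_le_tsum h2
      _ = ENNReal.ofReal CM ^ (1 / p) *
            ∑' i, ENNReal.ofReal (ρ i) ^ ((p - 3) / p) * ν i ^ (1 / p) := ENNReal.tsum_mul_left
      _ ≤ ENNReal.ofReal CM ^ (1 / p) *
            ((∑' i, ENNReal.ofReal (ρ i) ^ s) ^ ((p - 1) / p) * (∑' i, ν i) ^ (1 / p)) := by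
          gcongr
          exact tsum_holder hp _ _
      _ ≤ ENNReal.ofReal CM ^ (1 / p) * (C ^ ((p - 1) / p) *
            (∫⁻ z in N, ENNReal.ofReal (‖cl (F z)‖ ^ p)) ^ (1 / p)) := by
          gcongr
      _ = _ := by rw [hB, mul_assoc]
  -- the limit
  refine le_antisymm (le_of_forall_gt fun η hη => ?_) bot_le
  have hlim : Tendsto (fun t : ℝ≥0∞ => B * t ^ (1 / p)) (𝓝 0) (𝓝 (B * 0 ^ (1 / p))) :=
    ENNReal.Tendsto.const_mul ((ENNReal.continuous_rpow_const).tendsto 0) (Or.inr hBt)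
  rw [ENNReal.zero_rpow_of_pos (by positivity), mul_zero] at hlim
  obtain ⟨t, ht, ht0⟩ : ∃ t : ℝ≥0∞, B * t ^ (1 / p) < η ∧ 0 < t := by
    have h1 : ∀ᶠ t in 𝓝 (0 : ℝ≥0∞), B * t ^ (1 / p) < η := hlim.eventually (gt_mem_nhds hη)
    have h2 : ∀ᶠ t in 𝓝[>] (0 : ℝ≥0∞), B * t ^ (1 / p) < η ∧ 0 < t :=
      (h1.filter_mono nhdsWithin_le_nhds).and self_mem_nhdsWithin
    exact h2.exists
  obtain ⟨δ, hδ, hδt⟩ := exists_pos_setLIntegral_lt_of_measure_lt hFt ht0.ne'
  obtain ⟨N, hKN, hNo, hNδ⟩ := Set.exists_isOpen_lt_of_lt (μ := (volume : Measure V)) K δ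
    (by rw [hK0]; exact hδ)
  refine lt_of_le_of_lt (hmain (N ∩ Ω) (hNo.inter hΩ.1) (subset_inter hKN hK)
    inter_subset_right) (lt_of_le_of_lt ?_ ht)
  gcongr
  have h8 := hδt (N ∩ Ω) (lt_of_le_of_lt ((Measure.restrict_apply_le _ _).trans
    (measure_mono inter_subset_left)) hNδ)
  rw [Measure.restrict_restrict (hNo.inter hΩ.1).measurableSet, inter_assoc, inter_self] at h8
  exact h8.le

/-- σ-finite version -/
theorem null_of_sigma (hM : SpecMorrey) (hC : SpecCover) {p : ℝ} (hp : 3 < p) {Ω K : Set V}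
    {f : V → V} {F : V → Mat} (hΩ : St.IsBoundedDomain Ω) (hF : St.IsSobolev p Ω f F)
    (hf : ContinuousOn f Ω) (hK : K ⊆ Ω) {S : ℕ → Set V} (hKS : K ⊆ ⋃ n, S n)
    (hfin : ∀ n, Measure.hausdorffMeasure ((p - 3) / (p - 1)) (S n) < ⊤) (l : Fin 3) :
    volume ((fun y : V => y l) '' (f '' K)) = 0 := by
  have h1 : (fun y : V => y l) '' (f '' K) ⊆
      ⋃ n, (fun y : V => y l) '' (f '' (K ∩ S n)) := by
    rintro _ ⟨_, ⟨x, hx, rfl⟩, rfl⟩
    obtain ⟨n, hn⟩ := mem_iUnion.1 (hKS hx)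
    exact mem_iUnion.2 ⟨n, _, ⟨x, ⟨hx, hn⟩, rfl⟩, rfl⟩
  refine measure_mono_null h1 (measure_iUnion_null fun n => ?_)
  exact null_of_finite hM hC hp hΩ hF hf (inter_subset_left.trans hK)
    (lt_of_le_of_lt (measure_mono inter_subset_right) (hfin n)) l

end Vale.Agent.P073.H655
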