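import Vale.Agent.P073.H655.Tame2Defs
import Vale.Agent.P073.H655.Off
import Vale.Agent.P073.H655.NullM
import Vale.Agent.P073.H880.TameMain
import Vale.Agent.P073.H705.Mor2
import Vale.Agent.P073.H705.Cover
import Vale.Agent.P073.H694.Conn
import Vale.Agent.P073.H694.FineLoc

/-!
# P073: tame homeomorphisms (larger class) are diffeomorphically approximable
-/

namespace Vale.Agent.P073.H655

open MeasureTheory Set Filter Topology Metric Vale.Agent.P073.St Vale.Agent.P073.AB
open Vale.Agent.P073.H880 (LocPA NullProj)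
open scoped ContDiff ENNReal

variable {p : ℝ} {Ω Λ K : Set V}

/-- smallness in terms of null projections -/
theorem small_null (hΩ : St.IsBoundedDomain Ω) (hK : K ⊆ Ω) {f : V → V} {F : V → Mat}
    (hf : St.IsHomeo Ω Λ f) (hF : St.IsSobolev p Ω f F) (h : Small p f K) :
    (p < 3 ∧ NullProj K) ∨ NullProj (f '' K) := by
  have hfc : ContinuousOn f Ω := hf.choose_spec.2.1
  rcases h with h | h | ⟨hp3, S, hKS, hS⟩
  · exact Or.inr h
  · exact Or.inl h
  · exact Or.inr fun l =>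
      null_of_sigma H705.specMorrey H705.specCover hp3 hΩ hF hfc hK hKS hS l

/-- **tame homeomorphisms are approximable** -/
theorem tame_approximable (hp : 1 ≤ p) (hΩ : St.IsBoundedDomain Ω) (hΛ : St.IsBoundedDomain Λ)
    {f : V → V} {F : V → Mat} (hf : St.IsHomeo Ω Λ f) (hF : St.IsSobolev p Ω f F)
    (hT : Tame p Ω f) : St.DiffeoApproximable p Ω Λ f F := by
  obtain ⟨K, hK, hKo, hR, hs⟩ := hT
  have hn := small_null hΩ hK hf hF hs
  rcases hR with hR | hR | ⟨c, hc, hloc⟩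
  · exact H880.tame_approximable hp hΩ hΛ hf hF ⟨K, hK, hKo, Or.inl hR, hn⟩
  · exact H880.tame_approximable hp hΩ hΛ hf hF ⟨K, hK, hKo, Or.inr hR, hn⟩
  · refine approx_of_local H694.specFineLoc hp hΩ hΛ hK hKo hf hF
      (conn_of_null H694.specConn hΩ hΛ hK hKo hf ?_) hc hloc fun g G hg hG hgs hgi hgK => ?_
    · rcases hn with ⟨-, h⟩ | h
      · exact Or.inl h
      · exact Or.inr h
    · refine H880.tame_approximable hp hΩ hΛ hg hG ⟨K, hK, hKo, Or.inl ⟨hgs, hgi⟩, ?_⟩
      rwa [hgK]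

/-- **the equivalence** -/
theorem tame_iff (hp : 1 ≤ p) (hΩ : St.IsBoundedDomain Ω) (hΛ : St.IsBoundedDomain Λ)
    {f : V → V} {F : V → Mat} (hf : St.IsHomeo Ω Λ f) (hF : St.IsSobolev p Ω f F) :
    TameApproximable p Ω Λ f F ↔ St.DiffeoApproximable p Ω Λ f F := by
  constructor
  · rintro ⟨g, G, hg, hlim⟩
    exact approximable_of_limit hp hΩ hΛ hf hF (fun k => (hg k).2.1)
      (fun k => tame_approximable hp hΩ hΛ (hg k).1 (hg k).2.1 (hg k).2.2) hlim
  · rintro ⟨g, hg, hlim⟩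
    refine ⟨g, fun k => jac (g k), fun k => ⟨H880.homeo_of_diffeo (hg k).1, (hg k).2, ?_⟩, hlim⟩
    obtain ⟨K, hK, hKo, hR, hs⟩ := H880.tame_of_diffeo (p := p) hΩ.1 hΛ.1 (hg k).1
    refine ⟨K, hK, hKo, ?_, ?_⟩
    · rcases hR with h | h
      · exact Or.inl h
      · exact Or.inr (Or.inl h)
    · rcases hs with h | h
      · exact Or.inr (Or.inl h)
      · exact Or.inl h

end Vale.Agent.P073.H655
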