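import Vale.Agent.P073.H655.Tame3Defs
import Vale.Agent.P073.H655.Tame2
import Vale.Agent.P073.H655.Conn3
import Vale.Agent.P073.H655.AppG
import Vale.Agent.P073.RT.An8
import Vale.Agent.P073.RT.H694.All
import Vale.Agent.P073.RT.H712.ZRows

/-!
# P073: tame homeomorphisms (class with small slices) are diffeomorphically approximable
-/

namespace Vale.Agent.P073.H655.T3

open MeasureTheory Set Filter Topology Metric Vale.Agent.P073.St Vale.Agent.P073.AB
open Vale.Agent.P073.H880 (LocPA NullProj RegularOn)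
open scoped ContDiff ENNReal

variable {p : ℝ} {Ω Λ K : Set V}

/-- smallness: the four cases with `p < 3` are cases of small slices -/
theorem small_cases (hΩ : St.IsBoundedDomain Ω) (hK : K ⊆ Ω) {f : V → V} {F : V → Mat}
    (hf : St.IsHomeo Ω Λ f) (hF : St.IsSobolev p Ω f F) (h : Small p Ω f K) :
    (p < 3 ∧ RT.SmallSlices K f) ∨ NullProj (f '' K) := by
  rcases h with h | ⟨hp, h⟩ | ⟨hp, h⟩
  · exact Or.inr h
  · left
    refine ⟨hp, ?_⟩
    rcases h with h | h | ⟨S, h1, h2⟩ | ⟨h1, h2⟩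
    · intro k
      filter_upwards [measure_eq_zero_iff_ae_notMem.1 (h k)] with t ht
      have h0 : K ∩ {x | x k = t} = ∅ := by
        rw [eq_empty_iff_forall_notMem]
        rintro x ⟨hx, hxt⟩
        exact ht ⟨x, hx, hxt⟩
      rw [h0]
      simp
    · exact h
    · exact RT.H712.specLength K f S h1 fun n => (h2 n).ne
    · exact RT.H712.specArea Ω K f hΩ.1 hK h1 h2
  · exact Or.inr (by
      rcases small_null hΩ hK hf hF (Or.inr (Or.inr ⟨hp, h⟩)) with h' | h'
      · linarith [h'.1]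
      · exact h')

/-- the case of maps which are regular in the narrower sense -/
theorem approx_regular (hp : 1 ≤ p) (hΩ : St.IsBoundedDomain Ω) (hΛ : St.IsBoundedDomain Λ)
    (hK : K ⊆ Ω) (hKo : IsOpen (Ω \ K)) {f : V → V} {F : V → Mat} (hf : St.IsHomeo Ω Λ f)
    (hF : St.IsSobolev p Ω f F) (hR : RegularOn (Ω \ K) f)
    (hn : (p < 3 ∧ RT.SmallSlices K f) ∨ NullProj (f '' K)) :
    St.DiffeoApproximable p Ω Λ f F := by
  rcases hn with ⟨hp3, hn⟩ | hn
  · exact RT.main_RT specApp RT.T4.specTop_all hp hp3 hΩ hΛ hK hKo hf hF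
      (H880.fineOff_of_regular hp hΩ hΛ hK hKo hf hF hR) hn
  · exact H880.tame_approximable hp hΩ hΛ hf hF ⟨K, hK, hKo, hR, Or.inr hn⟩

/-- **tame homeomorphisms are approximable** -/
theorem tame_approximable (hp : 1 ≤ p) (hΩ : St.IsBoundedDomain Ω) (hΛ : St.IsBoundedDomain Λ)
    {f : V → V} {F : V → Mat} (hf : St.IsHomeo Ω Λ f) (hF : St.IsSobolev p Ω f F)
    (hT : Tame p Ω f) : St.DiffeoApproximable p Ω Λ f F := by
  obtain ⟨K, hK, hKo, hR, hs⟩ := hT
  have hn := small_cases hΩ hK hf hF hs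
  rcases hR with hR | hR | ⟨c, hc, hloc⟩
  · exact approx_regular hp hΩ hΛ hK hKo hf hF (Or.inl hR) hn
  · exact approx_regular hp hΩ hΛ hK hKo hf hF (Or.inr hR) hn
  · have hconn : IsPreconnected (Λ \ f '' K) := by
      rcases hn with h | h
      · exact conn_of_slices hΩ hK hKo hf (sliceNull_of h.2)
      · exact conn_of_null H694.specConn hΩ hΛ hK hKo hf (Or.inr h)
    refine approx_of_local' H694.specFineLoc hp hΩ hΛ hK hKo hf hF hconn hc hloc
      fun g G hg hG hgs hgi hgK => ?_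
    refine approx_regular hp hΩ hΛ hK hKo hg hG (Or.inl ⟨hgs, hgi⟩) ?_
    rcases hn with ⟨h1, h2⟩ | h
    · exact Or.inl ⟨h1, smallSlices_congr hgK h2⟩
    · right
      rwa [image_congr hgK]

/-- **the equivalence** -/
theorem tame_iff (hp : 1 ≤ p) (hΩ : St.IsBoundedDomain Ω) (hΛ : St.IsBoundedDomain Λ)
    {f : V → V} {F : V → Mat} (hf : St.IsHomeo Ω Λ f) (hF : St.IsSobolev p Ω f F) :
    TameApproximable p Ω Λ f F ↔ St.DiffeoApproximable p Ω Λ f F := by
  constructor
  · rintro ⟨g, G, hg, hlim⟩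
    exact approximable_of_limit hp hΩ hΛ hf hF (fun k => (hg k).2.1)
      (fun k => tame_approximable hp hΩ hΛ (hg k).1 (hg k).2.1 (hg k).2.2) hlim
  · rintro ⟨g, hg, hlim⟩
    refine ⟨g, fun k => jac (g k), fun k => ⟨H880.homeo_of_diffeo (hg k).1, (hg k).2, ?_⟩, hlim⟩
    obtain ⟨K, hK, hKo, hR, hs⟩ := H880.tame_of_diffeo (p := p) hΩ.1 hΛ.1 (hg k).1
    refine ⟨K, hK, hKo, ?_, ?_⟩
    · rcases hR with h | h
      · exact Or.inl h
      · exact Or.inr (Or.inl h)
    · rcases hs with h | h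
      · exact Or.inr (Or.inl ⟨h.1, Or.inl h.2⟩)
      · exact Or.inl h

end Vale.Agent.P073.H655.T3
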