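import Vale.Agent.P073.H655.Tame4Defs
import Vale.Agent.P073.H655.Tame3
import Vale.Agent.P073.H655.FineGen
import Vale.Agent.P073.H339.SpecDim

/-!
# P073: tame homeomorphisms (with compositions off the singular set) are approximable
-/

namespace Vale.Agent.P073.H655

open MeasureTheory Set Filter Topology Metric Vale.Agent.P073.St Vale.Agent.P073.AB
open scoped ContDiff ENNReal

variable {p : ℝ} {Ω Λ K : Set V}

/-- **finely approximable maps off `K`**: reduction to maps of class `C¹` off `K` -/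
theorem approx_of_fineV (hp : 1 ≤ p) (hΩ : St.IsBoundedDomain Ω)
    (hΛ : St.IsBoundedDomain Λ) (hK : K ⊆ Ω) (hKo : IsOpen (Ω \ K)) {f : V → V} {F : V → Mat}
    (hf : St.IsHomeo Ω Λ f) (hF : St.IsSobolev p Ω f F) (hV : FineV (Ω \ K) (Λ \ f '' K) f)
    (happr : ∀ (g : V → V) (G : V → Mat), St.IsHomeo Ω Λ g → St.IsSobolev p Ω g G →
      ContDiffOn ℝ 1 g (Ω \ K) → (∀ x ∈ Ω \ K, ∀ v, fderiv ℝ g x v = 0 → v = 0) →
      (∀ x ∈ K, g x = f x) → St.DiffeoApproximable p Ω Λ g G) :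
    St.DiffeoApproximable p Ω Λ f F := by
  obtain ⟨D, C, hDm, hC, hC0, hDC, happ⟩ := hV
  have hseq := fun n : ℕ => exists_off hp hΩ hΛ hK hKo hf hF hDm hC hC0 hDC happ
    (ε := 1 / ((n : ℝ) + 1)) (by positivity)
  choose g G hg hG hgs hginj hgK hgi using hseq
  refine approximable_of_limit hp hΩ hΛ hf hF hG
    (fun n => happr (g n) (G n) (hg n) (hG n) (hgs n) (hginj n) (hgK n)) ?_
  refine squeeze_zero (fun n => ?_) hgi tendsto_one_div_add_atTop_nhds_zero_nat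
  exact integral_nonneg fun x =>
    add_nonneg (Real.rpow_nonneg (Real.sqrt_nonneg _) _) (Real.rpow_nonneg (Real.sqrt_nonneg _) _)

end Vale.Agent.P073.H655

namespace Vale.Agent.P073.H655.V4

open MeasureTheory Set Filter Topology Metric Vale.Agent.P073.St Vale.Agent.P073.AB
open Vale.Agent.P073.H880 (LocPA NullProj RegularOn)
open scoped ContDiff ENNReal

variable {p : ℝ} {Ω Λ K : Set V}

/-- smallness: all cases reduce to two -/
theorem small_cases (hΩ : St.IsBoundedDomain Ω) (hK : K ⊆ Ω) {f : V → V} {F : V → Mat}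
    (hf : St.IsHomeo Ω Λ f) (hF : St.IsSobolev p Ω f F) (h : Small p Ω f K) :
    (p < 3 ∧ RT.SmallSlices K f) ∨ NullProj (f '' K) := by
  have hfc : ContinuousOn f Ω := hf.choose_spec.2.1
  rcases h with h | ⟨hp, h⟩ | h
  · exact T3.small_cases hΩ hK hf hF (Or.inl h)
  · rcases h with h | h | h | ⟨hp2, S, h1, h2⟩ | h
    · exact T3.small_cases hΩ hK hf hF (Or.inr (Or.inl ⟨hp, Or.inl h⟩))
    · exact Or.inl ⟨hp, h⟩
    · exact T3.small_cases hΩ hK hf hF (Or.inr (Or.inl ⟨hp, Or.inr (Or.inr (Or.inl h))⟩))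
    · exact Or.inl ⟨hp, H339.specDim p Ω K f F S hp2 hΩ hF hfc hK h1 fun n => (h2 n).ne⟩
    · exact T3.small_cases hΩ hK hf hF (Or.inr (Or.inl ⟨hp, Or.inr (Or.inr (Or.inr h))⟩))
  · exact T3.small_cases hΩ hK hf hF (Or.inr (Or.inr h))

/-- **tame homeomorphisms are approximable** -/
theorem tame_approximable (hp : 1 ≤ p) (hΩ : St.IsBoundedDomain Ω) (hΛ : St.IsBoundedDomain Λ)
    {f : V → V} {F : V → Mat} (hf : St.IsHomeo Ω Λ f) (hF : St.IsSobolev p Ω f F)
    (hT : Tame p Ω Λ f) : St.DiffeoApproximable p Ω Λ f F := by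
  obtain ⟨K, hK, hKo, hR, hs⟩ := hT
  have hn := small_cases hΩ hK hf hF hs
  have hn' : T3.Small p Ω f K := by
    rcases hn with ⟨h1, h2⟩ | h
    · exact Or.inr (Or.inl ⟨h1, Or.inr (Or.inl h2)⟩)
    · exact Or.inl h
  rcases hR with hR | hR | hR | hR
  · exact T3.tame_approximable hp hΩ hΛ hf hF ⟨K, hK, hKo, Or.inl hR, hn'⟩
  · exact T3.tame_approximable hp hΩ hΛ hf hF ⟨K, hK, hKo, Or.inr (Or.inl hR), hn'⟩
  · exact T3.tame_approximable hp hΩ hΛ hf hF ⟨K, hK, hKo, Or.inr (Or.inr hR), hn'⟩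
  · refine approx_of_fineV hp hΩ hΛ hK hKo hf hF (fineV_of_generated hR)
      fun g G hg hG hgs hgi hgK => ?_
    refine T3.approx_regular hp hΩ hΛ hK hKo hg hG (Or.inl ⟨hgs, hgi⟩) ?_
    rcases hn with ⟨h1, h2⟩ | h
    · exact Or.inl ⟨h1, smallSlices_congr hgK h2⟩
    · right
      rwa [image_congr hgK]

/-- **the equivalence** -/
theorem tame_iff (hp : 1 ≤ p) (hΩ : St.IsBoundedDomain Ω) (hΛ : St.IsBoundedDomain Λ)
    {f : V → V} {F : V → Mat} (hf : St.IsHomeo Ω Λ f) (hF : St.IsSobolev p Ω f F) :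
    TameApproximable p Ω Λ f F ↔ St.DiffeoApproximable p Ω Λ f F := by
  constructor
  · rintro ⟨g, G, hg, hlim⟩
    exact approximable_of_limit hp hΩ hΛ hf hF (fun k => (hg k).2.1)
      (fun k => tame_approximable hp hΩ hΛ (hg k).1 (hg k).2.1 (hg k).2.2) hlim
  · rintro ⟨g, hg, hlim⟩
    refine ⟨g, fun k => jac (g k), fun k => ⟨H880.homeo_of_diffeo (hg k).1, (hg k).2, ?_⟩, hlim⟩
    obtain ⟨K, hK, hKo, hR, hs⟩ := H880.tame_of_diffeo (p := p) hΩ.1 hΛ.1 (hg k).1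
    refine ⟨K, hK, hKo, ?_, ?_⟩
    · rcases hR with h | h
      · exact Or.inl h
      · exact Or.inr (Or.inl h)
    · rcases hs with h | h
      · exact Or.inr (Or.inl ⟨h.1, Or.inl h.2⟩)
      · exact Or.inl h

end Vale.Agent.P073.H655.V4
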