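import Vale.Agent.P073.H655.FineT
import Vale.Agent.P073.H655.Tame4

/-!
# P073: fine approximation of the maps which are regular on the whole domain
-/

namespace Vale.Agent.P073.H655

open MeasureTheory Set Filter Topology Metric Vale.Agent.P073.St Vale.Agent.P073.AB
open Vale.Agent.P073.SQ (ev)
open scoped ContDiff ENNReal

variable {p : ℝ} {Ω Λ K : Set V}

theorem fa_of_fineV (hp : 1 ≤ p) (hΩ : St.IsBoundedDomain Ω)
    {f : V → V} {F : V → Mat} (hf : St.IsHomeo Ω Λ f)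
    (hF : St.IsSobolev p Ω f F) (hV : FineV Ω Λ f) : FA p Ω Λ f F := by
  intro σ hσ hσ0 ε hε
  obtain ⟨D, C, hDm, hC, hC0, hDC, happ⟩ := hV
  have hp0 : 0 < p := by linarith
  have hev : ∀ j, ‖ev j‖ = 1 := fun j => by unfold ev; rw [Pi.norm_single]; simp
  have hv := PK.volume_ne_top_of_domain hΩ
  have hfc : ContinuousOn f Ω := by
    obtain ⟨_, -, h, -⟩ := hf
    exact h
  -- `D` is the weak derivative
  have hDF : ∀ᵐ x ∂(volume : Measure V), x ∈ Ω → cl (F x) = D x := by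
    have h1 := D_eq hp hv hF hΩ.1 Subset.rfl hfc hDm hC hDC (fun n => by
      obtain ⟨g, hg, hgf, -, hgD⟩ := happ (fun _ => n) continuousOn_const
      exact ⟨g, (diffeo_smooth hg).of_le (by simp), hgf, hgD⟩)
    filter_upwards [h1] with x hx hxU
    exact clm_ext (hx hxU)
  -- the choice of `κ`
  obtain ⟨κ, hκ, hκε⟩ : ∃ κ : ℝ, 0 < κ ∧
      ENNReal.ofReal (κ ^ p) * volume Ω + 3 * ENNReal.ofReal κ ≤ ENNReal.ofReal ε := by
    have t0 : Tendsto (fun n : ℕ => 1 / ((n : ℝ) + 1)) atTop (𝓝 0) :=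
      tendsto_one_div_add_atTop_nhds_zero_nat
    have t1 : Tendsto (fun n : ℕ => ENNReal.ofReal (1 / ((n : ℝ) + 1))) atTop (𝓝 0) := by
      simpa using ENNReal.tendsto_ofReal t0
    have t2 : Tendsto (fun n : ℕ => ENNReal.ofReal ((1 / ((n : ℝ) + 1)) ^ p)) atTop (𝓝 0) := by
      have h2 : Tendsto (fun n : ℕ => (1 / ((n : ℝ) + 1)) ^ p) atTop (𝓝 (0 ^ p)) :=
        t0.rpow_const (Or.inr hp0.le)
      rw [Real.zero_rpow hp0.ne'] at h2
      simpa using ENNReal.tendsto_ofReal h2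
    have t3 := ENNReal.Tendsto.mul_const (b := volume Ω) t2 (Or.inr hv)
    rw [zero_mul] at t3
    have t4 := ENNReal.Tendsto.const_mul (a := 3) t1 (Or.inr (by norm_num))
    rw [mul_zero] at t4
    have t5 := t3.add t4
    rw [add_zero] at t5
    obtain ⟨n, hn⟩ := (t5.eventually (gt_mem_nhds (ENNReal.ofReal_pos.2 hε))).exists
    exact ⟨1 / ((n : ℝ) + 1), by positivity, hn.le⟩
  -- the weight
  set w : V → ℝ := fun x => (σ x)⁻¹ + κ⁻¹ + (2 * C x) ^ (p - 1) * κ⁻¹ with hw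
  have hwc : ContinuousOn w Ω := by
    refine ((hσ.inv₀ fun x hx => (hσ0 x hx).ne').add
        continuousOn_const).add (ContinuousOn.mul ?_ continuousOn_const)
    exact (continuousOn_const.mul hC).rpow_const fun x _ => Or.inr (by linarith)
  obtain ⟨g, hg, hgf, hgC, hgD⟩ := happ w hwc
  have hwb : ∀ x ∈ Ω, 0 ≤ (σ x)⁻¹ ∧ 0 ≤ κ⁻¹ ∧
      0 ≤ (2 * C x) ^ (p - 1) * κ⁻¹ := fun x hx =>
    ⟨inv_nonneg.2 (hσ0 x hx).le, by positivity,
      mul_nonneg (Real.rpow_nonneg (mul_nonneg zero_le_two (hC0 x hx).le) _) (by positivity)⟩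
  have hb1 : ∀ x ∈ Ω, ‖g x - f x‖ ≤ σ x := by
    intro x hx
    obtain ⟨b2, b3, b4⟩ := hwb x hx
    have h1 : ‖g x - f x‖ * (σ x)⁻¹ ≤ 1 :=
      (mul_le_mul_of_nonneg_left (by rw [hw]; dsimp only; linarith) (norm_nonneg _)).trans (hgf x hx)
    rwa [mul_inv_le_iff₀ (hσ0 x hx), one_mul] at h1
  have hb3 : ∀ x ∈ Ω, ‖g x - f x‖ ≤ κ := by
    intro x hx
    obtain ⟨b2, b3, b4⟩ := hwb x hx
    have h1 : ‖g x - f x‖ * κ⁻¹ ≤ 1 :=
      (mul_le_mul_of_nonneg_left (by rw [hw]; dsimp only; linarith) (norm_nonneg _)).trans (hgf x hx)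
    rwa [mul_inv_le_iff₀ hκ, one_mul] at h1
  -- the energy
  have hE : ∫⁻ x in Ω, ENNReal.ofReal (‖fderiv ℝ g x - cl (F x)‖ ^ p) ≤
      ENNReal.ofReal κ := by
    calc ∫⁻ x in Ω, ENNReal.ofReal (‖fderiv ℝ g x - cl (F x)‖ ^ p)
        ≤ ∫⁻ x in Ω, ENNReal.ofReal κ * ENNReal.ofReal (w x * ‖fderiv ℝ g x - D x‖) := by
          refine lintegral_mono_ae ((ae_restrict_iff' hΩ.1.measurableSet).2 ?_)
          filter_upwards [hDF] with x hx hxU
          rw [hx hxU, ← ENNReal.ofReal_mul hκ.le]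
          apply ENNReal.ofReal_le_ofReal
          obtain ⟨b2, b3, b4⟩ := hwb x hxU
          set t := ‖fderiv ℝ g x - D x‖ with ht
          have ht0 : 0 ≤ t := norm_nonneg _
          have ht2 : t ≤ 2 * C x := by
            refine (norm_sub_le _ _).trans ?_
            linarith [hgC x hxU, hDC x hxU]
          have h1 : t ^ p ≤ (2 * C x) ^ (p - 1) * t := by
            rcases ht0.eq_or_lt with h0 | h0
            · rw [← h0, Real.zero_rpow hp0.ne', mul_zero]
            · have : t ^ p = t ^ (p - 1) * t := by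
                rw [← Real.rpow_add_one h0.ne']; congr 1; ring
              rw [this]
              exact mul_le_mul_of_nonneg_right
                (Real.rpow_le_rpow ht0 ht2 (by linarith)) ht0
          have h2 : (2 * C x) ^ (p - 1) ≤ κ * w x := by
            have h3 : κ * ((2 * C x) ^ (p - 1) * κ⁻¹) = (2 * C x) ^ (p - 1) := by
              field_simp
            rw [← h3]
            apply mul_le_mul_of_nonneg_left _ hκ.le
            rw [hw]; dsimp only; linarith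
          calc t ^ p ≤ (2 * C x) ^ (p - 1) * t := h1
            _ ≤ (κ * w x) * t := mul_le_mul_of_nonneg_right h2 ht0
            _ = κ * (w x * t) := by ring
      _ = ENNReal.ofReal κ * ∫⁻ x in Ω, ENNReal.ofReal (w x * ‖fderiv ℝ g x - D x‖) :=
          lintegral_const_mul' _ _ ENNReal.ofReal_ne_top
      _ ≤ ENNReal.ofReal κ * 1 := mul_le_mul_right hgD _
      _ = _ := mul_one _
  refine ⟨g, hg, hb1, le_trans ?_ hκε⟩
  unfold err
  refine add_le_add ?_ ?_
  · rw [← setLIntegral_const]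
    refine setLIntegral_mono' hΩ.1.measurableSet fun x hx => ?_
    exact ENNReal.ofReal_le_ofReal (Real.rpow_le_rpow (norm_nonneg _) (hb3 x hx) hp0.le)
  · have h1 : ∀ j, ∫⁻ x in Ω, ENNReal.ofReal (‖fderiv ℝ g x (ev j) - cl (F x) (ev j)‖ ^ p) ≤
        ENNReal.ofReal κ := by
      intro j
      refine le_trans (lintegral_mono fun x => ENNReal.ofReal_le_ofReal
        (Real.rpow_le_rpow (norm_nonneg _) ?_ hp0.le)) hE
      have h2 := (fderiv ℝ g x - cl (F x)).le_opNorm (ev j)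
      rw [hev j, mul_one] at h2
      exact h2
    refine (Finset.sum_le_sum fun j _ => h1 j).trans (le_of_eq ?_)
    rw [Finset.sum_const, Finset.card_univ, Fintype.card_fin, nsmul_eq_mul]
    norm_num

/-- **maps which are regular on the whole domain** -/
theorem fa_of_reg (hB : SpecBoxesMesh) (hp : 1 ≤ p) (hΩ : St.IsBoundedDomain Ω)
    (hΛ : St.IsBoundedDomain Λ) {f : V → V} {F : V → Mat} (hf : St.IsHomeo Ω Λ f)
    (hF : St.IsSobolev p Ω f F) (hR : V4.Reg Ω Λ f) : FA p Ω Λ f F := by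
  have hreg : H880.RegularOn Ω f → FA p Ω Λ f F := by
    intro hR
    have h0 : IsOpen (Ω \ ∅) := by rw [sdiff_empty]; exact hΩ.1
    refine fine_T_of H739.specVan H705.specSqz H694.specFill hB hp hΩ hΛ (empty_subset _) h0 hf hF
      (H880.fineOff_of_regular hp hΩ hΛ (empty_subset _) h0 hf hF (by rw [sdiff_empty]; exact hR)) ?_
    intro l
    simp
  rcases hR with hR | hR | ⟨c, hc, hloc⟩ | hR
  · exact hreg (Or.inl hR)
  · exact hreg (Or.inr hR)
  · exact fa_of_fineV hp hΩ hf hF (H694.specFineLoc Ω Λ f c hΩ.1 (PK.isBounded_of_domain hΩ) hΛ.1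
      hΛ.2.1.isPreconnected (PK.isBounded_of_domain hΛ) hf hc hloc)
  · exact fa_of_fineV hp hΩ hf hF (fineV_of_generated hR)

end Vale.Agent.P073.H655
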