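import Vale.Agent.P073.H655.GlueT

/-!
# P073, theorem (T): the squeezing map of the target
-/

namespace Vale.Agent.P073.H655

open MeasureTheory Set Filter Topology Metric
open Vale.Agent.P073.St (V Mat euc)
open Vale.Agent.P073.SQ (ev cube SuppDiffeo)
open Vale.Agent.P073.H880 (Boxes SpecFill)
open scoped ContDiff ENNReal

/-- the conclusion of row S -/
def SqzC (C : ℝ) : Prop :=
  ∀ (c : V) (ρ : ℝ) (N : Set V) (κ : ℝ), 0 < ρ → IsCompact N → N ⊆ ocube c ρ →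
    (∀ l : Fin 3, volume ((fun y : V => y l) '' N) = 0) → 0 < κ →
    ∃ U D : Set V, IsOpen U ∧ N ⊆ U ∧ U ⊆ ocube c ρ ∧
      (∀ y ∈ U, ∀ l, ∃ z ∈ N, |y l - z l| < κ) ∧ IsCompact D ∧ D ⊆ ocube c ρ ∧
      ∀ ε : ℝ, 0 < ε → ε ≤ 1 → ∃ T : V → V, SuppDiffeo D T ∧ (∀ y, ‖T y - y‖ ≤ κ) ∧
        (∀ y, ‖fderiv ℝ T y‖ ≤ C) ∧
        (∀ y ∈ U, fderiv ℝ T y = ε • ContinuousLinearMap.id ℝ V) ∧
        ∀ y, (∀ l, ∀ z ∈ N, κ ≤ |y l - z l|) →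
          ‖fderiv ℝ T y - ContinuousLinearMap.id ℝ V‖ ≤ κ

theorem specSqz_iff : SpecSqz ↔ ∃ C : ℝ, 0 < C ∧ SqzC C := Iff.rfl

/-- the squeezing maps of the target: the sets `U i` do not depend on the numbers `ε i` -/
theorem exists_sqz {C : ℝ} (hC : SqzC C) {Λ K' : Set V} (hΛ : IsOpen Λ)
    (hK' : IsOpen (Λ \ K')) (hnull : ∀ l : Fin 3, volume ((fun y : V => y l) '' K') = 0)
    (W : Boxes Λ K') {κ : ℝ} (hκ : 0 < κ) :
    ∃ U : W.ι → Set V, (∀ i, IsOpen (U i)) ∧ (∀ i, U i ⊆ ocube (W.c i) (W.ρ i)) ∧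
      K' ⊆ ⋃ i, U i ∧
      (∀ i, ∀ y ∈ U i, ∀ l, ∃ z ∈ K' ∩ cube (W.c i) (W.ρ i), |y l - z l| < κ) ∧
      ∀ ε : W.ι → ℝ, (∀ i, 0 < ε i) → (∀ i, ε i ≤ 1) →
        ∃ S : V → V, St.IsDiffeo Λ Λ S ∧ (∀ y ∈ Λ, ‖S y - y‖ ≤ κ) ∧
          (∀ y ∈ Λ, ‖fderiv ℝ S y‖ ≤ max C 1) ∧
          (∀ i, ∀ y ∈ U i, fderiv ℝ S y = ε i • ContinuousLinearMap.id ℝ V) ∧
          ∀ y ∈ Λ, (∀ i, y ∈ ocube (W.c i) (W.ρ i) → ∀ l, ∀ z ∈ K' ∩ cube (W.c i) (W.ρ i),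
            κ ≤ |y l - z l|) → ‖fderiv ℝ S y - ContinuousLinearMap.id ℝ V‖ ≤ κ := by
  have h1 := fun i => hC (W.c i) (W.ρ i) (K' ∩ cube (W.c i) (W.ρ i)) κ (W.pos i)
    (isCompact_part hK' W i) (part_subset W i)
    (fun l => measure_mono_null (image_mono inter_subset_left) (hnull l)) hκ
  choose U D hUo hNU hUsub hUκ hDc hDsub hT using h1
  refine ⟨U, hUo, hUsub, ?_, hUκ, ?_⟩
  · intro y hy
    obtain ⟨i, hi⟩ := W.cover y hy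
    exact mem_iUnion.2 ⟨i, hNU i ⟨hy, ocube_subset hi⟩⟩
  intro ε hε hε1
  choose T hTD hTκ hTC hTU hTfar using fun i => hT i (ε i) (hε i) (hε1 i)
  obtain ⟨S, hS, hSi, hSid⟩ := exists_glue hΛ W D hDsub T hTD
  refine ⟨S, hS, ?_, ?_, ?_, ?_⟩
  · intro y hy
    by_cases h : ∃ i, y ∈ ocube (W.c i) (W.ρ i)
    · obtain ⟨i, hi⟩ := h
      rw [(hSi i y hi).eq_of_nhds]
      exact hTκ i y
    · push Not at h
      rw [(hSid y hy h).eq_of_nhds, id, sub_self, norm_zero]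
      exact hκ.le
  · intro y hy
    by_cases h : ∃ i, y ∈ ocube (W.c i) (W.ρ i)
    · obtain ⟨i, hi⟩ := h
      rw [(hSi i y hi).fderiv_eq]
      exact (hTC i y).trans (le_max_left _ _)
    · push Not at h
      rw [(hSid y hy h).fderiv_eq, fderiv_id]
      exact (ContinuousLinearMap.norm_id_le).trans (le_max_right _ _)
  · intro i y hy
    rw [(hSi i y (hUsub i hy)).fderiv_eq]
    exact hTU i y hy
  · intro y hy hfar
    by_cases h : ∃ i, y ∈ ocube (W.c i) (W.ρ i)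
    · obtain ⟨i, hi⟩ := h
      rw [(hSi i y hi).fderiv_eq]
      exact hTfar i y (hfar i hi)
    · push Not at h
      rw [(hSid y hy h).fderiv_eq, fderiv_id, sub_self, norm_zero]
      exact hκ.le

end Vale.Agent.P073.H655
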