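import Vale.Agent.P073.H655.FinT
import Vale.Agent.P073.RT.H655.Size

/-!
# P073, theorem (T) with variable accuracy
-/

namespace Vale.Agent.P073.H655

open MeasureTheory Set Filter Topology Metric Vale.Agent.P073.St Vale.Agent.P073.AB
open Vale.Agent.P073.SQ (ev cube SuppDiffeo)
open Vale.Agent.P073.H880 (Boxes SpecFill SpecFine)
open _root_.P073 (ConHomeo ConicalOn ConicalWithinAt)
open scoped ContDiff ENNReal

variable {p : ℝ} {Ω Λ K : Set V}

/-- cubes of mesh at most `θ` inside a given neighbourhood -/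
def SpecBoxesMesh : Prop :=
  ∀ (Ω K N : Set V) (θ : V → ℝ), IsOpen Ω → Bornology.IsBounded Ω → IsOpen N → K ⊆ N → N ⊆ Ω →
    IsOpen (Ω \ K) → (∀ k : Fin 3, volume ((fun x : V => x k) '' K) = 0) →
    ContinuousOn θ Ω → (∀ y ∈ Ω, 0 < θ y) →
    ∃ W : Boxes Ω K, ∀ i, cube (W.c i) (W.ρ i) ⊆ N ∧ ∀ y ∈ cube (W.c i) (W.ρ i), 2 * W.ρ i ≤ θ y

/-- fine approximation by diffeomorphisms -/
def FA (p : ℝ) (Ω Λ : Set V) (f : V → V) (F : V → Mat) : Prop :=
  ∀ σ : V → ℝ, ContinuousOn σ Ω → (∀ x ∈ Ω, 0 < σ x) → ∀ ε : ℝ, 0 < ε →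
    ∃ P, St.IsDiffeo Ω Λ P ∧ (∀ x ∈ Ω, ‖P x - f x‖ ≤ σ x) ∧ err p Ω f F P ≤ ENNReal.ofReal ε

theorem exists_box_boundT {K' : Set V} (W : Boxes Λ K') {θ : V → ℝ} (hθ : ContinuousOn θ Λ)
    (hθ0 : ∀ y ∈ Λ, 0 < θ y) (i : W.ι) : ∃ c > 0, ∀ y ∈ cube (W.c i) (W.ρ i), c ≤ θ y :=
  RT.H655.exists_box_bound W hθ hθ0 i

theorem exists_sizeT (hΛ : IsOpen Λ) {θ : V → ℝ} (hθ : ContinuousOn θ Λ)
    (hθ0 : ∀ y ∈ Λ, 0 < θ y) :
    ∃ ρ₀ : V → ℝ, _root_.P073.Net.SizeFn Λ ρ₀ ∧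
      ∀ x ∈ Λ, ∀ y, ‖x - y‖ ≤ 4 * ρ₀ x → y ∈ Λ ∧ θ y < 2 * θ x := by
  obtain ⟨ρ₀, h1, h2⟩ := RT.H655.exists_size hΛ (g := id) continuousOn_id hθ hθ0
  exact ⟨ρ₀, h1, fun x hx y hy => ⟨(h2 x hx y hy).1, (h2 x hx y hy).2.2⟩⟩

/-- the squeezing maps of the target: the sets `U i` do not depend on the numbers `ε i` -/
theorem exists_sqzT {C : ℝ} (hC : SqzC C) {Λ K' : Set V} (hΛ : IsOpen Λ)
    (hK' : IsOpen (Λ \ K')) (hnull : ∀ l : Fin 3, volume ((fun y : V => y l) '' K') = 0)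
    (W : Boxes Λ K') {κ : ℝ} (hκ : 0 < κ)
    {θ : V → ℝ} (hθ : ContinuousOn θ Λ) (hθ0 : ∀ y ∈ Λ, 0 < θ y) :
    ∃ U : W.ι → Set V, (∀ i, IsOpen (U i)) ∧ (∀ i, U i ⊆ ocube (W.c i) (W.ρ i)) ∧
      K' ⊆ ⋃ i, U i ∧
      (∀ i, ∀ y ∈ U i, ∀ l, ∃ z ∈ K' ∩ cube (W.c i) (W.ρ i), |y l - z l| < κ) ∧
      ∀ ε : W.ι → ℝ, (∀ i, 0 < ε i) → (∀ i, ε i ≤ 1) →
        ∃ S : V → V, St.IsDiffeo Λ Λ S ∧ (∀ y ∈ Λ, ‖S y - y‖ ≤ κ) ∧
          (∀ y ∈ Λ, ‖fderiv ℝ S y‖ ≤ max C 1) ∧
          (∀ i, ∀ y ∈ U i, fderiv ℝ S y = ε i • ContinuousLinearMap.id ℝ V) ∧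
          (∀ y ∈ Λ, (∀ i, y ∈ ocube (W.c i) (W.ρ i) → ∀ l, ∀ z ∈ K' ∩ cube (W.c i) (W.ρ i),
            κ ≤ |y l - z l|) → ‖fderiv ℝ S y - ContinuousLinearMap.id ℝ V‖ ≤ κ) ∧
          ∀ y ∈ Λ, ‖S y - y‖ ≤ θ y := by
  choose m hm0 hm using exists_box_boundT W hθ hθ0
  have h1 := fun i => hC (W.c i) (W.ρ i) (K' ∩ cube (W.c i) (W.ρ i)) (min κ (m i)) (W.pos i)
    (isCompact_part hK' W i) (part_subset W i)
    (fun l => measure_mono_null (image_mono inter_subset_left) (hnull l)) (lt_min hκ (hm0 i))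
  choose U D hUo hNU hUsub hUκ hDc hDsub hT using h1
  refine ⟨U, hUo, hUsub, ?_, fun i y hy l => by
    obtain ⟨z, hz, hzl⟩ := hUκ i y hy l
    exact ⟨z, hz, hzl.trans_le (min_le_left _ _)⟩, ?_⟩
  · intro y hy
    obtain ⟨i, hi⟩ := W.cover y hy
    exact mem_iUnion.2 ⟨i, hNU i ⟨hy, ocube_subset hi⟩⟩
  intro ε hε hε1
  choose T hTD hTκ hTC hTU hTfar using fun i => hT i (ε i) (hε i) (hε1 i)
  obtain ⟨S, hS, hSi, hSid⟩ := exists_glue hΛ W D hDsub T hTD
  refine ⟨S, hS, ?_, ?_, ?_, ?_, ?_⟩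
  · intro y hy
    by_cases h : ∃ i, y ∈ ocube (W.c i) (W.ρ i)
    · obtain ⟨i, hi⟩ := h
      rw [(hSi i y hi).eq_of_nhds]
      exact (hTκ i y).trans (min_le_left _ _)
    · push Not at h
      rw [(hSid y hy h).eq_of_nhds, id, sub_self, norm_zero]
      exact hκ.le
  · intro y hy
    by_cases h : ∃ i, y ∈ ocube (W.c i) (W.ρ i)
    · obtain ⟨i, hi⟩ := h
      rw [(hSi i y hi).fderiv_eq]
      exact (hTC i y).trans (le_max_left _ _)
    · push Not at h
      rw [(hSid y hy h).fderiv_eq, fderiv_id]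
      exact (ContinuousLinearMap.norm_id_le).trans (le_max_right _ _)
  · intro i y hy
    rw [(hSi i y (hUsub i hy)).fderiv_eq]
    exact hTU i y hy
  · intro y hy hfar
    by_cases h : ∃ i, y ∈ ocube (W.c i) (W.ρ i)
    · obtain ⟨i, hi⟩ := h
      rw [(hSi i y hi).fderiv_eq]
      exact (hTfar i y fun l z hz => (min_le_left _ _).trans (hfar i hi l z hz)).trans
        (min_le_left _ _)
    · push Not at h
      rw [(hSid y hy h).fderiv_eq, fderiv_id, sub_self, norm_zero]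
      exact hκ.le
  · intro y hy
    by_cases h : ∃ i, y ∈ ocube (W.c i) (W.ρ i)
    · obtain ⟨i, hi⟩ := h
      rw [(hSi i y hi).eq_of_nhds]
      exact (hTκ i y).trans ((min_le_right _ _).trans (hm i y (ocube_subset hi)))
    · push Not at h
      rw [(hSid y hy h).eq_of_nhds, id, sub_self, norm_zero]
      exact (hθ0 y hy).le

/-- the geometric part of the construction, with variable accuracy -/
theorem exists_geomθ (hp : 1 ≤ p) (hFill : SpecFill) (hB : SpecBoxesMesh)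
    (hΩ : St.IsBoundedDomain Ω) (hΛ : St.IsBoundedDomain Λ) (hK : K ⊆ Ω) (hKo : IsOpen (Ω \ K))
    {f : V → V} {F : V → Mat} (hO : FineOff Ω Λ K f F)
    (hnull : ∀ l : Fin 3, volume ((fun y : V => y l) '' (f '' K)) = 0)
    {N : Set V} (hN : IsOpen N) (hKN : f '' K ⊆ N) (hNΛ : N ⊆ Λ) {κ : ℝ} (hκ : 0 < κ)
    {τ m : V → ℝ} (hτ : ContinuousOn τ Ω) (hτ0 : ∀ x ∈ Ω, 0 < τ x) (hm : ContinuousOn m Λ)
    (hm0 : ∀ y ∈ Λ, 0 < m y) :
    ∃ (g G : V → V) (H : ConHomeo Ω Λ) (A : Set V), St.IsDiffeo Ω Λ G ∧ f '' K ⊆ A ∧ A ⊆ N ∧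
      (∀ x ∈ Ω, ‖g x - f x‖ ≤ κ) ∧ (∀ x ∈ Ω, ‖H.toFun x - g x‖ ≤ 2 * κ) ∧
      (∀ x ∈ Ω, ‖G x - H.toFun x‖ ≤ κ) ∧
      (∀ x ∈ Ω, g x ∉ A → H.toFun x = g x) ∧
      (∀ x ∈ K, g x = f x) ∧ (∀ x ∈ Ω, g x ∈ A → G x ∈ N) ∧
      (∀ᵐ x ∂(volume : Measure V), x ∈ Ω → g x ∉ A →
        ∀ j, ‖fderiv ℝ H.toFun x (ev j) - cl (F x) (ev j)‖ ≤ κ) ∧
      (∀ j, ∫⁻ x in Ω, ENNReal.ofReal (‖fderiv ℝ G x (ev j) - fderiv ℝ H.toFun x (ev j)‖ ^ p) ≤
        ENNReal.ofReal κ) ∧ (∀ x ∈ Ω, ‖g x - f x‖ ≤ τ x) ∧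
      (∀ x ∈ Ω, ‖H.toFun x - g x‖ ≤ m (g x)) ∧ ∀ x ∈ Ω, ‖G x - H.toFun x‖ ≤ τ x := by
  have hΛb : Bornology.IsBounded Λ := PK.isBounded_of_domain hΛ
  obtain ⟨g, hg, hgK, hgcon, hgf, hgd⟩ := hO.1 (fun x => min κ (τ x))
    (continuousOn_const.inf (hτ.mono sdiff_subset)) (fun x hx => lt_min hκ (hτ0 x hx.1))
  have hgτ : ∀ x ∈ Ω, ‖g x - f x‖ ≤ τ x := by
    intro x hx
    by_cases hxK : x ∈ K
    · rw [hgK x hxK, sub_self, norm_zero]; exact (hτ0 x hx).le
    · exact (hgf x ⟨hx, hxK⟩).trans (min_le_right _ _)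
  have hgKf : g '' K = f '' K := image_congr hgK
  have hgf' : ∀ x ∈ Ω, ‖g x - f x‖ ≤ κ := by
    intro x hx
    by_cases hxK : x ∈ K
    · rw [hgK x hxK, sub_self, norm_zero]; exact hκ.le
    · exact (hgf x ⟨hx, hxK⟩).trans (min_le_left _ _)
  rw [← hgKf] at hnull hKN
  have hKo' : IsOpen (Λ \ g '' K) := isOpen_diff_image hΛ.1 hK hKo hg
  obtain ⟨W, hW⟩ := hB Λ (g '' K) N (fun y => min (2 * κ) (m y)) hΛ.1 hΛb hN hKN hNΛ hKo' hnull
    (continuousOn_const.inf hm) (fun y hy => lt_min (by linarith) (hm0 y hy))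
  have hWN : ∀ i, cube (W.c i) (W.ρ i) ⊆ N := fun i => (hW i).1
  have hWκ : ∀ i, W.ρ i ≤ κ := fun i => by
    have := ((hW i).2 (W.c i) (ocube_subset (center_mem W i))).trans (min_le_left _ _)
    linarith
  obtain ⟨H, hH1, hH2, hH3⟩ := exists_fill' hFill hΩ.1 hΛ.1 hK hKo hg hgcon W
  -- the admissible error of the smoothing
  have hΛc : Λᶜ.Nonempty := by
    rw [nonempty_compl]
    rintro rfl
    exact NormedSpace.unbounded_univ ℝ V hΛb
  have hNc : Nᶜ.Nonempty := hΛc.mono (compl_subset_compl.2 hNΛ)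
  set e : V → ℝ := fun y => infDist y Nᶜ + infDist y (cU W ∪ Λᶜ) with he
  have hec : Continuous e := (continuous_infDist_pt _).add (continuous_infDist_pt _)
  have hepos : ∀ y ∈ Λ, 0 < e y := by
    intro y hy
    by_cases hyN : y ∈ N
    · have h1 : 0 < infDist y Nᶜ :=
        (hN.isClosed_compl.notMem_iff_infDist_pos hNc).1 fun h => h hyN
      have h2 : 0 ≤ infDist y (cU W ∪ Λᶜ) := infDist_nonneg
      show 0 < infDist y Nᶜ + infDist y (cU W ∪ Λᶜ)
      linarith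
    · have h2 : 0 ≤ infDist y Nᶜ := infDist_nonneg
      have h3 : y ∉ cU W := fun h => by
        obtain ⟨i, hi⟩ := mem_iUnion.1 h
        exact hyN (hWN i hi)
      have h1 : y ∉ closure (cU W ∪ Λᶜ) := by
        rw [mem_closure_iff_frequently, not_frequently]
        filter_upwards [eventually_notMem_cU W hy h3, hΛ.1.mem_nhds hy] with z hz hz'
        rintro (h | h)
        · exact hz h
        · exact h hz'
      have h4 : 0 < infDist y (cU W ∪ Λᶜ) :=
        (infDist_pos_iff_notMem_closure (hΛc.mono subset_union_right)).1 h1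
      show 0 < infDist y Nᶜ + infDist y (cU W ∪ Λᶜ)
      linarith
  obtain ⟨G, hG, hGs, hclose, -, -, hint⟩ := _root_.P073.SMF.specSmooth _root_.P073.SM.specSM p Ω Λ H
    (fun x => min (min κ (τ x)) (e (H.toFun x) / 2)) κ hp hΩ hΛ
    ((continuousOn_const.inf hτ).inf ((hec.comp_continuousOn H.cont).div_const 2))
    (fun x hx => lt_min (lt_min hκ (hτ0 x hx)) (half_pos (hepos _ (H.mapsTo hx)))) hκ
    Empty inferInstance (fun i => i.elim) (fun i => i.elim) (fun i => i.elim) (fun i => i.elim)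
    (fun i => i.elim) (fun K _ _ => Set.toFinite _) (fun i => i.elim)
    Empty inferInstance (fun i => i.elim) (fun i => i.elim) (fun i => i.elim) (fun i => i.elim)
    (fun i => i.elim) (fun i => i.elim) (fun K _ _ => Set.toFinite _) (fun i => i.elim)
  have hAN : oU W ⊆ N := by
    intro y hy
    obtain ⟨i, hi⟩ := mem_iUnion.1 hy
    exact hWN i (ocube_subset hi)
  refine ⟨g, G, H, oU W, hG, hgKf ▸ sub_oU W, hAN, hgf', ?_, fun x hx =>
    (hclose x hx).trans ((min_le_left _ _).trans (min_le_left _ _)), hH1, hgK, ?_, ?_, hint, hgτ, ?_,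
    fun x hx => (hclose x hx).trans ((min_le_left _ _).trans (min_le_right _ _))⟩
  · intro x hx
    by_cases h : g x ∈ oU W
    · obtain ⟨i, hi⟩ := mem_iUnion.1 h
      have h1 := hH2 i x hx hi
      rw [pi_norm_le_iff_of_nonneg (by positivity)]
      intro l
      have h2 := h1 l
      have h3 := hi l
      have h4 := hWκ i
      rw [Pi.sub_apply, Real.norm_eq_abs, abs_le]
      rw [abs_lt] at h2 h3
      constructor <;> linarith [h2.1, h2.2, h3.1, h3.2]
    · rw [hH1 x hx h, sub_self, norm_zero]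
      positivity
  · intro x hx h
    obtain ⟨i, hi⟩ := mem_iUnion.1 h
    have h1 := hH2 i x hx hi
    have h2 : infDist (H.toFun x) (cU W ∪ Λᶜ) = 0 :=
      infDist_zero_of_mem (Or.inl (mem_iUnion.2 ⟨i, ocube_subset h1⟩))
    have h3 : H.toFun x ∈ N := hWN i (ocube_subset h1)
    have h4 : 0 < infDist (H.toFun x) Nᶜ :=
      (hN.isClosed_compl.notMem_iff_infDist_pos hNc).1 fun h => h h3
    have h5 := (hclose x hx).trans (min_le_right _ _)
    by_contra h6
    have h7 : infDist (H.toFun x) Nᶜ ≤ dist (H.toFun x) (G x) := infDist_le_dist_of_mem h6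
    rw [dist_comm, dist_eq_norm] at h7
    have h8 : e (H.toFun x) = infDist (H.toFun x) Nᶜ := by
      show infDist (H.toFun x) Nᶜ + infDist (H.toFun x) (cU W ∪ Λᶜ) = _
      rw [h2, add_zero]
    rw [h8] at h5
    linarith
  · filter_upwards [hH3, ae_differentiable hΩ.1 H, hO.2.1] with x hx hxd hxF hxΩ hxA j
    have h1 := hx hxΩ hxA
    have hxK : x ∉ K := fun h => hxA (sub_oU W (mem_image_of_mem g h))
    have h2 : DifferentiableAt ℝ g x := (hxd hxΩ).congr_of_eventuallyEq h1.symm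
    have h3 : DifferentiableAt ℝ f x := (hxF ⟨hxΩ, hxK⟩).1
    rw [h1.fderiv_eq, (hxF ⟨hxΩ, hxK⟩).2 j]
    have h4 : HasFDerivAt (fun y => g y - f y) (fderiv ℝ g x - fderiv ℝ f x) x :=
      h2.hasFDerivAt.sub h3.hasFDerivAt
    have h5 : ‖fderiv ℝ g x - fderiv ℝ f x‖ ≤ κ := by
      refine h4.le_of_lip' hκ.le ?_
      filter_upwards [hgd x ⟨hxΩ, hxK⟩] with y hy
      have : g y - f y - (g x - f x) = (g y - g x) - (f y - f x) := by abel
      rw [this]
      exact hy.trans (mul_le_mul_of_nonneg_right (min_le_left _ _) (norm_nonneg _))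
    have h6 := (fderiv ℝ g x - fderiv ℝ f x).le_opNorm (ev j)
    have h7 : ‖ev j‖ = 1 := by unfold ev; rw [Pi.norm_single]; simp
    rw [h7, mul_one] at h6
    exact h6.trans h5
  · intro x hx
    by_cases h : g x ∈ oU W
    · obtain ⟨i, hi⟩ := mem_iUnion.1 h
      have h1 := hH2 i x hx hi
      have h0 := ((hW i).2 (g x) (ocube_subset hi)).trans (min_le_right _ _)
      have h00 := W.pos i
      rw [pi_norm_le_iff_of_nonneg (by linarith)]
      intro l
      have h2 := h1 l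
      have h3 := hi l
      rw [Pi.sub_apply, Real.norm_eq_abs, abs_le]
      rw [abs_lt] at h2 h3
      constructor <;> linarith [h2.1, h2.2, h3.1, h3.2]
    · rw [hH1 x hx h, sub_self, norm_zero]
      obtain ⟨_, ⟨h5, -⟩, -, -⟩ := hg
      exact (hm0 _ (h5 x hx).1).le

open Classical in
/-- **the approximating diffeomorphism**, with variable accuracy -/
theorem exists_Pσ (hp : 1 ≤ p) (hFill : SpecFill) (hB : SpecBoxesMesh)
    {C : ℝ} (hC : SqzC C)
    (hΩ : St.IsBoundedDomain Ω) (hΛ : St.IsBoundedDomain Λ) (hK : K ⊆ Ω) (hKo : IsOpen (Ω \ K))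
    {f : V → V} {F : V → Mat} (hf : St.IsHomeo Ω Λ f) (hF : St.IsSobolev p Ω f F)
    (hO : FineOff Ω Λ K f F)
    (hnull : ∀ l : Fin 3, volume ((fun y : V => y l) '' (f '' K)) = 0)
    (W : Boxes Λ (f '' K)) {κ : ℝ} (hκ : 0 < κ) {σ₀ : V → ℝ} (hσ : ContinuousOn σ₀ Ω)
    (hσ0 : ∀ x ∈ Ω, 0 < σ₀ x) :
    ∃ P : V → V, St.IsDiffeo Ω Λ P ∧ (∀ x ∈ Ω, ‖P x - f x‖ ≤ 5 * κ) ∧
      (∀ x ∈ Ω, ‖P x - f x‖ ≤ σ₀ x) ∧
      ∀ j, ∫⁻ x in Ω, ENNReal.ofReal (‖fderiv ℝ P x (ev j) - cl (F x) (ev j)‖ ^ p) ≤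
        ENNReal.ofReal (5 ^ (p - 1) * (max C 1 + 1) ^ p) *
        (ENNReal.ofReal κ + (ENNReal.ofReal κ + (ENNReal.ofReal (κ ^ p) * volume Ω +
          ((∫⁻ x in badSet Ω f W (3 * κ), ENNReal.ofReal (‖cl (F x) (ev j)‖ ^ p)) +
            ENNReal.ofReal (κ ^ p) *
              ∫⁻ x in Ω, ENNReal.ofReal (‖cl (F x) (ev j)‖ ^ p))))) := by
  have hp0 : 0 < p := by linarith
  set C' := max C 1 with hC'
  have hC1 : 1 ≤ C' := le_max_right _ _
  have hK' := isOpen_diff_image hΛ.1 hK hKo hf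
  have hfc : ContinuousOn f Ω := by
    obtain ⟨_, -, h, -⟩ := hf
    exact h
  -- the accuracy in the target
  have hk := hf
  obtain ⟨k, ⟨hkg, hkg'⟩, -, hkc⟩ := hk
  set θ : V → ℝ := fun z => σ₀ (k z) / 16 with hθd
  have hθ : ContinuousOn θ Λ := (hσ.comp hkc fun z hz => (hkg' z hz).1).div_const 16
  have hθ0 : ∀ z ∈ Λ, 0 < θ z := fun z hz => by
    have := hσ0 _ (hkg' z hz).1
    simp only [hθd]
    positivity
  obtain ⟨ρ₁, hρ₁, hρ₁2⟩ := exists_sizeT hΛ.1 hθ hθ0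
  have hρc := _root_.P073.Net.NC.cont hρ₁
  obtain ⟨U, hUo, hUsub, hKU, hUκ, hS⟩ := exists_sqzT hC hΛ.1 hK' hnull W hκ hθ hθ0
  have hNo : IsOpen (⋃ i, U i) := isOpen_iUnion hUo
  have hNΛ : (⋃ i, U i) ⊆ Λ :=
    iUnion_subset fun i => (hUsub i).trans (ocube_subset.trans (W.sub i))
  have hfm : MapsTo f Ω Λ := fun x hx => (hkg x hx).1
  obtain ⟨g, G, H, A, hG, hKA, hAN, hgf, hHg, hGH, hHA, hgK, hGA, hae, hint, hgf', hHg', hGH'⟩ :=
    exists_geomθ hp hFill hB hΩ hΛ hK hKo hO hnull hNo hKU hNΛ hκ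
      (τ := fun x => min (ρ₁ (f x)) (σ₀ x / 16)) (m := fun y => min (ρ₁ y / 2) (θ y))
      ((hρc.comp_continuousOn hfc).inf (hσ.div_const 16))
      (fun x hx => lt_min (hρ₁.pos _ (hfm hx)) (by have := hσ0 x hx; positivity))
      ((hρc.div_const 2).continuousOn.inf hθ)
      (fun y hy => lt_min (half_pos (hρ₁.pos y hy)) (hθ0 y hy))
  have hGs := diffeo_smooth hG
  -- compact sets
  set Q : W.ι → Set V := fun i => Ω ∩ G ⁻¹' cube (W.c i) (W.ρ i) with hQ
  have hQc : ∀ i, IsCompact (Q i) := by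
    intro i
    obtain ⟨k, ⟨h1, h2⟩, _, h4⟩ := hG
    have hk : ContinuousOn k Λ := (smooth_of_sm h4).continuousOn
    have : Q i = k '' cube (W.c i) (W.ρ i) := by
      ext x
      constructor
      · rintro ⟨hx, hx'⟩
        exact ⟨G x, hx', (h1 x hx).2⟩
      · rintro ⟨y, hy, rfl⟩
        have hyΛ := W.sub i hy
        refine ⟨(h2 y hyΛ).1, ?_⟩
        show G (k y) ∈ cube (W.c i) (W.ρ i)
        rw [(h2 y hyΛ).2]
        exact hy
    rw [this]
    exact (isCompact_cube (W.pos i)).image_of_continuousOn (hk.mono (W.sub i))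
  have := W.cnt
  obtain ⟨ε, hε, hε1, T1, hT1m, hT1i, hT1⟩ :=
    sum_energy hp hΩ.1 hGs hQc (fun i => inter_subset_left) hκ
  obtain ⟨S, hSd, hSκ, hSC, hSU, hSfar, hSθ⟩ := hS ε hε hε1
  refine ⟨S ∘ G, isDiffeo_comp hG hSd, ?_, ?_, fun j => ?_⟩
  · intro x hx
    have h1 := hSκ (G x) (diffeo_maps hG hx)
    have h2 := hGH x hx
    have h3 := hHg x hx
    have h4 := hgf x hx
    have e : (S ∘ G) x - f x = (S (G x) - G x) + (G x - H.toFun x) + (H.toFun x - g x) +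
        (g x - f x) := by
      simp only [Function.comp]; abel
    rw [e]
    have n1 := norm_add_le ((S (G x) - G x) + (G x - H.toFun x) + (H.toFun x - g x)) (g x - f x)
    have n2 := norm_add_le ((S (G x) - G x) + (G x - H.toFun x)) (H.toFun x - g x)
    have n3 := norm_add_le (S (G x) - G x) (G x - H.toFun x)
    linarith
  · intro x hx
    have hfx := hfm hx
    have c0 : θ (f x) = σ₀ x / 16 := by
      simp only [hθd, (hkg x hx).2]
    have c1 := hgf' x hx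
    have c2 := hHg' x hx
    have c3 := hGH' x hx
    have c4 := hSθ (G x) (diffeo_maps hG hx)
    have c1a := c1.trans (min_le_left _ _)
    have c1b := c1.trans (min_le_right _ _)
    have c2a := c2.trans (min_le_left _ _)
    have c2b := c2.trans (min_le_right _ _)
    have c3a := c3.trans (min_le_left _ _)
    have c3b := c3.trans (min_le_right _ _)
    have hρ0 := hρ₁.pos _ hfx
    have d1 : θ (g x) < 2 * θ (f x) := by
      refine (hρ₁2 (f x) hfx (g x) ?_).2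
      rw [norm_sub_rev]
      linarith
    have d2 : ρ₁ (g x) ≤ ρ₁ (f x) + ‖g x - f x‖ := hρ₁.lip _ _
    have n1 := norm_add_le ((G x - H.toFun x) + (H.toFun x - g x)) (g x - f x)
    have n2 := norm_add_le (G x - H.toFun x) (H.toFun x - g x)
    have e1 : G x - f x = (G x - H.toFun x) + (H.toFun x - g x) + (g x - f x) := by abel
    have d3 : ‖G x - f x‖ ≤ 4 * ρ₁ (f x) := by
      rw [e1]
      linarith
    have d4 : θ (G x) < 2 * θ (f x) := by
      refine (hρ₁2 (f x) hfx (G x) ?_).2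
      rw [norm_sub_rev]
      exact d3
    have e2 : (S ∘ G) x - f x = (S (G x) - G x) + ((G x - H.toFun x) + (H.toFun x - g x) +
        (g x - f x)) := by
      simp only [Function.comp]; abel
    rw [e2]
    have n3 := norm_add_le (S (G x) - G x) ((G x - H.toFun x) + (H.toFun x - g x) + (g x - f x))
    have := hσ0 x hx
    linarith
  set E : Set V := badSet Ω f W (3 * κ) with hE
  have hEo : IsOpen E := isOpen_badSet hΩ.1 hfc W _
  -- the pointwise estimate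
  have hpt : ∀ᵐ x ∂(volume : Measure V), x ∈ Ω →
      ENNReal.ofReal (‖fderiv ℝ (S ∘ G) x (ev j) - cl (F x) (ev j)‖ ^ p) ≤
        ENNReal.ofReal (5 ^ (p - 1) * (C' + 1) ^ p) *
        (T1 j x + (ENNReal.ofReal (‖fderiv ℝ G x (ev j) - fderiv ℝ H.toFun x (ev j)‖ ^ p) +
          (ENNReal.ofReal (κ ^ p) +
          (E.indicator (fun x => ENNReal.ofReal (‖cl (F x) (ev j)‖ ^ p)) x +
            ENNReal.ofReal (κ ^ p) * ENNReal.ofReal (‖cl (F x) (ev j)‖ ^ p))))) := by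
    filter_upwards [hae] with x hx1 hxΩ
    have hy : G x ∈ Λ := diffeo_maps hG hxΩ
    have hS' : HasFDerivAt S (fderiv ℝ S (G x)) (G x) :=
      diffeo_diff hΛ.1 (diffeo_smooth hSd) hy
    have hG' : HasFDerivAt G (fderiv ℝ G x) x := diffeo_diff hΩ.1 hGs hxΩ
    have hch : fderiv ℝ (S ∘ G) x (ev j) = fderiv ℝ S (G x) (fderiv ℝ G x (ev j)) := by
      rw [(hS'.comp x hG').fderiv]
      rfl
    rw [hch]
    set b : V := cl (F x) (ev j) with hb
    set dG : V := fderiv ℝ G x (ev j) with hdG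
    set dH : V := fderiv ℝ H.toFun x (ev j) with hdH
    set w : ℝ := if x ∈ E then ‖b‖ else 0 with hw
    have hw0 : 0 ≤ w := by
      rw [hw]; split_ifs
      · exact norm_nonneg _
      · exact le_rfl
    have hwi : ENNReal.ofReal (w ^ p) =
        E.indicator (fun x => ENNReal.ofReal (‖cl (F x) (ev j)‖ ^ p)) x := by
      by_cases hxE : x ∈ E
      · rw [indicator_of_mem hxE, hw, if_pos hxE]
      · rw [indicator_of_notMem hxE, hw, if_neg hxE, Real.zero_rpow hp0.ne', ENNReal.ofReal_zero]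
    have key : ∃ t : ℝ, 0 ≤ t ∧ ENNReal.ofReal (t ^ p) ≤ T1 j x ∧
        ‖fderiv ℝ S (G x) dG - b‖ ≤ t + C' * ‖dG - dH‖ + C' * κ + (C' + 1) * w + κ * ‖b‖ := by
      by_cases hgA : g x ∈ A
      · -- the squeezed part
        obtain ⟨i, hi⟩ := mem_iUnion.1 (hGA x hxΩ hgA)
        refine ⟨ε i * ‖dG‖, mul_nonneg (hε i).le (norm_nonneg _),
          hT1 j i x ⟨hxΩ, ocube_subset (hUsub i hi)⟩, ?_⟩
        have hxE : x ∈ E := by
          obtain ⟨i', hi'⟩ := mem_iUnion.1 (hAN hgA)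
          obtain ⟨z, hz, hzl⟩ := hUκ i' _ hi' 0
          have h1 : ‖f x - g x‖ ≤ κ := by rw [norm_sub_rev]; exact hgf x hxΩ
          refine ⟨hxΩ, i', ⟨g x, ocube_subset (hUsub i' hi'), by linarith⟩, 0, z, hz, ?_⟩
          have h2 : |f x 0 - g x 0| ≤ ‖f x - g x‖ := norm_le_pi_norm (f x - g x) 0
          have h3 := abs_sub_le (f x 0) (g x 0) (z 0)
          linarith
        have hwb : w = ‖b‖ := by rw [hw, if_pos hxE]
        rw [hSU i _ hi, hwb]
        have h1 : ‖(ε i • ContinuousLinearMap.id ℝ V) dG - b‖ ≤ ε i * ‖dG‖ + ‖b‖ := by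
          refine (norm_sub_le _ _).trans ?_
          have : ‖(ε i • ContinuousLinearMap.id ℝ V) dG‖ = ε i * ‖dG‖ := by
            show ‖ε i • dG‖ = _
            rw [norm_smul, Real.norm_of_nonneg (hε i).le]
          rw [this]
        have h2 : 0 ≤ C' * ‖dG - dH‖ := by positivity
        have h3 : 0 ≤ C' * κ := by positivity
        have h4 : 0 ≤ C' * ‖b‖ := by positivity
        have h5 : 0 ≤ κ * ‖b‖ := by positivity
        linarith
      · -- the unsqueezed part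
        refine ⟨0, le_rfl, ?_, ?_⟩
        · rw [Real.zero_rpow hp0.ne', ENNReal.ofReal_zero]
          exact zero_le
        have hHb : ‖dH - b‖ ≤ κ := hx1 hxΩ hgA j
        set L := fderiv ℝ S (G x) with hL
        have hLC : ‖L‖ ≤ C' := hSC _ hy
        have e : L dG - b = L (dG - dH) + L (dH - b) +
            (L - ContinuousLinearMap.id ℝ V) b := by
          simp only [map_sub, _root_.sub_apply, ContinuousLinearMap.id_apply]
          abel
        have n1 : ‖L (dG - dH)‖ ≤ C' * ‖dG - dH‖ :=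
          (L.le_opNorm _).trans (mul_le_mul_of_nonneg_right hLC (norm_nonneg _))
        have n2 : ‖L (dH - b)‖ ≤ C' * κ :=
          (L.le_opNorm _).trans (mul_le_mul hLC hHb (norm_nonneg _) (by positivity))
        have n3 : ‖(L - ContinuousLinearMap.id ℝ V) b‖ ≤ (C' + 1) * w + κ * ‖b‖ := by
          have h0 := (L - ContinuousLinearMap.id ℝ V).le_opNorm b
          by_cases hxE : x ∈ E
          · have hwb : w = ‖b‖ := by rw [hw, if_pos hxE]
            have h1 : ‖L - ContinuousLinearMap.id ℝ V‖ ≤ C' + 1 :=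
              (norm_sub_le _ _).trans (add_le_add hLC ContinuousLinearMap.norm_id_le)
            have h2 := mul_le_mul_of_nonneg_right h1 (norm_nonneg b)
            have h3 : 0 ≤ κ * ‖b‖ := by positivity
            rw [hwb]
            linarith
          · have hwb : w = 0 := by rw [hw, if_neg hxE]
            have h1 : ‖L - ContinuousLinearMap.id ℝ V‖ ≤ κ := by
              refine hSfar _ hy fun i hi l z hz => ?_
              by_contra hlt
              rw [not_le] at hlt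
              apply hxE
              have h2 : ‖f x - g x‖ ≤ κ := by rw [norm_sub_rev]; exact hgf x hxΩ
              have h3 : ‖g x - G x‖ ≤ κ := by
                rw [← hHA x hxΩ hgA, norm_sub_rev]; exact hGH x hxΩ
              have h4 : ‖f x - G x‖ ≤ 2 * κ := by
                have := norm_sub_le_norm_sub_add_norm_sub (f x) (g x) (G x)
                linarith
              refine ⟨hxΩ, i, ⟨G x, ocube_subset hi, by linarith⟩, l, z, hz, ?_⟩
              have h5 : |f x l - G x l| ≤ ‖f x - G x‖ := norm_le_pi_norm (f x - G x) l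
              have h6 := abs_sub_le (f x l) (G x l) (z l)
              linarith
            have h2 := mul_le_mul_of_nonneg_right h1 (norm_nonneg b)
            rw [hwb, mul_zero, zero_add]
            exact h0.trans h2
        rw [e, zero_add]
        have n4 := norm_add_le (L (dG - dH) + L (dH - b)) ((L - ContinuousLinearMap.id ℝ V) b)
        have n5 := norm_add_le (L (dG - dH)) (L (dH - b))
        linarith
    obtain ⟨t, ht0, htT, hmain⟩ := key
    refine (ennreal_est hp (by linarith : (0:ℝ) ≤ C') hκ.le (norm_nonneg _) ht0 (norm_nonneg _)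
      hw0 (norm_nonneg b) hmain).trans ?_
    rw [hwi]
    gcongr
  -- integration
  refine (lintegral_mono_ae ((ae_restrict_iff' hΩ.1.measurableSet).2 hpt)).trans ?_
  rw [lintegral_const_mul' _ _ ENNReal.ofReal_ne_top]
  refine mul_le_mul_right ?_ _
  have hm2 : Measurable fun x =>
      ENNReal.ofReal (‖fderiv ℝ G x (ev j) - fderiv ℝ H.toFun x (ev j)‖ ^ p) :=
    (((measurable_fderiv_apply_const ℝ G (ev j)).sub
      (measurable_fderiv_apply_const ℝ H.toFun (ev j))).norm.pow_const p).ennreal_ofReal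
  rw [lintegral_add_left (hT1m j), lintegral_add_left hm2, lintegral_add_left measurable_const,
    lintegral_add_right' _ ((aemeasurable_col hF j).const_mul _),
    lintegral_const_mul' _ _ ENNReal.ofReal_ne_top, setLIntegral_const]
  refine add_le_add (hT1i j) (add_le_add (hint j) (add_le_add le_rfl (add_le_add ?_ le_rfl)))
  refine (setLIntegral_le_lintegral _ _).trans ?_
  rw [lintegral_indicator hEo.measurableSet]


/-- **the fine form of theorem (T)**, over the rows -/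
theorem fine_T_of (hV : SpecVan) (hS : SpecSqz) (hFill : SpecFill)
    (hB : SpecBoxesMesh) (hp : 1 ≤ p)
    (hΩ : St.IsBoundedDomain Ω) (hΛ : St.IsBoundedDomain Λ) (hK : K ⊆ Ω) (hKo : IsOpen (Ω \ K))
    {f : V → V} {F : V → Mat} (hf : St.IsHomeo Ω Λ f) (hF : St.IsSobolev p Ω f F)
    (hO : FineOff Ω Λ K f F)
    (hnull : ∀ l : Fin 3, volume ((fun y : V => y l) '' (f '' K)) = 0) :
    FA p Ω Λ f F := by
  intro σ₀ hσ hσ0 ε hε
  have hp0 : 0 < p := by linarith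
  obtain ⟨C, -, hC⟩ := hS
  have hfc : ContinuousOn f Ω := by
    obtain ⟨_, -, h, -⟩ := hf
    exact h
  have hv := PK.volume_ne_top_of_domain hΩ
  have hK' := isOpen_diff_image hΛ.1 hK hKo hf
  have hK'Λ := image_subset hK hf
  obtain ⟨W, -⟩ := hB Λ (f '' K) Λ (fun _ => 1) hΛ.1 (PK.isBounded_of_domain hΛ) hΛ.1 hK'Λ
    Subset.rfl hK' hnull continuousOn_const (fun _ _ => one_pos)
  set κ : ℕ → ℝ := fun n => 1 / ((n : ℝ) + 1) with hκ
  have hκpos : ∀ n, 0 < κ n := fun n => by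
    show 0 < 1 / ((n : ℝ) + 1)
    positivity
  have hκ0 : Tendsto κ atTop (𝓝 0) := tendsto_one_div_add_atTop_nhds_zero_nat
  have hκa : Antitone κ := fun m n hmn => by
    show 1 / ((n : ℝ) + 1) ≤ 1 / ((m : ℝ) + 1)
    gcongr
  have h3κ0 : Tendsto (fun n => 3 * κ n) atTop (𝓝 0) := by
    simpa using hκ0.const_mul 3
  have h3κa : Antitone fun n => 3 * κ n := fun m n hmn => by
    show 3 * κ n ≤ 3 * κ m
    linarith [hκa hmn]
  have t1 : Tendsto (fun n => ENNReal.ofReal (κ n)) atTop (𝓝 0) := by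
    simpa using ENNReal.tendsto_ofReal hκ0
  have t2 : Tendsto (fun n => ENNReal.ofReal (κ n ^ p)) atTop (𝓝 0) := by
    have h2 : Tendsto (fun n => κ n ^ p) atTop (𝓝 (0 ^ p)) := hκ0.rpow_const (Or.inr hp0.le)
    rw [Real.zero_rpow hp0.ne'] at h2
    simpa using ENNReal.tendsto_ofReal h2
  have t3 : Tendsto (fun n => ENNReal.ofReal ((5 * κ n) ^ p)) atTop (𝓝 0) := by
    have h1 : Tendsto (fun n => 5 * κ n) atTop (𝓝 0) := by simpa using hκ0.const_mul 5
    have h2 : Tendsto (fun n => (5 * κ n) ^ p) atTop (𝓝 (0 ^ p)) := h1.rpow_const (Or.inr hp0.le)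
    rw [Real.zero_rpow hp0.ne'] at h2
    simpa using ENNReal.tendsto_ofReal h2
  set M : ℝ≥0∞ := ENNReal.ofReal (5 ^ (p - 1) * (max C 1 + 1) ^ p) with hM
  set B : Fin 3 → ℕ → ℝ≥0∞ := fun j n => M *
        (ENNReal.ofReal (κ n) + (ENNReal.ofReal (κ n) + (ENNReal.ofReal (κ n ^ p) * volume Ω +
          ((∫⁻ x in badSet Ω f W (3 * κ n), ENNReal.ofReal (‖cl (F x) (ev j)‖ ^ p)) +
            ENNReal.ofReal (κ n ^ p) *
              ∫⁻ x in Ω, ENNReal.ofReal (‖cl (F x) (ev j)‖ ^ p))))) with hBd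
  have tB : ∀ j, Tendsto (B j) atTop (𝓝 0) := by
    intro j
    have e1 : Tendsto (fun n => ENNReal.ofReal (κ n ^ p) * volume Ω) atTop (𝓝 0) := by
      have := ENNReal.Tendsto.mul_const (b := volume Ω) t2 (Or.inr hv)
      rwa [zero_mul] at this
    have e2 : Tendsto (fun n => ENNReal.ofReal (κ n ^ p) *
        ∫⁻ x in Ω, ENNReal.ofReal (‖cl (F x) (ev j)‖ ^ p)) atTop (𝓝 0) := by
      have := ENNReal.Tendsto.mul_const (b := ∫⁻ x in Ω, ENNReal.ofReal (‖cl (F x) (ev j)‖ ^ p))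
        t2 (Or.inr (col_ne_top hp hF j))
      rwa [zero_mul] at this
    have e3 := tendsto_bad hV hp hΩ hΛ hK hKo hf hF hO hnull W j h3κa h3κ0
    have e4 := t1.add (t1.add (e1.add (e3.add e2)))
    simp only [add_zero] at e4
    have e5 := ENNReal.Tendsto.const_mul (a := M) e4 (Or.inr ENNReal.ofReal_ne_top)
    rwa [mul_zero] at e5
  have tT : Tendsto (fun n => ENNReal.ofReal ((5 * κ n) ^ p) * volume Ω + ∑ j, B j n) atTop
      (𝓝 0) := by
    have e1 : Tendsto (fun n => ENNReal.ofReal ((5 * κ n) ^ p) * volume Ω) atTop (𝓝 0) := by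
      have := ENNReal.Tendsto.mul_const (b := volume Ω) t3 (Or.inr hv)
      rwa [zero_mul] at this
    have e2 : Tendsto (fun n => ∑ j, B j n) atTop (𝓝 (∑ _j : Fin 3, 0)) :=
      tendsto_finsetSum _ fun j _ => tB j
    have e3 := e1.add e2
    simpa using e3
  obtain ⟨n, hn⟩ := (tT.eventually (gt_mem_nhds (ENNReal.ofReal_pos.2 hε))).exists
  obtain ⟨P, hP, hPf, hPσ, hPD⟩ := exists_Pσ hp hFill hB hC hΩ hΛ hK hKo hf hF hO hnull W
    (hκpos n) hσ hσ0
  refine ⟨P, hP, hPσ, le_trans ?_ hn.le⟩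
  refine add_le_add ?_ (Finset.sum_le_sum fun j _ => hPD j)
  rw [← setLIntegral_const]
  refine setLIntegral_mono' hΩ.1.measurableSet fun x hx => ?_
  exact ENNReal.ofReal_le_ofReal (Real.rpow_le_rpow (norm_nonneg _) (hPf x hx) hp0.le)

end Vale.Agent.P073.H655
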