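import Vale.Agent.P073.H655.FinelyDefs
import Vale.Agent.P073.H655.Tame5

/-!
# P073: fine approximation by diffeomorphisms
-/

namespace Vale.Agent.P073.H655.V6

open MeasureTheory Set Filter Topology Metric Vale.Agent.P073.St Vale.Agent.P073.AB
open Vale.Agent.P073.SQ (ev)
open scoped ContDiff ENNReal

variable {p : ℝ} {Ω Λ : Set V}

theorem finely_of_FA (hp : 1 ≤ p) (hΩ : St.IsBoundedDomain Ω) (hΛ : St.IsBoundedDomain Λ)
    {f : V → V} {F : V → Mat} (hf : St.IsHomeo Ω Λ f) (hF : St.IsSobolev p Ω f F)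
    (h : FA p Ω Λ f F) : FinelyApproximable p Ω Λ f F := by
  intro σ hσ hσ0 ε hε
  have hp0 : 0 ≤ p := by linarith
  have hfc : ContinuousOn f Ω := hf.choose_spec.2.1
  have h6 : (0 : ℝ) < 6 ^ p := by positivity
  obtain ⟨g, hg, hgσ, hge⟩ := h (fun x => σ x / 2) (hσ.div_const 2)
    (fun x hx => half_pos (hσ0 x hx)) (ε / 6 ^ p) (div_pos hε h6)
  have hgs : ContDiffOn ℝ ∞ g Ω := diffeo_smooth hg
  have het : err p Ω f F g ≠ ⊤ := ne_top_of_le_ne_top ENNReal.ofReal_ne_top hge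
  obtain ⟨D, _, hD⟩ := norm_bound_of_domain hΛ
  refine ⟨g, hg, ?_, fun x hx => ?_, ?_⟩
  · refine isSobolev_of_smooth hp hΩ.1 (PK.volume_ne_top_of_domain hΩ) hgs
      (fun x hx => hD _ (diffeo_maps hg hx)) fun j => ?_
    have h1 : ∫⁻ x in Ω, ENNReal.ofReal (‖fderiv ℝ g x (ev j) - cl (F x) (ev j)‖ ^ p) ≠ ⊤ := by
      refine ne_top_of_le_ne_top het ?_
      unfold err
      refine le_trans ?_ le_add_self
      exact Finset.single_le_sum (f := fun j => ∫⁻ x in Ω,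
        ENNReal.ofReal (‖fderiv ℝ g x (ev j) - cl (F x) (ev j)‖ ^ p))
        (fun _ _ => zero_le) (Finset.mem_univ j)
    have h2 : ∫⁻ x in Ω, ENNReal.ofReal (‖cl (F x) (ev j)‖ ^ p) ≠ ⊤ := col_ne_top hp hF j
    have h3 : ∫⁻ x in Ω, ENNReal.ofReal (‖fderiv ℝ g x (ev j)‖ ^ p) ≤
        2 ^ (p - 1) * ((∫⁻ x in Ω,
          ENNReal.ofReal (‖fderiv ℝ g x (ev j) - cl (F x) (ev j)‖ ^ p)) +
          ∫⁻ x in Ω, ENNReal.ofReal (‖cl (F x) (ev j)‖ ^ p)) := by
      rw [← lintegral_add_right' _ (aemeasurable_col hF j),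
        ← lintegral_const_mul' _ _ H880.two_rpow_ne_top]
      refine lintegral_mono fun x => ?_
      have := H880.add_rpow_le hp (fderiv ℝ g x (ev j) - cl (F x) (ev j)) (cl (F x) (ev j))
      rwa [sub_add_cancel] at this
    exact ne_top_of_le_ne_top (ENNReal.mul_ne_top H880.two_rpow_ne_top
      (ENNReal.add_ne_top.2 ⟨h1, h2⟩)) h3
  · have h1 := euc_le_norm (g x - f x)
    have h2 := hgσ x hx
    linarith
  · refine (H880.int_le_err hp hΩ.1 hfc hF hgs het).2.trans ?_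
    have h1 := ENNReal.toReal_mono ENNReal.ofReal_ne_top hge
    rw [ENNReal.toReal_ofReal (div_pos hε h6).le] at h1
    calc 6 ^ p * (err p Ω f F g).toReal ≤ 6 ^ p * (ε / 6 ^ p) := by gcongr
      _ = ε := by field_simp

/-- **towers are finely approximable** -/
theorem tower_finely' (hp : 1 ≤ p) (hΩ : St.IsBoundedDomain Ω) (hΛ : St.IsBoundedDomain Λ)
    {f : V → V} {F : V → Mat} (hf : St.IsHomeo Ω Λ f) (hF : St.IsSobolev p Ω f F)
    (h : H694.Tower p Ω Λ f) : FinelyApproximable p Ω Λ f F :=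
  finely_of_FA hp hΩ hΛ hf hF (H694.fa_of_tower V5.fineT hp h F hΩ hΛ hf hF)

end Vale.Agent.P073.H655.V6
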