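import Vale.Agent.P073.St

/-!
# P073: fine approximation by diffeomorphisms
-/

namespace Vale.Agent.P073.H655.V6

open MeasureTheory Set Filter Topology Vale.Agent.P073.St

/-- `f : Ω → Λ`, with weak derivative matrix `F`, is finely diffeomorphically approximable in
`W^{1,p}`: for every positive continuous function `σ` on `Ω` (which may tend to zero at the
boundary) and every `ε > 0` there is a `C^∞` diffeomorphism `g` of `Ω` onto the same `Λ`, in
`W^{1,p}(Ω; ℝ³)`, with `|g - f| ≤ σ` on `Ω` and `∫_Ω |g - f|^p + |D g - D f|^p ≤ ε`. -/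
def FinelyApproximable (p : ℝ) (Ω Λ : Set V) (f : V → V) (F : V → Mat) : Prop :=
  ∀ σ : V → ℝ, ContinuousOn σ Ω → (∀ x ∈ Ω, 0 < σ x) → ∀ ε : ℝ, 0 < ε →
    ∃ g : V → V, IsDiffeo Ω Λ g ∧ IsSobolev p Ω g (jac g) ∧
      (∀ x ∈ Ω, euc (g x - f x) ≤ σ x) ∧
      int Ω (fun x => euc (g x - f x) ^ p + frob (jac g x - F x) ^ p) ≤ ε

end Vale.Agent.P073.H655.V6
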