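import Vale.Agent.P073.H655.Weak1

/-!
# P073: integration by parts, and identification of the weak derivative by approximation
-/

namespace Vale.Agent.P073.H655

open MeasureTheory Set Filter Topology Metric Vale.Agent.P073.St Vale.Agent.P073.AB
open Vale.Agent.P073.SQ (ev)
open Vale.Agent.P073.H880 (integrable_mul_of_support)
open scoped ContDiff ENNReal

variable {p : ℝ} {Ω Λ : Set V}

/-- data of a test function -/
structure Tst (U : Set V) (φ : V → ℝ) : Prop where
  smooth : ContDiff ℝ ∞ φ
  comp : HasCompactSupport φ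
  supp : tsupport φ ⊆ U

namespace Tst

variable {U : Set V} {φ : V → ℝ}

theorem isTest (h : Tst U φ) : IsTest U φ := ⟨h.smooth.contDiffOn, h.comp, h.supp⟩

theorem of_isTest (h : IsTest U φ) : Tst U φ :=
  ⟨contDiffOn_univ.1 h.1, h.2.1, h.2.2⟩

theorem mono (h : Tst U φ) {U' : Set V} (hU : U ⊆ U') : Tst U' φ := ⟨h.smooth, h.comp, h.supp.trans hU⟩

theorem zero (h : Tst U φ) {x : V} (hx : x ∉ U) : φ x = 0 :=
  image_eq_zero_of_notMem_tsupport fun h' => hx (h.supp h')

theorem dcont (h : Tst U φ) (j : Fin 3) : Continuous fun x => fderiv ℝ φ x (ev j) :=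
  (h.smooth.continuous_fderiv (by simp)).clm_apply continuous_const

theorem dcomp (h : Tst U φ) (j : Fin 3) : HasCompactSupport fun x => fderiv ℝ φ x (ev j) :=
  h.comp.fderiv_apply ℝ _

theorem dsupp (h : Tst U φ) (j : Fin 3) : tsupport (fun x => fderiv ℝ φ x (ev j)) ⊆ tsupport φ := by
  refine (closure_mono ?_).trans (tsupport_fderiv_subset ℝ)
  intro y hy h0
  apply hy
  show fderiv ℝ φ y (ev j) = 0
  rw [h0]; rfl

theorem dzero (h : Tst U φ) (j : Fin 3) {x : V} (hx : x ∉ U) : fderiv ℝ φ x (ev j) = 0 :=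
  image_eq_zero_of_notMem_tsupport (f := fun x => fderiv ℝ φ x (ev j))
    fun h' => hx (h.supp (h.dsupp j h'))

end Tst

/-- integration by parts -/
theorem ibp {U : Set V} (hU : IsOpen U) {g : V → V} (hg : ContDiffOn ℝ 1 g U) {φ : V → ℝ}
    (hφ : Tst U φ) (i j : Fin 3) :
    Integrable (fun x => φ x * fderiv ℝ g x (ev j) i) ∧
    ∫ x, φ x * fderiv ℝ g x (ev j) i = -∫ x, fderiv ℝ φ x (ev j) * g x i := by
  set u : V → ℝ := fun x => g x i with hu
  set w : V → ℝ := fun x => fderiv ℝ u x (ev j) with hw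
  have hus : ContDiffOn ℝ 1 u U := contDiffOn_pi.1 hg i
  have hud : ∀ x ∈ U, DifferentiableAt ℝ u x := fun x hx =>
    (hus.contDiffAt (hU.mem_nhds hx)).differentiableAt (by simp)
  have hwc : ContinuousOn w U :=
    (hus.continuousOn_fderiv_of_isOpen hU (by simp)).clm_apply continuousOn_const
  have hw' : ∀ x ∈ U, fderiv ℝ g x (ev j) i = w x := by
    intro x hx
    have h6 := (hasFDerivAt_pi'.1 (((hg.contDiffAt (hU.mem_nhds hx)).differentiableAt
      (by simp)).hasFDerivAt)) i
    have h7 : fderiv ℝ u x = (ContinuousLinearMap.proj i).comp (fderiv ℝ g x) := h6.fderiv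
    rw [hw]
    simp only [h7]
    rfl
  have e : (fun x => φ x * fderiv ℝ g x (ev j) i) = fun x => φ x * w x := by
    funext x
    by_cases hx : x ∈ U
    · rw [hw' x hx]
    · rw [hφ.zero hx, zero_mul, zero_mul]
  have hφd : Differentiable ℝ φ := hφ.smooth.differentiable (by simp)
  have hi1 := integrable_mul_of_support (hφ.dcont j) (hφ.dcomp j) ((hφ.dsupp j).trans hφ.supp)
    hus.continuousOn
  have hi2 := integrable_mul_of_support hφ.smooth.continuous hφ.comp hφ.supp hwc
  have hi3 := integrable_mul_of_support hφ.smooth.continuous hφ.comp hφ.supp hus.continuousOn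
  refine ⟨by rw [e]; exact hi2, ?_⟩
  have := integral_mul_fderiv_eq_neg_fderiv_mul_of_integrable hi1 hi2 hi3
    (fun x _ => hφd x) (fun x hx => hud x (hφ.supp hx))
  rw [show (∫ x, φ x * fderiv ℝ g x (ev j) i) = ∫ x, φ x * w x from by rw [e]]
  exact this

/-- the weak form on the whole space -/
theorem weak_full {f : V → V} {F : V → Mat} (hF : IsSobolev p Ω f F) {φ : V → ℝ}
    (hφ : Tst Ω φ) (i j : Fin 3) :
    ∫ x, φ x * F x i j = -∫ x, fderiv ℝ φ x (ev j) * f x i := by
  have hpd : ∀ x, pd φ x j = fderiv ℝ φ x (ev j) := fun x => PK.pd_eq_fderiv hφ.smooth x j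
  have hweak := hF.2.2 φ hφ.isTest i j
  have e1 : int Ω (fun x => φ x * F x i j) = ∫ x, φ x * F x i j := by
    unfold int
    rw [setIntegral_eq_integral_of_forall_compl_eq_zero]
    intro x hx
    rw [hφ.zero hx, zero_mul]
  have e2 : int Ω (fun x => pd φ x j * f x i) = ∫ x, fderiv ℝ φ x (ev j) * f x i := by
    unfold int
    rw [setIntegral_eq_integral_of_forall_compl_eq_zero]
    · refine integral_congr_ae (Eventually.of_forall fun x => ?_)
      show pd φ x j * f x i = fderiv ℝ φ x (ev j) * f x i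
      rw [hpd]
    · intro x hx
      rw [hpd, hφ.dzero j hx, zero_mul]
  rw [e1, e2] at hweak
  exact hweak

/-- a function in `L¹(Ω)` times a test function -/
theorem integrable_test_mul {w : V → ℝ} (hw : IntegrableOn w Ω) {φ : V → ℝ} (hφc : Continuous φ)
    (hφ2 : HasCompactSupport φ) (hφΩ : tsupport φ ⊆ Ω) : Integrable fun x => φ x * w x := by
  obtain ⟨C, hC⟩ := hφ2.exists_bound_of_continuous hφc
  have h5 : IntegrableOn (fun x => φ x * w x) Ω :=
    hw.bdd_mul hφc.aestronglyMeasurable (ae_of_all _ hC)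
  refine (integrableOn_iff_integrable_of_support_subset ?_).1 h5
  intro y hy
  by_contra h
  apply hy
  show φ y * w y = 0
  rw [image_eq_zero_of_notMem_tsupport (fun h' => h (hφΩ h')), zero_mul]

/-- identification of the weak derivative by approximation -/
theorem D_eq (hp : 1 ≤ p) (hv : volume Ω ≠ ⊤) {f : V → V} {F : V → Mat}
    (hF : IsSobolev p Ω f F) {U : Set V} (hU : IsOpen U) (hUΩ : U ⊆ Ω) (hf : ContinuousOn f U)
    {D : V → V →L[ℝ] V} (hDm : Measurable D) {C : V → ℝ} (hC : ContinuousOn C U)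
    (hDC : ∀ x ∈ U, ‖D x‖ ≤ C x)
    (happ : ∀ n : ℕ, ∃ g : V → V, ContDiffOn ℝ 1 g U ∧ (∀ x ∈ U, ‖g x - f x‖ * n ≤ 1) ∧
      ∫⁻ x in U, ENNReal.ofReal (n * ‖fderiv ℝ g x - D x‖) ≤ 1) :
    ∀ᵐ x ∂(volume : Measure V), x ∈ U → ∀ j, cl (F x) (ev j) = D x (ev j) := by
  have hev : ∀ j, ‖ev j‖ = 1 := fun j => by unfold ev; rw [Pi.norm_single]; simp
  have hDmij : ∀ i j, Measurable fun x => D x (ev j) i := fun i j => by
    have h1 : Measurable fun x => D x (ev j) := hDm.apply_continuousLinearMap _
    exact (measurable_pi_apply i).comp h1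
  have hDloc : ∀ i j, LocallyIntegrableOn (fun x => D x (ev j) i) U := by
    intro i j
    rw [locallyIntegrableOn_iff hU.isLocallyClosed]
    intro k hk hkc
    obtain ⟨B, hB⟩ := hkc.exists_bound_of_continuousOn (hC.mono hk)
    refine Measure.integrableOn_of_bounded hkc.measure_lt_top.ne
      (hDmij i j).aestronglyMeasurable (M := B) ?_
    filter_upwards [ae_restrict_mem hkc.measurableSet] with x hx
    calc ‖D x (ev j) i‖ ≤ ‖D x (ev j)‖ := norm_le_pi_norm _ i
      _ ≤ ‖D x‖ * ‖ev j‖ := (D x).le_opNorm _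
      _ = ‖D x‖ := by rw [hev, mul_one]
      _ ≤ C x := hDC x (hk hx)
      _ ≤ ‖C x‖ := le_abs_self _
      _ ≤ B := hB x hx
  have hFi : ∀ i j, IntegrableOn (fun x => F x i j) Ω := fun i j =>
    PK.InLp.integrableOn hp hv (hF.2.1 i j)
  have hmain : ∀ i j, ∀ᵐ x ∂(volume : Measure V), x ∈ U → F x i j - D x (ev j) i = 0 := by
    intro i j
    refine hU.ae_eq_zero_of_integral_contDiff_smul_eq_zero
      ((((hFi i j).mono_set hUΩ).locallyIntegrableOn).sub (hDloc i j)) ?_
    intro φ hφs hφ2 hφ3
    have hφ : Tst U φ := ⟨hφs, hφ2, hφ3⟩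
    have hφΩ := hφ.mono hUΩ
    -- bounds of the test function
    obtain ⟨B1, hB1⟩ := hφ2.exists_bound_of_continuous hφs.continuous
    have hB10 : 0 ≤ B1 := (norm_nonneg _).trans (hB1 0)
    set B2 : ℝ := ∫ x, |fderiv ℝ φ x (ev j)| with hB2
    have hI1 : Integrable fun x => fderiv ℝ φ x (ev j) :=
      (hφ.dcont j).integrable_of_hasCompactSupport (hφ.dcomp j)
    have iF : Integrable fun x => φ x * F x i j :=
      integrable_test_mul (hFi i j) hφs.continuous hφ2 hφΩ.supp
    have iD : Integrable fun x => φ x * D x (ev j) i := by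
      have h5 : IntegrableOn (fun x => D x (ev j) i) (tsupport φ) :=
        (hDloc i j).integrableOn_compact_subset hφ3 hφ2
      exact integrable_test_mul h5 hφs.continuous hφ2 Subset.rfl
    have if' : Integrable fun x => fderiv ℝ φ x (ev j) * f x i :=
      integrable_mul_of_support (hφ.dcont j) (hφ.dcomp j) ((hφ.dsupp j).trans hφ.supp)
        ((continuous_apply i).comp_continuousOn hf)
    have key : ∀ n : ℕ, 0 < n → |∫ x, φ x • (F x i j - D x (ev j) i)| ≤ (B1 + B2) * (1 / n) := by
      intro n hn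
      have hn' : (0 : ℝ) < n := by exact_mod_cast hn
      obtain ⟨g, hg, hgf, hgD⟩ := happ n
      obtain ⟨ig, hibp⟩ := ibp hU hg hφ i j
      have ig' : Integrable fun x => fderiv ℝ φ x (ev j) * g x i :=
        integrable_mul_of_support (hφ.dcont j) (hφ.dcomp j) ((hφ.dsupp j).trans hφ.supp)
          ((continuous_apply i).comp_continuousOn hg.continuousOn)
      have e1 : ∫ x, φ x • (F x i j - D x (ev j) i) =
          (∫ x, fderiv ℝ φ x (ev j) * (g x i - f x i)) +
            ∫ x, φ x * (fderiv ℝ g x (ev j) i - D x (ev j) i) := by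
        have e2 : ∫ x, φ x • (F x i j - D x (ev j) i) =
            (∫ x, φ x * F x i j) - ∫ x, φ x * D x (ev j) i := by
          rw [← integral_sub iF iD]
          exact integral_congr_ae (Eventually.of_forall fun x => by
            show φ x * (F x i j - D x (ev j) i) = _
            ring)
        have e3 : ∫ x, fderiv ℝ φ x (ev j) * (g x i - f x i) =
            (∫ x, fderiv ℝ φ x (ev j) * g x i) - ∫ x, fderiv ℝ φ x (ev j) * f x i := by
          rw [← integral_sub ig' if']
          exact integral_congr_ae (Eventually.of_forall fun x => by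
            show fderiv ℝ φ x (ev j) * (g x i - f x i) = _
            ring)
        have e4 : ∫ x, φ x * (fderiv ℝ g x (ev j) i - D x (ev j) i) =
            (∫ x, φ x * fderiv ℝ g x (ev j) i) - ∫ x, φ x * D x (ev j) i := by
          rw [← integral_sub ig iD]
          exact integral_congr_ae (Eventually.of_forall fun x => by
            show φ x * (fderiv ℝ g x (ev j) i - D x (ev j) i) = _
            ring)
        rw [e2, e3, e4, hibp, weak_full hF hφΩ i j]
        ring
      have b1 : |∫ x, fderiv ℝ φ x (ev j) * (g x i - f x i)| ≤ B2 * (1 / n) := by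
        rw [← Real.norm_eq_abs]
        refine (norm_integral_le_integral_norm _).trans ?_
        rw [hB2, ← integral_mul_const]
        refine integral_mono_of_nonneg (Eventually.of_forall fun x => norm_nonneg _)
          (hI1.abs.mul_const _) (Eventually.of_forall fun x => ?_)
        show ‖fderiv ℝ φ x (ev j) * (g x i - f x i)‖ ≤ |fderiv ℝ φ x (ev j)| * (1 / n)
        rw [norm_mul, Real.norm_eq_abs]
        by_cases hx : x ∈ U
        · apply mul_le_mul_of_nonneg_left _ (abs_nonneg _)
          have h1 : ‖g x i - f x i‖ ≤ ‖g x - f x‖ := norm_le_pi_norm (g x - f x) i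
          rw [le_div_iff₀ hn']
          exact (mul_le_mul_of_nonneg_right h1 hn'.le).trans (hgf x hx)
        · rw [hφ.dzero j hx, abs_zero, zero_mul, zero_mul]
      have b2 : |∫ x, φ x * (fderiv ℝ g x (ev j) i - D x (ev j) i)| ≤ B1 * (1 / n) := by
        rw [← Real.norm_eq_abs]
        refine (norm_integral_le_lintegral_norm _).trans ?_
        have h1 : ∫⁻ x, ENNReal.ofReal ‖φ x * (fderiv ℝ g x (ev j) i - D x (ev j) i)‖ ≤
            ENNReal.ofReal (B1 * (1 / n)) := by
          have h2 : ∀ x, ENNReal.ofReal ‖φ x * (fderiv ℝ g x (ev j) i - D x (ev j) i)‖ ≤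
              U.indicator (fun x => ENNReal.ofReal (B1 * (1 / n)) *
                ENNReal.ofReal (n * ‖fderiv ℝ g x - D x‖)) x := by
            intro x
            by_cases hx : x ∈ U
            · rw [indicator_of_mem hx, ← ENNReal.ofReal_mul (by positivity)]
              apply ENNReal.ofReal_le_ofReal
              rw [norm_mul]
              have h3 : ‖fderiv ℝ g x (ev j) i - D x (ev j) i‖ ≤ ‖fderiv ℝ g x - D x‖ := by
                calc ‖fderiv ℝ g x (ev j) i - D x (ev j) i‖
                    = ‖((fderiv ℝ g x - D x) (ev j)) i‖ := rfl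
                  _ ≤ ‖(fderiv ℝ g x - D x) (ev j)‖ := norm_le_pi_norm _ i
                  _ ≤ ‖fderiv ℝ g x - D x‖ * ‖ev j‖ := ContinuousLinearMap.le_opNorm _ _
                  _ = _ := by rw [hev, mul_one]
              calc ‖φ x‖ * ‖fderiv ℝ g x (ev j) i - D x (ev j) i‖
                  ≤ B1 * ‖fderiv ℝ g x - D x‖ :=
                    mul_le_mul (hB1 x) h3 (norm_nonneg _) hB10
                _ = B1 * (1 / n) * (n * ‖fderiv ℝ g x - D x‖) := by
                    field_simp
            · rw [indicator_of_notMem hx, hφ.zero hx, zero_mul, norm_zero, ENNReal.ofReal_zero]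
          refine (lintegral_mono h2).trans ?_
          rw [lintegral_indicator hU.measurableSet,
            lintegral_const_mul' _ _ ENNReal.ofReal_ne_top]
          exact (mul_le_mul_right hgD _).trans (by rw [mul_one])
        calc (∫⁻ x, ENNReal.ofReal ‖φ x * (fderiv ℝ g x (ev j) i - D x (ev j) i)‖).toReal
            ≤ (ENNReal.ofReal (B1 * (1 / n))).toReal :=
              ENNReal.toReal_mono ENNReal.ofReal_ne_top h1
          _ = B1 * (1 / n) := ENNReal.toReal_ofReal (by positivity)
      rw [e1]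
      calc _ ≤ _ := abs_add_le _ _
        _ ≤ B2 * (1 / n) + B1 * (1 / n) := add_le_add b1 b2
        _ = _ := by ring
    have hlim : Tendsto (fun n : ℕ => (B1 + B2) * (1 / (n : ℝ))) atTop (𝓝 0) := by
      simpa using (tendsto_one_div_atTop_nhds_zero_nat (𝕜 := ℝ)).const_mul (B1 + B2)
    have h0 : |∫ x, φ x • (F x i j - D x (ev j) i)| ≤ 0 := by
      refine ge_of_tendsto hlim ?_
      filter_upwards [eventually_gt_atTop 0] with n hn
      exact key n hn
    exact abs_eq_zero.1 (le_antisymm h0 (abs_nonneg _))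
  have hall : ∀ᵐ x ∂(volume : Measure V), ∀ i j, x ∈ U → F x i j - D x (ev j) i = 0 := by
    rw [ae_all_iff]
    intro i
    rw [ae_all_iff]
    exact fun j => hmain i j
  filter_upwards [hall] with x hx hxU j
  funext i
  rw [PK.cl_apply, Finset.sum_eq_single j]
  · have := hx i j hxU
    simp only [ev, Pi.single_eq_same, mul_one]
    unfold ev at this
    linarith
  · intro l _ hl
    simp [ev, hl]
  · simp

end Vale.Agent.P073.H655
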