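import Vale.Agent.P073.H655.ErrT

/-!
# P073, theorem (T)
-/

namespace Vale.Agent.P073.H655

open MeasureTheory Set Filter Topology Metric Vale.Agent.P073.St Vale.Agent.P073.AB
open Vale.Agent.P073.SQ (ev cube SuppDiffeo)
open Vale.Agent.P073.H880 (Boxes SpecFill SpecFine)
open scoped ContDiff ENNReal

variable {p : ℝ} {Ω Λ K : Set V}

/-- at almost every point of all the sets `badSet Ω f W κ` the weak derivative vanishes -/
theorem ae_zero_of_bad (hV : SpecVan) (hp : 1 ≤ p)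
    (hΩ : St.IsBoundedDomain Ω) (hΛ : St.IsBoundedDomain Λ) (hK : K ⊆ Ω) (hKo : IsOpen (Ω \ K))
    {f : V → V} {F : V → Mat} (hf : St.IsHomeo Ω Λ f) (hF : St.IsSobolev p Ω f F)
    (hO : FineOff Ω Λ K f F)
    (hnull : ∀ l : Fin 3, volume ((fun y : V => y l) '' (f '' K)) = 0)
    (W : Boxes Λ (f '' K)) :
    ∀ᵐ x ∂(volume : Measure V), x ∈ Ω → (∀ κ > 0, x ∈ badSet Ω f W κ) →
      ∀ j, cl (F x) (ev j) = 0 := by
  have hfc : ContinuousOn f Ω := by
    obtain ⟨_, -, h, -⟩ := hf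
    exact h
  have hK' := isOpen_diff_image hΛ.1 hK hKo hf
  have := W.cnt
  -- the points of `K`
  have h1 : ∀ᵐ x ∂(volume : Measure V), ∀ i, x ∈ Ω → f x i ∈ (fun y : V => y i) '' (f '' K) →
      ∀ j, F x i j = 0 := by
    rw [ae_all_iff]
    exact fun i => hV p Ω f F i _ hp hΩ hF hfc (hnull i)
  -- the points off `K`
  have h2 : ∀ᵐ x ∂(volume : Measure V), ∀ (i : W.ι) (l : Fin 3), x ∉ (Ω \ K) ∩
      f ⁻¹' {y : V | y l ∈ (fun y : V => y l) '' (f '' K ∩ cube (W.c i) (W.ρ i))} := by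
    rw [ae_all_iff]
    intro i
    rw [ae_all_iff]
    intro l
    exact measure_eq_zero_iff_ae_notMem.1 (hO.2.2 _
      (null_preimage (measure_mono_null (image_mono inter_subset_left) (hnull l)) l))
  filter_upwards [h1, h2] with x hx1 hx2 hxΩ hbad j
  have hfx : f x ∈ Λ := by
    obtain ⟨_, ⟨h, -⟩, -, -⟩ := hf
    exact (h x hxΩ).1
  by_cases hxK : x ∈ K
  · funext i
    rw [PK.cl_apply]
    have h3 : ∀ l, F x i l = 0 := hx1 i hxΩ ⟨f x, ⟨x, hxK, rfl⟩, rfl⟩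
    simp [h3]
  · obtain ⟨i, l, h3⟩ := mem_of_forall_near W hK' hfx fun κ hκ => (hbad κ hκ).2
    exact absurd ⟨⟨hxΩ, hxK⟩, h3⟩ (hx2 i l)

/-- the energy of `f` on the bad sets tends to zero -/
theorem tendsto_bad (hV : SpecVan) (hp : 1 ≤ p)
    (hΩ : St.IsBoundedDomain Ω) (hΛ : St.IsBoundedDomain Λ) (hK : K ⊆ Ω) (hKo : IsOpen (Ω \ K))
    {f : V → V} {F : V → Mat} (hf : St.IsHomeo Ω Λ f) (hF : St.IsSobolev p Ω f F)
    (hO : FineOff Ω Λ K f F)
    (hnull : ∀ l : Fin 3, volume ((fun y : V => y l) '' (f '' K)) = 0)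
    (W : Boxes Λ (f '' K)) (j : Fin 3) {κ : ℕ → ℝ} (hκ : Antitone κ)
    (hκ0 : Tendsto κ atTop (𝓝 0)) :
    Tendsto (fun n => ∫⁻ x in badSet Ω f W (κ n), ENNReal.ofReal (‖cl (F x) (ev j)‖ ^ p)) atTop
      (𝓝 0) := by
  have hp0 : 0 < p := by linarith
  have hfc : ContinuousOn f Ω := by
    obtain ⟨_, -, h, -⟩ := hf
    exact h
  have hm : ∀ n, MeasurableSet (badSet Ω f W (κ n)) := fun n =>
    (isOpen_badSet hΩ.1 hfc W _).measurableSet
  have h1 : ∀ n, ∫⁻ x in badSet Ω f W (κ n), ENNReal.ofReal (‖cl (F x) (ev j)‖ ^ p) =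
      ∫⁻ x in Ω, (badSet Ω f W (κ n)).indicator
        (fun x => ENNReal.ofReal (‖cl (F x) (ev j)‖ ^ p)) x := by
    intro n
    have h2 : badSet Ω f W (κ n) ∩ Ω = badSet Ω f W (κ n) :=
      inter_eq_left.2 fun x hx => hx.1
    rw [lintegral_indicator (hm n), Measure.restrict_restrict (hm n), h2]
  simp_rw [h1]
  have h2 : ∫⁻ _ in Ω, (0 : ℝ≥0∞) = 0 := by simp
  rw [← h2]
  refine tendsto_lintegral_of_dominated_convergence'
    (fun x => ENNReal.ofReal (‖cl (F x) (ev j)‖ ^ p))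
    (fun n => (aemeasurable_col hF j).indicator (hm n)) (fun n => ?_) (col_ne_top hp hF j) ?_
  · exact Eventually.of_forall fun x => indicator_le_self _ _ x
  · rw [ae_restrict_iff' hΩ.1.measurableSet]
    filter_upwards [ae_zero_of_bad hV hp hΩ hΛ hK hKo hf hF hO hnull W] with x hx hxΩ
    by_cases hbad : ∀ n, x ∈ badSet Ω f W (κ n)
    · have h3 : cl (F x) (ev j) = 0 := by
        refine hx hxΩ (fun r hr => ?_) j
        obtain ⟨n, hn⟩ := (hκ0.eventually (gt_mem_nhds hr)).exists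
        exact ⟨hxΩ, nearSet_mono W hn.le (hbad n).2⟩
      have h4 : ∀ n, (badSet Ω f W (κ n)).indicator
          (fun x => ENNReal.ofReal (‖cl (F x) (ev j)‖ ^ p)) x = 0 := by
        intro n
        rw [indicator_of_mem (hbad n), h3, norm_zero, Real.zero_rpow hp0.ne', ENNReal.ofReal_zero]
      simp_rw [h4]
      exact tendsto_const_nhds
    · push Not at hbad
      obtain ⟨n₀, hn₀⟩ := hbad
      refine tendsto_const_nhds.congr' ?_
      filter_upwards [eventually_ge_atTop n₀] with n hn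
      rw [indicator_of_notMem]
      exact fun h => hn₀ ⟨hxΩ, nearSet_mono W (hκ hn) h.2⟩

/-- **Theorem (T)** over the rows -/
theorem main_of (hV : SpecVan) (hS : SpecSqz) (hFill : SpecFill)
    (hB : SpecBoxesIn) (hp : 1 ≤ p)
    (hΩ : St.IsBoundedDomain Ω) (hΛ : St.IsBoundedDomain Λ) (hK : K ⊆ Ω) (hKo : IsOpen (Ω \ K))
    {f : V → V} {F : V → Mat} (hf : St.IsHomeo Ω Λ f) (hF : St.IsSobolev p Ω f F)
    (hO : FineOff Ω Λ K f F)
    (hnull : ∀ l : Fin 3, volume ((fun y : V => y l) '' (f '' K)) = 0) :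
    St.DiffeoApproximable p Ω Λ f F := by
  have hp0 : 0 < p := by linarith
  obtain ⟨C, -, hC⟩ := hS
  have hfc : ContinuousOn f Ω := by
    obtain ⟨_, -, h, -⟩ := hf
    exact h
  have hv := PK.volume_ne_top_of_domain hΩ
  have hK' := isOpen_diff_image hΛ.1 hK hKo hf
  have hK'Λ := image_subset hK hf
  obtain ⟨W, -⟩ := hB Λ (f '' K) Λ hΛ.1 (PK.isBounded_of_domain hΛ) hΛ.1 hK'Λ Subset.rfl hK' hnull
  set κ : ℕ → ℝ := fun n => 1 / ((n : ℝ) + 1) with hκ
  have hκpos : ∀ n, 0 < κ n := fun n => by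
    show 0 < 1 / ((n : ℝ) + 1)
    positivity
  have hκ0 : Tendsto κ atTop (𝓝 0) := tendsto_one_div_add_atTop_nhds_zero_nat
  have hκa : Antitone κ := fun m n hmn => by
    show 1 / ((n : ℝ) + 1) ≤ 1 / ((m : ℝ) + 1)
    gcongr
  have h3κ0 : Tendsto (fun n => 3 * κ n) atTop (𝓝 0) := by
    simpa using hκ0.const_mul 3
  have h3κa : Antitone fun n => 3 * κ n := fun m n hmn => by
    show 3 * κ n ≤ 3 * κ m
    linarith [hκa hmn]
  have t1 : Tendsto (fun n => ENNReal.ofReal (κ n)) atTop (𝓝 0) := by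
    simpa using ENNReal.tendsto_ofReal hκ0
  have t2 : Tendsto (fun n => ENNReal.ofReal (κ n ^ p)) atTop (𝓝 0) := by
    have h2 : Tendsto (fun n => κ n ^ p) atTop (𝓝 (0 ^ p)) := hκ0.rpow_const (Or.inr hp0.le)
    rw [Real.zero_rpow hp0.ne'] at h2
    simpa using ENNReal.tendsto_ofReal h2
  have t3 : Tendsto (fun n => ENNReal.ofReal ((5 * κ n) ^ p)) atTop (𝓝 0) := by
    have h1 : Tendsto (fun n => 5 * κ n) atTop (𝓝 0) := by simpa using hκ0.const_mul 5
    have h2 : Tendsto (fun n => (5 * κ n) ^ p) atTop (𝓝 (0 ^ p)) := h1.rpow_const (Or.inr hp0.le)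
    rw [Real.zero_rpow hp0.ne'] at h2
    simpa using ENNReal.tendsto_ofReal h2
  set M : ℝ≥0∞ := ENNReal.ofReal (5 ^ (p - 1) * (max C 1 + 1) ^ p) with hM
  set B : Fin 3 → ℕ → ℝ≥0∞ := fun j n => M *
        (ENNReal.ofReal (κ n) + (ENNReal.ofReal (κ n) + (ENNReal.ofReal (κ n ^ p) * volume Ω +
          ((∫⁻ x in badSet Ω f W (3 * κ n), ENNReal.ofReal (‖cl (F x) (ev j)‖ ^ p)) +
            ENNReal.ofReal (κ n ^ p) *
              ∫⁻ x in Ω, ENNReal.ofReal (‖cl (F x) (ev j)‖ ^ p))))) with hBd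
  have tB : ∀ j, Tendsto (B j) atTop (𝓝 0) := by
    intro j
    have e1 : Tendsto (fun n => ENNReal.ofReal (κ n ^ p) * volume Ω) atTop (𝓝 0) := by
      have := ENNReal.Tendsto.mul_const (b := volume Ω) t2 (Or.inr hv)
      rwa [zero_mul] at this
    have e2 : Tendsto (fun n => ENNReal.ofReal (κ n ^ p) *
        ∫⁻ x in Ω, ENNReal.ofReal (‖cl (F x) (ev j)‖ ^ p)) atTop (𝓝 0) := by
      have := ENNReal.Tendsto.mul_const (b := ∫⁻ x in Ω, ENNReal.ofReal (‖cl (F x) (ev j)‖ ^ p))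
        t2 (Or.inr (col_ne_top hp hF j))
      rwa [zero_mul] at this
    have e3 := tendsto_bad hV hp hΩ hΛ hK hKo hf hF hO hnull W j h3κa h3κ0
    have e4 := t1.add (t1.add (e1.add (e3.add e2)))
    simp only [add_zero] at e4
    have e5 := ENNReal.Tendsto.const_mul (a := M) e4 (Or.inr ENNReal.ofReal_ne_top)
    rwa [mul_zero] at e5
  have hBt : ∀ j n, B j n ≠ ⊤ := by
    intro j n
    refine ENNReal.mul_ne_top ENNReal.ofReal_ne_top (ENNReal.add_ne_top.2
      ⟨ENNReal.ofReal_ne_top, ENNReal.add_ne_top.2 ⟨ENNReal.ofReal_ne_top,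
        ENNReal.add_ne_top.2 ⟨ENNReal.mul_ne_top ENNReal.ofReal_ne_top hv,
          ENNReal.add_ne_top.2 ⟨?_, ENNReal.mul_ne_top ENNReal.ofReal_ne_top
            (col_ne_top hp hF j)⟩⟩⟩⟩)
    refine ne_top_of_le_ne_top (col_ne_top hp hF j) ?_
    exact lintegral_mono_set inter_subset_left
  refine H880.approximable_of hp hΩ hΛ hfc hF
    (b := fun n => ENNReal.ofReal ((5 * κ n) ^ p) * volume Ω + ∑ j, B j n) ?_ ?_ ?_
  · have e1 : Tendsto (fun n => ENNReal.ofReal ((5 * κ n) ^ p) * volume Ω) atTop (𝓝 0) := by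
      have := ENNReal.Tendsto.mul_const (b := volume Ω) t3 (Or.inr hv)
      rwa [zero_mul] at this
    have e2 : Tendsto (fun n => ∑ j, B j n) atTop (𝓝 (∑ _j : Fin 3, 0)) :=
      tendsto_finsetSum _ fun j _ => tB j
    have e3 := e1.add e2
    simpa using e3
  · intro n
    exact ENNReal.add_ne_top.2 ⟨ENNReal.mul_ne_top ENNReal.ofReal_ne_top hv,
      ENNReal.sum_ne_top.2 fun j _ => hBt j n⟩
  · intro n
    obtain ⟨P, hP, hPf, hPD⟩ := exists_P hp hFill hB hC hΩ hΛ hK hKo hf hF hO hnull W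
      (hκpos n)
    refine ⟨P, hP, ?_⟩
    refine add_le_add ?_ (Finset.sum_le_sum fun j _ => hPD j)
    rw [← setLIntegral_const]
    refine setLIntegral_mono' hΩ.1.measurableSet fun x hx => ?_
    exact ENNReal.ofReal_le_ofReal (Real.rpow_le_rpow (norm_nonneg _) (hPf x hx) hp0.le)

end Vale.Agent.P073.H655
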