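import Vale.Agent.P073.H655.Finely

/-!
# P073: linear changes of the target
-/

namespace Vale.Agent.P073.H655

open MeasureTheory Set Filter Topology Metric Vale.Agent.P073.St Vale.Agent.P073.AB
open Vale.Agent.P073.SQ (ev)
open scoped ContDiff ENNReal

variable {p : ℝ} {Ω Λ : Set V}

theorem ap_eq_cl (A : Mat) (v : V) : ap A v = cl A v := by
  funext i
  rw [PK.cl_apply]
  rfl

/-- an invertible matrix as a continuous linear equivalence -/
theorem exists_equiv {A : Mat} (hA : NonSing A) : ∃ T : V ≃L[ℝ] V, ∀ v, T v = ap A v := by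
  have hi : Function.Injective (cl A : V →ₗ[ℝ] V) := by
    rw [injective_iff_map_eq_zero]
    intro v hv
    apply hA
    rw [ap_eq_cl]
    exact hv
  refine ⟨(LinearEquiv.ofInjectiveEndo (cl A : V →ₗ[ℝ] V) hi).toContinuousLinearEquiv, fun v => ?_⟩
  rw [ap_eq_cl]
  rfl

theorem domain_lin (T : V ≃L[ℝ] V) (hΛ : St.IsBoundedDomain Λ) :
    St.IsBoundedDomain (T '' Λ) := by
  have hb : Bornology.IsBounded (T '' Λ) :=
    (PK.isBounded_of_domain hΛ).image (T : V →L[ℝ] V)
  obtain ⟨R, hR⟩ := (Metric.isBounded_iff_subset_closedBall (0 : V)).1 hb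
  refine ⟨T.toHomeomorph.isOpenMap _ hΛ.1, hΛ.2.1.image _ T.continuous.continuousOn, 2 * R,
    fun x hx => ?_⟩
  have h1 := hR hx
  rw [mem_closedBall_zero_iff] at h1
  have h2 := euc_le_norm x
  linarith

theorem homeo_lin (T : V ≃L[ℝ] V) {f : V → V} (hf : St.IsHomeo Ω Λ f) :
    St.IsHomeo Ω (T '' Λ) (fun x => T (f x)) := by
  obtain ⟨k, ⟨h1, h2⟩, h3, h4⟩ := hf
  refine ⟨fun y => k (T.symm y), ⟨fun x hx => ⟨⟨f x, (h1 x hx).1, rfl⟩, ?_⟩, ?_⟩,
    T.continuous.comp_continuousOn h3, ?_⟩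
  · show k (T.symm (T (f x))) = x
    rw [T.symm_apply_apply, (h1 x hx).2]
  · rintro _ ⟨y, hy, rfl⟩
    refine ⟨?_, ?_⟩
    · show k (T.symm (T y)) ∈ Ω
      rw [T.symm_apply_apply]
      exact (h2 y hy).1
    · show T (f (k (T.symm (T y)))) = T y
      rw [T.symm_apply_apply, (h2 y hy).2]
  · refine h4.comp T.symm.continuous.continuousOn ?_
    rintro _ ⟨y, hy, rfl⟩
    rw [T.symm_apply_apply]
    exact hy

theorem diffeo_symm (T : V ≃L[ℝ] V) : St.IsDiffeo (T '' Λ) Λ T.symm := by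
  refine ⟨T, ⟨?_, fun y hy => ⟨⟨y, hy, rfl⟩, T.symm_apply_apply y⟩⟩, fun i => ?_, fun i => ?_⟩
  · rintro _ ⟨y, hy, rfl⟩
    rw [T.symm_apply_apply]
    exact ⟨hy, rfl⟩
  · exact ((contDiff_pi.1 T.symm.contDiff) i).contDiffOn
  · exact ((contDiff_pi.1 T.contDiff) i).contDiffOn

/-- **linear changes of the target** -/
theorem fa_lin {A : Mat} (T : V ≃L[ℝ] V) (hT : ∀ v, T v = ap A v) (hp : 1 ≤ p)
    (hΩ : IsOpen Ω) {f : V → V} {F : V → Mat}
    (h : FA p Ω (T '' Λ) (fun x => T (f x)) (fun x => mm A (F x))) : FA p Ω Λ f F := by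
  intro σ hσ hσ0 ε hε
  have hp0 : 0 ≤ p := by linarith
  set C : ℝ := ‖(T.symm : V →L[ℝ] V)‖ + 1 with hC
  have hC0 : 0 < C := by positivity
  have hTC : ∀ v, ‖T.symm v‖ ≤ C * ‖v‖ := fun v => by
    have h1 := (T.symm : V →L[ℝ] V).le_opNorm v
    refine h1.trans (mul_le_mul_of_nonneg_right ?_ (norm_nonneg _))
    linarith
  have hCp : 0 < C ^ p := by positivity
  obtain ⟨P, hP, hPσ, hPe⟩ := h (fun x => σ x / C) (hσ.div_const C)
    (fun x hx => div_pos (hσ0 x hx) hC0) (ε / C ^ p) (div_pos hε hCp)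
  refine ⟨T.symm ∘ P, isDiffeo_comp hP (diffeo_symm T), fun x hx => ?_, ?_⟩
  · have e1 : (T.symm ∘ P) x - f x = T.symm (P x - T (f x)) := by
      rw [map_sub, T.symm_apply_apply]
      rfl
    rw [e1]
    calc ‖T.symm (P x - T (f x))‖ ≤ C * ‖P x - T (f x)‖ := hTC _
      _ ≤ C * (σ x / C) := by
          gcongr
          exact hPσ x hx
      _ = σ x := by field_simp
  · have hrp : ∀ v : V, ENNReal.ofReal (‖T.symm v‖ ^ p) ≤
        ENNReal.ofReal (C ^ p) * ENNReal.ofReal (‖v‖ ^ p) := by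
      intro v
      rw [← ENNReal.ofReal_mul hCp.le, ← Real.mul_rpow hC0.le (norm_nonneg _)]
      exact ENNReal.ofReal_le_ofReal (Real.rpow_le_rpow (norm_nonneg _) (hTC v) hp0)
    have hcl : ∀ (M : Mat) (v : V), T (cl M v) = cl (mm A M) v := by
      intro M v
      rw [hT]
      funext i
      simp only [ap, mm, PK.cl_apply, Finset.mul_sum, Finset.sum_mul]
      rw [Finset.sum_comm]
      simp only [mul_assoc]
    have h1 : err p Ω f F (T.symm ∘ P) ≤
        ENNReal.ofReal (C ^ p) * err p Ω (fun x => T (f x)) (fun x => mm A (F x)) P := by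
      unfold err
      rw [mul_add, Finset.mul_sum]
      refine add_le_add ?_ (Finset.sum_le_sum fun j _ => ?_)
      · rw [← lintegral_const_mul' _ _ ENNReal.ofReal_ne_top]
        refine lintegral_mono fun x => ?_
        have e1 : (T.symm ∘ P) x - f x = T.symm (P x - T (f x)) := by
          rw [map_sub, T.symm_apply_apply]
          rfl
        rw [e1]
        exact hrp _
      · rw [← lintegral_const_mul' _ _ ENNReal.ofReal_ne_top]
        refine setLIntegral_mono' hΩ.measurableSet fun x hx => ?_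
        have hd : DifferentiableAt ℝ P x :=
          ((diffeo_smooth hP).contDiffAt (hΩ.mem_nhds hx)).differentiableAt (by simp)
        have e0 : fderiv ℝ (T.symm ∘ P) x = (T.symm : V →L[ℝ] V).comp (fderiv ℝ P x) :=
          ((T.symm : V →L[ℝ] V).hasFDerivAt.comp x hd.hasFDerivAt).fderiv
        have e1 : fderiv ℝ (T.symm ∘ P) x (ev j) - cl (F x) (ev j) =
            T.symm (fderiv ℝ P x (ev j) - cl (mm A (F x)) (ev j)) := by
          rw [e0, map_sub, ← hcl, T.symm_apply_apply]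
          rfl
        rw [e1]
        exact hrp _
    refine h1.trans ?_
    calc ENNReal.ofReal (C ^ p) * err p Ω (fun x => T (f x)) (fun x => mm A (F x)) P
        ≤ ENNReal.ofReal (C ^ p) * ENNReal.ofReal (ε / C ^ p) := by gcongr
      _ = ENNReal.ofReal ε := by
          rw [← ENNReal.ofReal_mul hCp.le]
          congr 1
          field_simp

end Vale.Agent.P073.H655
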