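import Vale.Agent.P073.H655.Lin

/-!
# P073: linear changes of the domain
-/

namespace Vale.Agent.P073.H655

open MeasureTheory Set Filter Topology Metric Vale.Agent.P073.St Vale.Agent.P073.AB
open Vale.Agent.P073.SQ (ev)
open scoped ContDiff ENNReal

variable {p : ℝ} {Ω Λ : Set V}

/-- the change of variables -/
theorem exists_jac (S : V ≃L[ℝ] V) : ∃ c : ℝ≥0∞, c ≠ ⊤ ∧ ∀ (Ω : Set V), MeasurableSet Ω →
    ∀ h : V → ℝ≥0∞, ∫⁻ x in Ω, h (S x) = c * ∫⁻ y in S '' Ω, h y := by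
  set d : ℝ≥0∞ := ENNReal.ofReal |(S : V →L[ℝ] V).det| with hd
  have hdet : (S : V →L[ℝ] V).det ≠ 0 := by
    have := (S.toLinearEquiv).isUnit_det'
    exact this.ne_zero
  have hd0 : d ≠ 0 := by
    rw [hd, Ne, ENNReal.ofReal_eq_zero, not_le]
    exact abs_pos.2 hdet
  have hdt : d ≠ ⊤ := ENNReal.ofReal_ne_top
  refine ⟨d⁻¹, ENNReal.inv_ne_top.2 hd0, fun Ω hΩ h => ?_⟩
  have h1 := lintegral_image_eq_lintegral_abs_det_fderiv_mul volume hΩ
    (f := S) (f' := fun _ => (S : V →L[ℝ] V))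
    (fun x _ => (S : V →L[ℝ] V).hasFDerivAt.hasFDerivWithinAt) S.injective.injOn h
  rw [h1, lintegral_const_mul' _ _ hdt, ← mul_assoc, ENNReal.inv_mul_cancel hd0 hdt, one_mul]

theorem diffeo_lin (S : V ≃L[ℝ] V) : St.IsDiffeo Ω (S '' Ω) S := by
  refine ⟨S.symm, ⟨fun x hx => ⟨⟨x, hx, rfl⟩, S.symm_apply_apply x⟩, ?_⟩, fun i => ?_, fun i => ?_⟩
  · rintro _ ⟨y, hy, rfl⟩
    rw [S.symm_apply_apply]
    exact ⟨hy, rfl⟩
  · exact ((contDiff_pi.1 S.contDiff) i).contDiffOn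
  · exact ((contDiff_pi.1 S.symm.contDiff) i).contDiffOn

theorem homeo_dom (S : V ≃L[ℝ] V) {f : V → V} (hf : St.IsHomeo Ω Λ f) :
    St.IsHomeo (S '' Ω) Λ (fun x => f (S.symm x)) := by
  obtain ⟨k, ⟨h1, h2⟩, h3, h4⟩ := hf
  refine ⟨fun y => S (k y), ⟨?_, fun y hy => ⟨⟨k y, (h2 y hy).1, rfl⟩, ?_⟩⟩, ?_,
    S.continuous.comp_continuousOn h4⟩
  · rintro _ ⟨x, hx, rfl⟩
    refine ⟨?_, ?_⟩
    · show f (S.symm (S x)) ∈ Λ
      rw [S.symm_apply_apply]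
      exact (h1 x hx).1
    · show S (k (f (S.symm (S x)))) = S x
      rw [S.symm_apply_apply, (h1 x hx).2]
  · show f (S.symm (S (k y))) = y
    rw [S.symm_apply_apply, (h2 y hy).2]
  · refine h3.comp S.symm.continuous.continuousOn ?_
    rintro _ ⟨x, hx, rfl⟩
    rw [S.symm_apply_apply]
    exact hx

/-- **linear changes of the domain** -/
theorem fa_dom {A : Mat} (S : V ≃L[ℝ] V) (hA : ∀ v, S.symm v = ap A v) (hp : 1 ≤ p)
    (hΩ : IsOpen Ω) {f : V → V} {F : V → Mat}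
    (hF : St.IsSobolev p (S '' Ω) (fun x => f (S.symm x)) (fun x => mm (F (S.symm x)) A))
    (h : FA p (S '' Ω) Λ (fun x => f (S.symm x)) (fun x => mm (F (S.symm x)) A)) :
    FA p Ω Λ f F := by
  intro σ hσ hσ0 ε hε
  have hp0 : 0 ≤ p := by linarith
  have hev : ∀ j, ‖ev j‖ = 1 := fun j => by unfold ev; rw [Pi.norm_single]; simp
  obtain ⟨c, hc, hjac⟩ := exists_jac S
  set C : ℝ := ‖(S : V →L[ℝ] V)‖ with hC
  have hC0 : 0 ≤ C := norm_nonneg _
  set M : ℝ≥0∞ := c * (1 + 3 * ENNReal.ofReal (C ^ p * 3 ^ (p - 1))) with hM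
  have hMt : M ≠ ⊤ := ENNReal.mul_ne_top hc (ENNReal.add_ne_top.2 ⟨ENNReal.one_ne_top,
    ENNReal.mul_ne_top (by norm_num) ENNReal.ofReal_ne_top⟩)
  obtain ⟨ε', hε', hMε⟩ : ∃ ε' : ℝ, 0 < ε' ∧ M * ENNReal.ofReal ε' ≤ ENNReal.ofReal ε := by
    refine ⟨ε / (M.toReal + 1), by positivity, ?_⟩
    rw [← ENNReal.ofReal_toReal hMt, ← ENNReal.ofReal_mul ENNReal.toReal_nonneg]
    apply ENNReal.ofReal_le_ofReal
    rw [ENNReal.ofReal_toReal hMt]
    have h0 : 0 ≤ M.toReal := ENNReal.toReal_nonneg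
    rw [mul_div_assoc', div_le_iff₀ (by positivity)]
    nlinarith
  obtain ⟨P, hP, hPσ, hPe⟩ := h (fun x => σ (S.symm x)) (by
      refine hσ.comp S.symm.continuous.continuousOn ?_
      rintro _ ⟨x, hx, rfl⟩
      rw [S.symm_apply_apply]
      exact hx)
    (by
      rintro _ ⟨x, hx, rfl⟩
      rw [S.symm_apply_apply]
      exact hσ0 x hx) ε' hε'
  have hSΩ : IsOpen (S '' Ω) := S.toHomeomorph.isOpenMap _ hΩ
  refine ⟨P ∘ S, isDiffeo_comp (diffeo_lin S) hP, fun x hx => ?_, ?_⟩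
  · have h1 := hPσ (S x) ⟨x, hx, rfl⟩
    simp only [S.symm_apply_apply] at h1
    exact h1
  set Δ : V → V →L[ℝ] V := fun y => fderiv ℝ P y - cl (mm (F (S.symm y)) A) with hΔ
  have hcl : ∀ (M : Mat) (v : V), cl (mm M A) (S v) = cl M v := by
    intro M v
    rw [← ap_eq_cl, ← ap_eq_cl]
    have e : ∀ (X Y : Mat) (v : V), ap (mm X Y) v = ap X (ap Y v) := by
      intro X Y v
      funext i
      simp only [ap, mm, Finset.mul_sum, Finset.sum_mul]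
      rw [Finset.sum_comm]
      simp only [mul_assoc]
    rw [e, ← hA, S.symm_apply_apply]
  have hpt : ∀ x ∈ Ω, ∀ j, ‖fderiv ℝ (P ∘ S) x (ev j) - cl (F x) (ev j)‖ ^ p ≤
      (C ^ p * 3 ^ (p - 1)) * ∑ i, ‖Δ (S x) (ev i)‖ ^ p := by
    intro x hx j
    have hd : DifferentiableAt ℝ P (S x) :=
      ((diffeo_smooth hP).contDiffAt (hSΩ.mem_nhds ⟨x, hx, rfl⟩)).differentiableAt (by simp)
    have e0 : fderiv ℝ (P ∘ S) x = (fderiv ℝ P (S x)).comp (S : V →L[ℝ] V) :=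
      (hd.hasFDerivAt.comp x (S : V →L[ℝ] V).hasFDerivAt).fderiv
    have e1 : fderiv ℝ (P ∘ S) x (ev j) - cl (F x) (ev j) = Δ (S x) (S (ev j)) := by
      rw [e0, hΔ]
      show _ = fderiv ℝ P (S x) (S (ev j)) - cl (mm (F (S.symm (S x))) A) (S (ev j))
      rw [hcl, S.symm_apply_apply]
      rfl
    rw [e1]
    have h1 : ‖Δ (S x) (S (ev j))‖ ≤ ‖Δ (S x)‖ * C := by
      refine ((Δ (S x)).le_opNorm _).trans (mul_le_mul_of_nonneg_left ?_ (norm_nonneg _))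
      have := (S : V →L[ℝ] V).le_opNorm (ev j)
      rwa [hev, mul_one] at this
    calc ‖Δ (S x) (S (ev j))‖ ^ p ≤ (‖Δ (S x)‖ * C) ^ p :=
          Real.rpow_le_rpow (norm_nonneg _) h1 hp0
      _ = C ^ p * ‖Δ (S x)‖ ^ p := by rw [Real.mul_rpow (norm_nonneg _) hC0, mul_comm]
      _ ≤ C ^ p * (3 ^ (p - 1) * ∑ i, ‖Δ (S x) (ev i)‖ ^ p) := by
          gcongr
          exact H694.rpow_le_sum_ev hp _
      _ = _ := by ring
  have hm : ∀ i, AEMeasurable (fun y => ENNReal.ofReal (‖Δ y (ev i)‖ ^ p))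
      (volume.restrict (S '' Ω)) := by
    intro i
    have h1 : AEMeasurable (fun x => fderiv ℝ P x (ev i)) (volume.restrict (S '' Ω)) :=
      (((diffeo_smooth hP).continuousOn_fderiv_of_isOpen hSΩ (by simp)).clm_apply
        continuousOn_const).aemeasurable hSΩ.measurableSet
    have h2 : AEMeasurable (fun x => cl (mm (F (S.symm x)) A) (ev i))
        (volume.restrict (S '' Ω)) :=
      ((ContinuousLinearMap.apply ℝ V (ev i)).continuous.comp_aestronglyMeasurable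
        (PK.IsSob.aesm hF)).aemeasurable
    exact ((h1.sub h2).norm.pow_const p).ennreal_ofReal
  have h1 : err p Ω f F (P ∘ S) ≤ M * err p (S '' Ω) (fun x => f (S.symm x))
      (fun x => mm (F (S.symm x)) A) P := by
    have a0 : ∫⁻ x in Ω, ENNReal.ofReal (‖(P ∘ S) x - f x‖ ^ p) =
        c * ∫⁻ y in S '' Ω, ENNReal.ofReal (‖P y - f (S.symm y)‖ ^ p) := by
      rw [← hjac Ω hΩ.measurableSet]
      refine lintegral_congr fun x => ?_
      rw [S.symm_apply_apply]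
      rfl
    have a1 : ∀ j, ∫⁻ x in Ω,
        ENNReal.ofReal (‖fderiv ℝ (P ∘ S) x (ev j) - cl (F x) (ev j)‖ ^ p) ≤
        ENNReal.ofReal (C ^ p * 3 ^ (p - 1)) *
          (c * ∫⁻ y in S '' Ω, ∑ i, ENNReal.ofReal (‖Δ y (ev i)‖ ^ p)) := by
      intro j
      rw [← hjac Ω hΩ.measurableSet, ← lintegral_const_mul' _ _ ENNReal.ofReal_ne_top]
      refine setLIntegral_mono' hΩ.measurableSet fun x hx => ?_
      rw [← ENNReal.ofReal_sum_of_nonneg fun i _ => by positivity,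
        ← ENNReal.ofReal_mul (by positivity)]
      exact ENNReal.ofReal_le_ofReal (hpt x hx j)
    have a2 : ∀ y, ∀ i, ‖Δ y (ev i)‖ = ‖fderiv ℝ P y (ev i) - cl (mm (F (S.symm y)) A) (ev i)‖ :=
      fun _ _ => rfl
    rw [lintegral_finsetSum' _ fun i _ => hm i] at a1
    simp only [a2] at a1
    set I₀ : ℝ≥0∞ := ∫⁻ y in S '' Ω, ENNReal.ofReal (‖P y - f (S.symm y)‖ ^ p) with hI₀
    set I₁ : ℝ≥0∞ := ∑ i, ∫⁻ y in S '' Ω,
      ENNReal.ofReal (‖fderiv ℝ P y (ev i) - cl (mm (F (S.symm y)) A) (ev i)‖ ^ p) with hI₁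
    have a3 : err p Ω f F (P ∘ S) ≤
        c * I₀ + 3 * (ENNReal.ofReal (C ^ p * 3 ^ (p - 1)) * (c * I₁)) := by
      unfold err
      refine add_le_add a0.le ((Finset.sum_le_sum fun j _ => a1 j).trans (le_of_eq ?_))
      rw [Finset.sum_const, Finset.card_univ, Fintype.card_fin, nsmul_eq_mul]
      norm_num
    refine a3.trans ?_
    show _ ≤ M * (I₀ + I₁)
    rw [hM]
    calc c * I₀ + 3 * (ENNReal.ofReal (C ^ p * 3 ^ (p - 1)) * (c * I₁))
        ≤ (c * I₀ + 3 * (ENNReal.ofReal (C ^ p * 3 ^ (p - 1)) * (c * I₁))) +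
          (3 * (ENNReal.ofReal (C ^ p * 3 ^ (p - 1)) * (c * I₀)) + c * I₁) := le_self_add
      _ = c * (1 + 3 * ENNReal.ofReal (C ^ p * 3 ^ (p - 1))) * (I₀ + I₁) := by ring
  exact h1.trans ((mul_le_mul_right hPe M).trans hMε)

end Vale.Agent.P073.H655
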