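import Vale.Agent.P073.H655.MapT
import Vale.Agent.P073.H655.EstT
import Vale.Agent.P073.H655.Fine
import Vale.Agent.P073.SMF.Main
import Vale.Agent.P073.SM.Final

/-!
# P073, theorem (T): the approximating diffeomorphism
-/

namespace Vale.Agent.P073.H655

open MeasureTheory Set Filter Topology Metric Vale.Agent.P073.St Vale.Agent.P073.AB
open Vale.Agent.P073.SQ (ev cube SuppDiffeo)
open Vale.Agent.P073.H880 (Boxes SpecFill SpecFine)
open _root_.P073 (ConHomeo ConicalOn ConicalWithinAt)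
open scoped ContDiff ENNReal

variable {p : ℝ} {Ω Λ K : Set V}

/-- a conical homeomorphism is differentiable almost everywhere -/
theorem ae_differentiable (hΩ : IsOpen Ω) (H : ConHomeo Ω Λ) :
    ∀ᵐ x ∂(volume : Measure V), x ∈ Ω → DifferentiableAt ℝ H.toFun x := by
  have hnull := _root_.P073.measure_singular_eq_zero (volume : Measure V) hΩ H.conical H.cont
  rw [measure_eq_zero_iff_ae_notMem] at hnull
  filter_upwards [hnull] with x hx hxΩ
  have htop : _root_.P073.linSpace H.toFun x = ⊤ := by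
    by_contra h
    exact hx ⟨hxΩ, h⟩
  have h1 : ContDiffAt ℝ ∞ H.toFun x :=
    _root_.P073.contDiffAt_of_top (H.conical.conicalAt hΩ hxΩ) htop
  exact h1.differentiableAt (by simp)

/-- the geometric part of the construction -/
theorem exists_geom (hp : 1 ≤ p) (hFill : SpecFill) (hB : SpecBoxesIn)
    (hΩ : St.IsBoundedDomain Ω) (hΛ : St.IsBoundedDomain Λ) (hK : K ⊆ Ω) (hKo : IsOpen (Ω \ K))
    {f : V → V} {F : V → Mat} (hO : FineOff Ω Λ K f F)
    (hnull : ∀ l : Fin 3, volume ((fun y : V => y l) '' (f '' K)) = 0)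
    {N : Set V} (hN : IsOpen N) (hKN : f '' K ⊆ N) (hNΛ : N ⊆ Λ) {κ : ℝ} (hκ : 0 < κ) :
    ∃ (g G : V → V) (H : ConHomeo Ω Λ) (A : Set V), St.IsDiffeo Ω Λ G ∧ f '' K ⊆ A ∧ A ⊆ N ∧
      (∀ x ∈ Ω, ‖g x - f x‖ ≤ κ) ∧ (∀ x ∈ Ω, ‖H.toFun x - g x‖ ≤ 2 * κ) ∧
      (∀ x ∈ Ω, ‖G x - H.toFun x‖ ≤ κ) ∧
      (∀ x ∈ Ω, g x ∉ A → H.toFun x = g x) ∧
      (∀ x ∈ K, g x = f x) ∧ (∀ x ∈ Ω, g x ∈ A → G x ∈ N) ∧
      (∀ᵐ x ∂(volume : Measure V), x ∈ Ω → g x ∉ A →
        ∀ j, ‖fderiv ℝ H.toFun x (ev j) - cl (F x) (ev j)‖ ≤ κ) ∧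
      ∀ j, ∫⁻ x in Ω, ENNReal.ofReal (‖fderiv ℝ G x (ev j) - fderiv ℝ H.toFun x (ev j)‖ ^ p) ≤
        ENNReal.ofReal κ := by
  have hΛb : Bornology.IsBounded Λ := PK.isBounded_of_domain hΛ
  obtain ⟨g, hg, hgK, hgcon, hgf, hgd⟩ := hO.1 (fun _ => κ) continuousOn_const (fun _ _ => hκ)
  have hgKf : g '' K = f '' K := image_congr hgK
  have hgf' : ∀ x ∈ Ω, ‖g x - f x‖ ≤ κ := by
    intro x hx
    by_cases hxK : x ∈ K
    · rw [hgK x hxK, sub_self, norm_zero]; exact hκ.le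
    · exact hgf x ⟨hx, hxK⟩
  rw [← hgKf] at hnull hKN
  have hKo' : IsOpen (Λ \ g '' K) := isOpen_diff_image hΛ.1 hK hKo hg
  obtain ⟨W, hWN, hWκ⟩ := exists_small hB hΛ.1 hΛb hN hKN hNΛ hKo' hnull hκ
  obtain ⟨H, hH1, hH2, hH3⟩ := exists_fill' hFill hΩ.1 hΛ.1 hK hKo hg hgcon W
  -- the admissible error of the smoothing
  have hΛc : Λᶜ.Nonempty := by
    rw [nonempty_compl]
    rintro rfl
    exact NormedSpace.unbounded_univ ℝ V hΛb
  have hNc : Nᶜ.Nonempty := hΛc.mono (compl_subset_compl.2 hNΛ)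
  set e : V → ℝ := fun y => infDist y Nᶜ + infDist y (cU W ∪ Λᶜ) with he
  have hec : Continuous e := (continuous_infDist_pt _).add (continuous_infDist_pt _)
  have hepos : ∀ y ∈ Λ, 0 < e y := by
    intro y hy
    by_cases hyN : y ∈ N
    · have h1 : 0 < infDist y Nᶜ :=
        (hN.isClosed_compl.notMem_iff_infDist_pos hNc).1 fun h => h hyN
      have h2 : 0 ≤ infDist y (cU W ∪ Λᶜ) := infDist_nonneg
      show 0 < infDist y Nᶜ + infDist y (cU W ∪ Λᶜ)
      linarith
    · have h2 : 0 ≤ infDist y Nᶜ := infDist_nonneg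
      have h3 : y ∉ cU W := fun h => by
        obtain ⟨i, hi⟩ := mem_iUnion.1 h
        exact hyN (hWN i hi)
      have h1 : y ∉ closure (cU W ∪ Λᶜ) := by
        rw [mem_closure_iff_frequently, not_frequently]
        filter_upwards [eventually_notMem_cU W hy h3, hΛ.1.mem_nhds hy] with z hz hz'
        rintro (h | h)
        · exact hz h
        · exact h hz'
      have h4 : 0 < infDist y (cU W ∪ Λᶜ) :=
        (infDist_pos_iff_notMem_closure (hΛc.mono subset_union_right)).1 h1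
      show 0 < infDist y Nᶜ + infDist y (cU W ∪ Λᶜ)
      linarith
  obtain ⟨G, hG, hGs, hclose, -, -, hint⟩ := _root_.P073.SMF.specSmooth _root_.P073.SM.specSM p Ω Λ H
    (fun x => min κ (e (H.toFun x) / 2)) κ hp hΩ hΛ
    (ContinuousOn.inf continuousOn_const ((hec.comp_continuousOn H.cont).div_const 2))
    (fun x hx => lt_min hκ (half_pos (hepos _ (H.mapsTo hx)))) hκ
    Empty inferInstance (fun i => i.elim) (fun i => i.elim) (fun i => i.elim) (fun i => i.elim)
    (fun i => i.elim) (fun K _ _ => Set.toFinite _) (fun i => i.elim)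
    Empty inferInstance (fun i => i.elim) (fun i => i.elim) (fun i => i.elim) (fun i => i.elim)
    (fun i => i.elim) (fun i => i.elim) (fun K _ _ => Set.toFinite _) (fun i => i.elim)
  have hAN : oU W ⊆ N := by
    intro y hy
    obtain ⟨i, hi⟩ := mem_iUnion.1 hy
    exact hWN i (ocube_subset hi)
  refine ⟨g, G, H, oU W, hG, hgKf ▸ sub_oU W, hAN, hgf', ?_, fun x hx =>
    (hclose x hx).trans (min_le_left _ _), hH1, hgK, ?_, ?_, hint⟩
  · intro x hx
    by_cases h : g x ∈ oU W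
    · obtain ⟨i, hi⟩ := mem_iUnion.1 h
      have h1 := hH2 i x hx hi
      rw [pi_norm_le_iff_of_nonneg (by positivity)]
      intro l
      have h2 := h1 l
      have h3 := hi l
      have h4 := hWκ i
      rw [Pi.sub_apply, Real.norm_eq_abs, abs_le]
      rw [abs_lt] at h2 h3
      constructor <;> linarith [h2.1, h2.2, h3.1, h3.2]
    · rw [hH1 x hx h, sub_self, norm_zero]
      positivity
  · intro x hx h
    obtain ⟨i, hi⟩ := mem_iUnion.1 h
    have h1 := hH2 i x hx hi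
    have h2 : infDist (H.toFun x) (cU W ∪ Λᶜ) = 0 :=
      infDist_zero_of_mem (Or.inl (mem_iUnion.2 ⟨i, ocube_subset h1⟩))
    have h3 : H.toFun x ∈ N := hWN i (ocube_subset h1)
    have h4 : 0 < infDist (H.toFun x) Nᶜ :=
      (hN.isClosed_compl.notMem_iff_infDist_pos hNc).1 fun h => h h3
    have h5 := (hclose x hx).trans (min_le_right _ _)
    by_contra h6
    have h7 : infDist (H.toFun x) Nᶜ ≤ dist (H.toFun x) (G x) := infDist_le_dist_of_mem h6
    rw [dist_comm, dist_eq_norm] at h7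
    have h8 : e (H.toFun x) = infDist (H.toFun x) Nᶜ := by
      show infDist (H.toFun x) Nᶜ + infDist (H.toFun x) (cU W ∪ Λᶜ) = _
      rw [h2, add_zero]
    rw [h8] at h5
    linarith
  · filter_upwards [hH3, ae_differentiable hΩ.1 H, hO.2.1] with x hx hxd hxF hxΩ hxA j
    have h1 := hx hxΩ hxA
    have hxK : x ∉ K := fun h => hxA (sub_oU W (mem_image_of_mem g h))
    have h2 : DifferentiableAt ℝ g x := (hxd hxΩ).congr_of_eventuallyEq h1.symm
    have h3 : DifferentiableAt ℝ f x := (hxF ⟨hxΩ, hxK⟩).1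
    rw [h1.fderiv_eq, (hxF ⟨hxΩ, hxK⟩).2 j]
    have h4 : HasFDerivAt (fun y => g y - f y) (fderiv ℝ g x - fderiv ℝ f x) x :=
      h2.hasFDerivAt.sub h3.hasFDerivAt
    have h5 : ‖fderiv ℝ g x - fderiv ℝ f x‖ ≤ κ := by
      refine h4.le_of_lip' hκ.le ?_
      filter_upwards [hgd x ⟨hxΩ, hxK⟩] with y hy
      have : g y - f y - (g x - f x) = (g y - g x) - (f y - f x) := by abel
      rw [this]
      exact hy
    have h6 := (fderiv ℝ g x - fderiv ℝ f x).le_opNorm (ev j)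
    have h7 : ‖ev j‖ = 1 := by unfold ev; rw [Pi.norm_single]; simp
    rw [h7, mul_one] at h6
    exact h6.trans h5

end Vale.Agent.P073.H655
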