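import Vale.Agent.P073.H655.RowsT
import Vale.Agent.P073.PK.Sob560a

/-!
# P073, exponents `p > 3`: singular sets of small Hausdorff measure: statements of the rows
-/

namespace Vale.Agent.P073.H655

open MeasureTheory Set Filter Topology Metric Vale.Agent.P073.AB
open Vale.Agent.P073.St (V Mat euc)
open Vale.Agent.P073.SQ (ev cube)
open scoped ContDiff ENNReal

/-- **Row M1** (Morrey): the oscillation of a continuous `W^{1,p}` map on a cube, `p > 3`. -/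
def SpecMorrey : Prop :=
  ∀ p : ℝ, 3 < p → ∃ C : ℝ, 0 < C ∧ ∀ (Ω : Set V) (f : V → V) (F : V → Mat),
    St.IsBoundedDomain Ω → St.IsSobolev p Ω f F → ContinuousOn f Ω →
    ∀ (c : V) (ρ : ℝ), 0 < ρ → cube c ρ ⊆ Ω → ∀ x ∈ cube c ρ, ∀ y ∈ cube c ρ,
      ENNReal.ofReal (‖f x - f y‖ ^ p) ≤
        ENNReal.ofReal (C * ρ ^ (p - 3)) * ∫⁻ z in cube c ρ, ENNReal.ofReal (‖cl (F z)‖ ^ p)

/-- **Row M2** (covering): a set `K` of finite `s`-dimensional measure, `s < 3`, in an open set `N`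
is covered by countably many cubes in `N`, without common interior points, with
`∑ ρ_i ^ s ≤ C`, `C` independent of `N`. -/
def SpecCover : Prop :=
  ∀ (s : ℝ) (K : Set V), 0 < s → Measure.hausdorffMeasure s K < ⊤ →
    ∃ C : ℝ≥0∞, C ≠ ⊤ ∧ ∀ N : Set V, IsOpen N → K ⊆ N →
      ∃ (ι : Type) (_ : Countable ι) (c : ι → V) (ρ : ι → ℝ), (∀ i, 0 < ρ i) ∧
        (∀ i, cube (c i) (ρ i) ⊆ N) ∧ K ⊆ ⋃ i, cube (c i) (ρ i) ∧
        (∀ i j, i ≠ j → volume (cube (c i) (ρ i) ∩ cube (c j) (ρ j)) = 0) ∧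
        ∑' i, ENNReal.ofReal (ρ i ^ s) ≤ C

end Vale.Agent.P073.H655
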