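import Vale.Agent.P073.H655.Across

/-!
# P073: Sobolev regularity across the singular set
-/

namespace Vale.Agent.P073.H655

open MeasureTheory Set Filter Topology Metric Vale.Agent.P073.St Vale.Agent.P073.AB
open Vale.Agent.P073.SQ (ev)
open Vale.Agent.P073.H880 (integrable_mul_of_support)
open scoped ContDiff ENNReal

variable {p : ℝ} {Ω Λ K : Set V}

open Classical in
/-- a map which is `f` on `K` and smooth off `K`, close to `f` near `K`, is Sobolev -/
theorem sobolev_across (hp : 1 ≤ p) (hΩ : St.IsBoundedDomain Ω) (hKo : IsOpen (Ω \ K))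
    {f g : V → V} {F : V → Mat} (hf : ContinuousOn f Ω)
    (hF : St.IsSobolev p Ω f F) (hg : ContDiffOn ℝ 1 g (Ω \ K))
    (hGc : ContinuousOn (fun x => if x ∈ K then f x else g x) Ω) {B : ℝ}
    (hB : ∀ x ∈ Ω, ‖(if x ∈ K then f x else g x)‖ ≤ B) {h : V → ℝ} (hh : ContDiff ℝ ∞ h)
    (hsupp : Function.support h = Ω \ K) (hh0 : ∀ x, 0 ≤ h x)
    (hgf : ∀ x ∈ Ω \ K, ‖g x - f x‖ ≤ h x ^ 2)
    (hE : ∫⁻ x in Ω \ K, ENNReal.ofReal (‖fderiv ℝ g x - cl (F x)‖ ^ p) ≠ ⊤) :
    St.IsSobolev p Ω (fun x => if x ∈ K then f x else g x)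
      (fun x i j => if x ∈ K then F x i j else fderiv ℝ g x (ev j) i) := by
  have hp0 : 0 < p := by linarith
  have hev : ∀ j, ‖ev j‖ = 1 := fun j => by unfold ev; rw [Pi.norm_single]; simp
  have hv := PK.volume_ne_top_of_domain hΩ
  have : IsFiniteMeasure (volume.restrict Ω) := ⟨by
    rw [Measure.restrict_apply_univ]; exact lt_top_iff_ne_top.2 hv⟩
  have hUm : MeasurableSet (Ω \ K) := hKo.measurableSet
  -- the difference of the derivatives
  set v : Fin 3 → Fin 3 → V → ℝ := fun i j => (Ω \ K).indicator
    (fun x => fderiv ℝ g x (ev j) i - F x i j) with hvd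
  have hFm : ∀ i j, AEStronglyMeasurable (fun x => F x i j) (volume.restrict Ω) :=
    fun i j => (hF.2.1 i j).1
  have hgm : ∀ i j, Measurable fun x => fderiv ℝ g x (ev j) i := fun i j =>
    (measurable_pi_apply i).comp (measurable_fderiv_apply_const ℝ g (ev j))
  have hcl : ∀ x i j, cl (F x) (ev j) i = F x i j := by
    intro x i j
    rw [PK.cl_apply, Finset.sum_eq_single j]
    · simp [ev]
    · intro l _ hl
      simp [ev, hl]
    · simp
  have hvmem : ∀ i j, MemLp (v i j) (ENNReal.ofReal p) (volume.restrict Ω) := by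
    intro i j
    refine ⟨(((hgm i j).aestronglyMeasurable).sub (hFm i j)).indicator hUm, ?_⟩
    rw [eLpNorm_lt_top_iff_lintegral_rpow_enorm_lt_top
      (by rw [Ne, ENNReal.ofReal_eq_zero]; linarith) ENNReal.ofReal_ne_top,
      ENNReal.toReal_ofReal hp0.le]
    refine lt_of_le_of_lt ?_ (lt_top_iff_ne_top.2 hE)
    have h1 : ∀ x, ‖v i j x‖ₑ ^ p ≤
        (Ω \ K).indicator (fun x => ENNReal.ofReal (‖fderiv ℝ g x - cl (F x)‖ ^ p)) x := by
      intro x
      by_cases hx : x ∈ Ω \ K
      · rw [hvd]
        simp only [indicator_of_mem hx]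
        rw [← ofReal_norm, ENNReal.ofReal_rpow_of_nonneg (norm_nonneg _) hp0.le]
        apply ENNReal.ofReal_le_ofReal
        apply Real.rpow_le_rpow (norm_nonneg _) _ hp0.le
        calc ‖fderiv ℝ g x (ev j) i - F x i j‖
            = ‖((fderiv ℝ g x - cl (F x)) (ev j)) i‖ := by
              rw [← hcl x i j]; rfl
          _ ≤ ‖(fderiv ℝ g x - cl (F x)) (ev j)‖ := norm_le_pi_norm _ i
          _ ≤ ‖fderiv ℝ g x - cl (F x)‖ * ‖ev j‖ := ContinuousLinearMap.le_opNorm _ _
          _ = _ := by rw [hev, mul_one]
      · rw [hvd]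
        simp only [indicator_of_notMem hx]
        simp [hp0]
    calc ∫⁻ x in Ω, ‖v i j x‖ₑ ^ p
        ≤ ∫⁻ x in Ω, (Ω \ K).indicator
            (fun x => ENNReal.ofReal (‖fderiv ℝ g x - cl (F x)‖ ^ p)) x := lintegral_mono h1
      _ ≤ ∫⁻ x, (Ω \ K).indicator
            (fun x => ENNReal.ofReal (‖fderiv ℝ g x - cl (F x)‖ ^ p)) x :=
          setLIntegral_le_lintegral _ _
      _ = _ := lintegral_indicator hUm _
  have hGM : ∀ i j, ∀ x ∈ Ω, (if x ∈ K then F x i j else fderiv ℝ g x (ev j) i) =
      F x i j + v i j x := by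
    intro i j x hx
    by_cases hxK : x ∈ K
    · rw [if_pos hxK, hvd]
      simp only [indicator_of_notMem (fun h : x ∈ Ω \ K => h.2 hxK), add_zero]
    · rw [if_neg hxK, hvd]
      simp only [indicator_of_mem (show x ∈ Ω \ K from ⟨hx, hxK⟩)]
      ring
  refine ⟨fun i => ?_, fun i j => ?_, ?_⟩
  · refine MemLp.of_bound ?_ B ?_
    · exact ((continuous_apply i).comp_continuousOn hGc).aestronglyMeasurable hΩ.1.measurableSet
    · filter_upwards [ae_restrict_mem hΩ.1.measurableSet] with x hx
      exact (norm_le_pi_norm _ i).trans (hB x hx)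
  · have h1 := (hF.2.1 i j).add (hvmem i j)
    refine (memLp_congr_ae ?_).2 h1
    filter_upwards [ae_restrict_mem hΩ.1.measurableSet] with x hx
    exact hGM i j x hx
  -- the weak form
  intro φ hφ' i j
  have hφ : Tst Ω φ := Tst.of_isTest hφ'
  have hpd : ∀ x, pd φ x j = fderiv ℝ φ x (ev j) := fun x => PK.pd_eq_fderiv hφ.smooth x j
  set u : V → ℝ := (Ω \ K).indicator (fun x => g x i - f x i) with hu
  have huG : ∀ x ∈ Ω, (if x ∈ K then f x else g x) i = f x i + u x := by
    intro x hx
    by_cases hxK : x ∈ K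
    · rw [if_pos hxK, hu, indicator_of_notMem (fun h : x ∈ Ω \ K => h.2 hxK), add_zero]
    · rw [if_neg hxK, hu, indicator_of_mem (show x ∈ Ω \ K from ⟨hx, hxK⟩)]
      ring
  have huc : ContinuousOn u Ω := by
    have h1 : ContinuousOn (fun x => (if x ∈ K then f x else g x) i - f x i) Ω :=
      ((continuous_apply i).comp_continuousOn hGc).sub ((continuous_apply i).comp_continuousOn hf)
    refine h1.congr fun x hx => ?_
    show u x = (if x ∈ K then f x else g x) i - f x i
    rw [huG x hx]; ring
  have huh : ∀ x, |u x| ≤ h x ^ 2 := by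
    intro x
    by_cases hx : x ∈ Ω \ K
    · rw [hu, indicator_of_mem hx]
      exact (norm_le_pi_norm (g x - f x) i).trans (hgf x hx)
    · rw [hu, indicator_of_notMem hx, abs_zero]
      positivity
  have hvi : IntegrableOn (v i j) Ω :=
    (hvmem i j).integrable (by
      rw [← ENNReal.ofReal_one]; exact ENNReal.ofReal_le_ofReal hp)
  have hFi : IntegrableOn (fun x => F x i j) Ω := PK.InLp.integrableOn hp hv (hF.2.1 i j)
  have iv : Integrable fun x => φ x * v i j x :=
    integrable_test_mul hvi hφ.smooth.continuous hφ.comp hφ.supp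
  have iF : Integrable fun x => φ x * F x i j :=
    integrable_test_mul hFi hφ.smooth.continuous hφ.comp hφ.supp
  have iu : Integrable fun x => fderiv ℝ φ x (ev j) * u x :=
    integrable_mul_of_support (hφ.dcont j) (hφ.dcomp j) ((hφ.dsupp j).trans hφ.supp) huc
  have if' : Integrable fun x => fderiv ℝ φ x (ev j) * f x i :=
    integrable_mul_of_support (hφ.dcont j) (hφ.dcomp j) ((hφ.dsupp j).trans hφ.supp)
      ((continuous_apply i).comp_continuousOn hf)
  -- the main identity
  have hmain : ∫ x, φ x * v i j x = -∫ x, fderiv ℝ φ x (ev j) * u x := by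
    obtain ⟨M, θ, hM0, hθs, hθ01, hθ0, hθ1, hθd⟩ := exists_cutoff hKo hh hsupp hh0
    -- the truncated identities
    have key : ∀ n, ∫ x, θ n x * (φ x * v i j x) =
        -(∫ x, θ n x * (fderiv ℝ φ x (ev j) * u x)) -
          ∫ x, φ x * (fderiv ℝ (θ n) x (ev j) * u x) := by
      intro n
      have hsn : tsupport (fun x => θ n x * φ x) ⊆ Ω \ K := by
        have h1 : tsupport (fun x => θ n x * φ x) ⊆ {x | 1 ≤ h x * (n + 1)} := by
          refine closure_minimal ?_ (isClosed_le continuous_const
            ((hh.continuous).mul continuous_const))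
          intro x hx
          by_contra hlt
          apply hx
          show θ n x * φ x = 0
          rw [hθ0 n x (le_of_lt (not_le.1 hlt)), zero_mul]
        refine h1.trans fun x hx => ?_
        rw [← hsupp]
        intro h0
        have h2 : (1 : ℝ) ≤ h x * (n + 1) := hx
        rw [h0, zero_mul] at h2
        linarith
      have hφn : Tst (Ω \ K) (fun x => θ n x * φ x) :=
        ⟨(hθs n).mul hφ.smooth, hφ.comp.mul_left, hsn⟩
      have hφnΩ : Tst Ω (fun x => θ n x * φ x) := hφn.mono sdiff_subset
      have e1 := weak_full hF hφnΩ i j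
      obtain ⟨ig, e2⟩ := ibp hKo hg hφn i j
      have hdn : ∀ x, fderiv ℝ (fun x => θ n x * φ x) x (ev j) =
          θ n x * fderiv ℝ φ x (ev j) + φ x * fderiv ℝ (θ n) x (ev j) := by
        intro x
        have d1 : DifferentiableAt ℝ (θ n) x := (hθs n).differentiable (by simp) x
        have d2 : DifferentiableAt ℝ φ x := hφ.smooth.differentiable (by simp) x
        have d3 := (d1.hasFDerivAt.mul d2.hasFDerivAt).fderiv
        have d4 : fderiv ℝ (fun x => θ n x * φ x) x = θ n x • fderiv ℝ φ x + φ x • fderiv ℝ (θ n) x :=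
          d3
        rw [d4]
        rfl
      have j1 : Integrable fun x => (θ n x * φ x) * F x i j :=
        integrable_test_mul hFi hφn.smooth.continuous hφn.comp hφnΩ.supp
      have j2 : Integrable fun x => fderiv ℝ (fun x => θ n x * φ x) x (ev j) * g x i :=
        integrable_mul_of_support (hφn.dcont j) (hφn.dcomp j) ((hφn.dsupp j).trans hφn.supp)
          ((continuous_apply i).comp_continuousOn hg.continuousOn)
      have j3 : Integrable fun x => fderiv ℝ (fun x => θ n x * φ x) x (ev j) * f x i :=
        integrable_mul_of_support (hφn.dcont j) (hφn.dcomp j) ((hφnΩ.dsupp j).trans hφnΩ.supp)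
          ((continuous_apply i).comp_continuousOn hf)
      have e3 : ∫ x, θ n x * (φ x * v i j x) =
          (∫ x, (θ n x * φ x) * fderiv ℝ g x (ev j) i) - ∫ x, (θ n x * φ x) * F x i j := by
        rw [← integral_sub ig j1]
        refine integral_congr_ae (Eventually.of_forall fun x => ?_)
        show θ n x * (φ x * v i j x) = (θ n x * φ x) * fderiv ℝ g x (ev j) i -
          (θ n x * φ x) * F x i j
        by_cases hx : x ∈ Ω \ K
        · rw [hvd]
          simp only [indicator_of_mem hx]
          ring
        · have h0 : θ n x * φ x = 0 := hφn.zero hx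
          rw [h0, ← mul_assoc, h0]
          ring
      have e4 : (∫ x, fderiv ℝ (fun x => θ n x * φ x) x (ev j) * g x i) -
          (∫ x, fderiv ℝ (fun x => θ n x * φ x) x (ev j) * f x i) =
          (∫ x, θ n x * (fderiv ℝ φ x (ev j) * u x)) +
            ∫ x, φ x * (fderiv ℝ (θ n) x (ev j) * u x) := by
        have k1 : Integrable fun x => θ n x * (fderiv ℝ φ x (ev j) * u x) := by
          refine iu.bdd_mul (c := 1) (hθs n).continuous.aestronglyMeasurable
            (ae_of_all _ fun x => ?_)
          rw [Real.norm_eq_abs, abs_le]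
          constructor <;> linarith [(hθ01 n x).1, (hθ01 n x).2]
        have k2 : Integrable fun x => φ x * (fderiv ℝ (θ n) x (ev j) * u x) := by
          have hc : Continuous fun x => φ x * fderiv ℝ (θ n) x (ev j) :=
            hφ.smooth.continuous.mul
              (((hθs n).continuous_fderiv (by simp)).clm_apply continuous_const)
          have := integrable_mul_of_support hc hφ.comp.mul_right
            ((tsupport_mul_subset_left).trans hφ.supp) huc
          refine this.congr (Eventually.of_forall fun x => ?_)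
          show φ x * fderiv ℝ (θ n) x (ev j) * u x = _
          ring
        rw [← integral_sub j2 j3, ← integral_add k1 k2]
        refine integral_congr_ae (Eventually.of_forall fun x => ?_)
        show fderiv ℝ (fun x => θ n x * φ x) x (ev j) * g x i -
          fderiv ℝ (fun x => θ n x * φ x) x (ev j) * f x i =
          θ n x * (fderiv ℝ φ x (ev j) * u x) + φ x * (fderiv ℝ (θ n) x (ev j) * u x)
        by_cases hx : x ∈ Ω \ K
        · rw [hdn x, hu, indicator_of_mem hx]
          ring
        · rw [hφn.dzero j hx, hu, indicator_of_notMem hx]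
          ring
      rw [e3, e1, e2]
      linarith
    -- the limits
    have hθlim : ∀ x ∈ Ω \ K, Tendsto (fun n => θ n x) atTop (𝓝 1) := fun x hx =>
      tendsto_const_nhds.congr' (by
        filter_upwards [hθ1 x hx] with n hn using hn.symm)
    have l1 : Tendsto (fun n => ∫ x, θ n x * (φ x * v i j x)) atTop
        (𝓝 (∫ x, φ x * v i j x)) := by
      refine tendsto_integral_of_dominated_convergence (fun x => ‖φ x * v i j x‖)
        (fun n => (hθs n).continuous.aestronglyMeasurable.mul iv.1) iv.norm
        (fun n => Eventually.of_forall fun x => ?_) (Eventually.of_forall fun x => ?_)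
      · rw [norm_mul]
        have : ‖θ n x‖ ≤ 1 := by
          rw [Real.norm_eq_abs, abs_le]
          constructor <;> linarith [(hθ01 n x).1, (hθ01 n x).2]
        calc ‖θ n x‖ * ‖φ x * v i j x‖ ≤ 1 * ‖φ x * v i j x‖ := by gcongr
          _ = _ := one_mul _
      · by_cases hx : x ∈ Ω \ K
        · have := (hθlim x hx).mul_const (φ x * v i j x)
          rwa [one_mul] at this
        · have h0 : v i j x = 0 := by
            rw [hvd]
            simp only [indicator_of_notMem hx]
          rw [h0]
          simp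
    have l2 : Tendsto (fun n => ∫ x, θ n x * (fderiv ℝ φ x (ev j) * u x)) atTop
        (𝓝 (∫ x, fderiv ℝ φ x (ev j) * u x)) := by
      refine tendsto_integral_of_dominated_convergence (fun x => ‖fderiv ℝ φ x (ev j) * u x‖)
        (fun n => (hθs n).continuous.aestronglyMeasurable.mul iu.1) iu.norm
        (fun n => Eventually.of_forall fun x => ?_) (Eventually.of_forall fun x => ?_)
      · rw [norm_mul]
        have : ‖θ n x‖ ≤ 1 := by
          rw [Real.norm_eq_abs, abs_le]
          constructor <;> linarith [(hθ01 n x).1, (hθ01 n x).2]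
        calc ‖θ n x‖ * ‖fderiv ℝ φ x (ev j) * u x‖ ≤ 1 * ‖fderiv ℝ φ x (ev j) * u x‖ := by
              gcongr
          _ = _ := one_mul _
      · by_cases hx : x ∈ Ω \ K
        · have := (hθlim x hx).mul_const (fderiv ℝ φ x (ev j) * u x)
          rwa [one_mul] at this
        · have h0 : u x = 0 := by
            rw [hu, indicator_of_notMem hx]
          rw [h0]
          simp
    have hI : Integrable fun x => |φ x| * |fderiv ℝ h x (ev j)| := by
      have hc : Continuous fun x => |φ x| * |fderiv ℝ h x (ev j)| :=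
        hφ.smooth.continuous.abs.mul
          ((hh.continuous_fderiv (by simp)).clm_apply continuous_const).abs
      refine hc.integrable_of_hasCompactSupport ?_
      have h1 : HasCompactSupport fun x => |φ x| := hφ.comp.comp_left (g := fun t : ℝ => |t|) abs_zero
      exact h1.mul_right
    have l3 : Tendsto (fun n : ℕ => ∫ x, φ x * (fderiv ℝ (θ n) x (ev j) * u x)) atTop (𝓝 0) := by
      have l4 : Tendsto (fun n : ℕ => M * (∫ x, |φ x| * |fderiv ℝ h x (ev j)|) *
          (4 * (1 / ((n : ℝ) + 1)))) atTop (𝓝 0) := by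
        have := (tendsto_one_div_add_atTop_nhds_zero_nat (𝕜 := ℝ)).const_mul 4
        have := this.const_mul (M * ∫ x, |φ x| * |fderiv ℝ h x (ev j)|)
        simpa using this
      refine squeeze_zero_norm (fun n => ?_) l4
      refine (norm_integral_le_integral_norm _).trans ?_
      have e5 : M * (∫ x, |φ x| * |fderiv ℝ h x (ev j)|) * (4 * (1 / ((n : ℝ) + 1))) =
          ∫ x, (|φ x| * |fderiv ℝ h x (ev j)|) * (M * (4 / (n + 1))) := by
        rw [integral_mul_const]; ring
      rw [e5]
      refine integral_mono_of_nonneg (Eventually.of_forall fun x => norm_nonneg _)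
        (hI.mul_const _) (Eventually.of_forall fun x => ?_)
      show ‖φ x * (fderiv ℝ (θ n) x (ev j) * u x)‖ ≤
        (|φ x| * |fderiv ℝ h x (ev j)|) * (M * (4 / (n + 1)))
      rw [norm_mul, norm_mul, Real.norm_eq_abs, Real.norm_eq_abs, Real.norm_eq_abs]
      calc |φ x| * (|fderiv ℝ (θ n) x (ev j)| * |u x|)
          ≤ |φ x| * (|fderiv ℝ (θ n) x (ev j)| * h x ^ 2) := by
            gcongr
            exact huh x
        _ ≤ |φ x| * (M * |fderiv ℝ h x (ev j)| * (4 / (n + 1))) :=
            mul_le_mul_of_nonneg_left (hθd n x j) (abs_nonneg _)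
        _ = _ := by ring
    have l5 := (l2.neg).sub l3
    rw [sub_zero] at l5
    refine tendsto_nhds_unique l1 (l5.congr fun n => ?_)
    rw [key n]
  have e0 := weak_full hF hφ i j
  have e1 : int Ω (fun x => φ x * (if x ∈ K then F x i j else fderiv ℝ g x (ev j) i)) =
      (∫ x, φ x * F x i j) + ∫ x, φ x * v i j x := by
    rw [← integral_add iF iv]
    unfold int
    rw [setIntegral_eq_integral_of_forall_compl_eq_zero]
    · refine integral_congr_ae (Eventually.of_forall fun x => ?_)
      show φ x * (if x ∈ K then F x i j else fderiv ℝ g x (ev j) i) =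
        φ x * F x i j + φ x * v i j x
      by_cases hx : x ∈ Ω
      · rw [hGM i j x hx]; ring
      · rw [hφ.zero hx]; ring
    · intro x hx
      rw [hφ.zero hx, zero_mul]
  have e2 : int Ω (fun x => pd φ x j * (if x ∈ K then f x else g x) i) =
      (∫ x, fderiv ℝ φ x (ev j) * f x i) + ∫ x, fderiv ℝ φ x (ev j) * u x := by
    rw [← integral_add if' iu]
    unfold int
    rw [setIntegral_eq_integral_of_forall_compl_eq_zero]
    · refine integral_congr_ae (Eventually.of_forall fun x => ?_)
      show pd φ x j * (if x ∈ K then f x else g x) i =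
        fderiv ℝ φ x (ev j) * f x i + fderiv ℝ φ x (ev j) * u x
      rw [hpd]
      by_cases hx : x ∈ Ω
      · rw [huG x hx]; ring
      · rw [hφ.dzero j hx]; ring
    · intro x hx
      rw [hpd, hφ.dzero j hx, zero_mul]
  show int Ω (fun x => φ x * (if x ∈ K then F x i j else fderiv ℝ g x (ev j) i)) =
    -int Ω (fun x => pd φ x j * (if x ∈ K then f x else g x) i)
  rw [e1, e2, e0, hmain]
  ring

end Vale.Agent.P073.H655
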