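import Vale.Agent.P073.H880.TameDefs
import Mathlib.MeasureTheory.Measure.Hausdorff

/-!
# P073: homeomorphisms which are regular off a small relatively closed set, larger class
-/

namespace Vale.Agent.P073.H655.T3

open MeasureTheory Set Filter Topology Vale.Agent.P073.St
open Vale.Agent.P073.H880 (LocPA NullProj)

/-- On the open set `U` one of the following holds: `f` is of class `C¹` with injective (that is,
invertible) derivative at every point; or `f` is locally finite piecewise affine; or near every
point of `U` the map `f` has small distortion, with a fixed constant `c < √5`, or is directionally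
monotone. -/
def Reg (U : Set V) (f : V → V) : Prop :=
  (ContDiffOn ℝ 1 f U ∧ ∀ x ∈ U, ∀ v, fderiv ℝ f x v = 0 → v = 0) ∨ LocPA U f ∨
    ∃ c : ℝ, c < Real.sqrt 5 ∧ ∀ a ∈ U, SmallDistortionAt c f a ∨ DirMonotoneAt f a

/-- `K` is contained in a countable union of sets of finite `s`-dimensional Hausdorff measure. -/
def SigmaFin (s : ℝ) (K : Set V) : Prop :=
  ∃ S : ℕ → Set V, K ⊆ ⋃ n, S n ∧ ∀ n, Measure.hausdorffMeasure s (S n) < ⊤

/-- For every coordinate `k` and almost every `t` the slice `K ∩ {x_k = t}` has null projections to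
the other coordinate axes, and its image by `f` has null projections to the coordinate axes. -/
def SmallSlices (K : Set V) (f : V → V) : Prop :=
  ∀ k : Fin 3, ∀ᵐ t : ℝ,
    (∀ j, j ≠ k → volume ((fun x : V => x j) '' (K ∩ {x | x k = t})) = 0) ∧
    ∀ i, volume ((fun x : V => f x i) '' (K ∩ {x | x k = t})) = 0

/-- `f` is locally Lipschitz on `Ω`. -/
def LocLip (Ω : Set V) (f : V → V) : Prop :=
  ∀ x ∈ Ω, ∃ (C : NNReal) (U : Set V), U ∈ 𝓝 x ∧ LipschitzOnWith C f U

/-- `K` is small for the exponent `p` and the map `f`: the image `f(K)` has null coordinate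
projections; or `p < 3` and `K` has null coordinate projections, or small slices, or σ-finite
length, or area zero and `f` is locally Lipschitz; or `p > 3` and `K` has σ-finite
`(p-3)/(p-1)`-dimensional measure. -/
def Small (p : ℝ) (Ω : Set V) (f : V → V) (K : Set V) : Prop :=
  NullProj (f '' K) ∨
    (p < 3 ∧ (NullProj K ∨ SmallSlices K f ∨ SigmaFin 1 K ∨
      (Measure.hausdorffMeasure 2 K = 0 ∧ LocLip Ω f))) ∨
    (3 < p ∧ SigmaFin ((p - 3) / (p - 1)) K)

/-- `f` is regular off a relatively closed subset of `Ω` which is small. -/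
def Tame (p : ℝ) (Ω : Set V) (f : V → V) : Prop :=
  ∃ K ⊆ Ω, IsOpen (Ω \ K) ∧ Reg (Ω \ K) f ∧ Small p Ω f K

/-- `f : Ω → Λ`, with weak derivative matrix `F`, is the limit in `W^{1,p}` of tame `W^{1,p}`
homeomorphisms `g k` of `Ω` onto the same `Λ`. -/
def TameApproximable (p : ℝ) (Ω Λ : Set V) (f : V → V) (F : V → Mat) : Prop :=
  ∃ (g : ℕ → V → V) (G : ℕ → V → Mat),
    (∀ k, IsHomeo Ω Λ (g k) ∧ IsSobolev p Ω (g k) (G k) ∧ Tame p Ω (g k)) ∧
    Tendsto (fun k => int Ω (fun x => euc (g k x - f x) ^ p + frob (G k x - F x) ^ p))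
      atTop (𝓝 0)

end Vale.Agent.P073.H655.T3
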