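import Vale.Agent.P073.H655.Tame6Defs
import Vale.Agent.P073.H655.Finely
import Vale.Agent.P073.MM.H694.Pert2
import Vale.Agent.P073.H183.PSD
import Vale.Agent.P073.MM.All

/-!
# P073: towers of small singular sets, with locally monotone homeomorphisms: the theorem
-/

namespace Vale.Agent.P073.H655.V6

open MeasureTheory Set Filter Topology Metric Vale.Agent.P073.St Vale.Agent.P073.AB
open scoped ContDiff ENNReal

variable {p : ℝ} {Ω Λ : Set V}

/-- **towers are finely approximable** -/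
theorem fa_of_tower (hp : 1 ≤ p) {f : V → V} (h : Tower p Ω Λ f) :
    ∀ F : V → Mat, St.IsBoundedDomain Ω → St.IsBoundedDomain Λ → St.IsHomeo Ω Λ f →
      St.IsSobolev p Ω f F → FA p Ω Λ f F := by
  induction h with
  | reg h =>
    intro F hΩ hΛ hf hF
    rcases h with h | h | h | h | h
    · exact H694.fa_of_reg V5.fineT hp hΩ hΛ hf hF (Or.inl h)
    · exact H694.fa_of_reg V5.fineT hp hΩ hΛ hf hF (Or.inr (Or.inl h))
    · exact MM.H694.fa_of_mono H183.psd MM.specSmooth hp hΩ hΛ hf hF h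
    · exact H694.fa_of_reg V5.fineT hp hΩ hΛ hf hF (Or.inr (Or.inr (Or.inl h)))
    · exact H694.fa_of_reg V5.fineT hp hΩ hΛ hf hF (Or.inr (Or.inr (Or.inr h)))
  | step hB hBo hs _ ih =>
    intro F hΩ hΛ hf hF
    have hn := V4.small_cases hΩ hB hf hF hs
    obtain ⟨d1, d2⟩ := H694.dom_of_small hΩ hΛ hB hBo hf (hn.imp And.right id)
    exact H694.FA.step V5.fineT hp hΩ hΛ hB hBo hf hF
      (ih F d1 d2 (homeo_restrict hB hf) (RED.isSobolev_mono hBo sdiff_subset hF)) hn

/-- **towers are finely approximable** -/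
theorem tower_finely (hp : 1 ≤ p) (hΩ : St.IsBoundedDomain Ω)
    (hΛ : St.IsBoundedDomain Λ) {f : V → V} {F : V → Mat} (hf : St.IsHomeo Ω Λ f)
    (hF : St.IsSobolev p Ω f F) (h : Tower p Ω Λ f) : FinelyApproximable p Ω Λ f F :=
  finely_of_FA hp hΩ hΛ hf hF (fa_of_tower hp h F hΩ hΛ hf hF)

/-- **towers are approximable** -/
theorem tower_approximable (hp : 1 ≤ p) (hΩ : St.IsBoundedDomain Ω)
    (hΛ : St.IsBoundedDomain Λ) {f : V → V} {F : V → Mat} (hf : St.IsHomeo Ω Λ f)
    (hF : St.IsSobolev p Ω f F) (h : Tower p Ω Λ f) : St.DiffeoApproximable p Ω Λ f F :=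
  H694.FA.approximable hp hΩ hΛ hf hF (fa_of_tower hp h F hΩ hΛ hf hF)

/-- a tower of the smaller class is a tower -/
theorem tower_of_tower {f : V → V} (h : H694.Tower p Ω Λ f) : Tower p Ω Λ f := by
  induction h with
  | reg h =>
    refine Tower.reg ?_
    rcases h with h | h | h | h
    · exact Or.inl h
    · exact Or.inr (Or.inl h)
    · exact Or.inr (Or.inr (Or.inr (Or.inl h)))
    · exact Or.inr (Or.inr (Or.inr (Or.inr h)))
  | step hB hBo hs _ ih => exact Tower.step hB hBo hs ih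

/-- **the equivalence** -/
theorem tower_iff (hp : 1 ≤ p) (hΩ : St.IsBoundedDomain Ω)
    (hΛ : St.IsBoundedDomain Λ) {f : V → V} {F : V → Mat} (hf : St.IsHomeo Ω Λ f)
    (hF : St.IsSobolev p Ω f F) :
    TowerApproximable p Ω Λ f F ↔ St.DiffeoApproximable p Ω Λ f F := by
  constructor
  · rintro ⟨g, G, hg, hlim⟩
    exact approximable_of_limit hp hΩ hΛ hf hF (fun k => (hg k).2.1)
      (fun k => tower_approximable hp hΩ hΛ (hg k).1 (hg k).2.1 (hg k).2.2) hlim
  · intro h
    obtain ⟨g, G, hg, hlim⟩ := (V5.tower_iff hp hΩ hΛ hf hF).2 h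
    exact ⟨g, G, fun k => ⟨(hg k).1, (hg k).2.1, tower_of_tower (hg k).2.2⟩, hlim⟩

end Vale.Agent.P073.H655.V6
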