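import Vale.Agent.P073.H655.Tame7Defs
import Vale.Agent.P073.H655.Tame6
import Vale.Agent.P073.H655.Lin
import Vale.Agent.P073.MM.H694.Lin

/-!
# P073: towers of small singular sets, up to linear changes of the target: the theorem
-/

namespace Vale.Agent.P073.H655.V7

open MeasureTheory Set Filter Topology Metric Vale.Agent.P073.St Vale.Agent.P073.AB
open Vale.Agent.P073.H655.V4 (Small)
open Vale.Agent.P073.H655.V6 (FinelyApproximable finely_of_FA)
open scoped ContDiff ENNReal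

variable {p : ℝ} {Ω Λ B : Set V}

/-- linear changes preserve the class -/
def SpecSobLin : Prop := ∀ (p : ℝ) (Ω : Set V) (f : V → V) (F : V → Mat) (A : Mat), 1 ≤ p →
  St.IsBoundedDomain Ω → St.IsSobolev p Ω f F →
    St.IsSobolev p Ω (fun x => ap A (f x)) (fun x => mm A (F x))

theorem specSobLin : SpecSobLin := fun _ _ _ _ A hp hΩ hF => MM.H694.sobolev_lin hp
  (PK.volume_ne_top_of_domain hΩ) hF A

theorem exists_inv_mat (T : V ≃L[ℝ] V) : ∃ A' : Mat, ∀ v, T.symm v = ap A' v := by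
  refine ⟨fun i j => T.symm (Pi.single j 1) i, fun v => ?_⟩
  funext i
  have h1 : v = ∑ j, v j • (Pi.single j 1 : V) := by
    ext k
    simp [Finset.sum_apply, Pi.single_apply]
  conv_lhs => rw [h1, map_sum]
  simp only [Finset.sum_apply, map_smul, Pi.smul_apply, smul_eq_mul, ap]
  exact Finset.sum_congr rfl fun j _ => mul_comm _ _

theorem mm_inv {A A' : Mat} (T : V ≃L[ℝ] V) (hT : ∀ v, T v = ap A v)
    (hT' : ∀ v, T.symm v = ap A' v) (M : Mat) : mm A' (mm A M) = M := by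
  funext i j
  have h1 : ∀ v, ap (mm A' (mm A M)) v = ap M v := by
    intro v
    have e : ∀ (X Y : Mat) (v : V), ap (mm X Y) v = ap X (ap Y v) := by
      intro X Y v
      funext i
      simp only [ap, mm, Finset.mul_sum, Finset.sum_mul]
      rw [Finset.sum_comm]
      simp only [mul_assoc]
    rw [e, e, ← hT, ← hT', T.symm_apply_apply]
  have h2 := congrFun (h1 (Pi.single j 1)) i
  simpa [ap, Pi.single_apply] using h2

/-- the step, up to a linear change of the target -/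
theorem step_lin (hp : 1 ≤ p) (hΩ : St.IsBoundedDomain Ω)
    (hΛ : St.IsBoundedDomain Λ) (hB : B ⊆ Ω) (hBo : IsOpen (Ω \ B)) {f : V → V} {F : V → Mat}
    (hf : St.IsHomeo Ω Λ f) (hF : St.IsSobolev p Ω f F) {A : Mat} (hA : NonSing A)
    (hs : V4.Small p Ω (fun x => ap A (f x)) B)
    (ih : St.IsBoundedDomain (Ω \ B) → St.IsBoundedDomain (Λ \ f '' B) →
      FA p (Ω \ B) (Λ \ f '' B) f F) : FA p Ω Λ f F := by
  obtain ⟨T, hT⟩ := exists_equiv hA
  obtain ⟨A', hT'⟩ := exists_inv_mat T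
  have hfT : (fun x => ap A (f x)) = fun x => T (f x) := funext fun x => (hT _).symm
  rw [hfT] at hs
  have hF' : St.IsSobolev p Ω (fun x => T (f x)) (fun x => mm A (F x)) := by
    rw [← hfT]
    exact specSobLin p Ω f F A hp hΩ hF
  have hf' := homeo_lin T hf
  have hΛ' := domain_lin T hΛ
  have hn := V4.small_cases hΩ hB hf' hF' hs
  obtain ⟨d1, d2⟩ := H694.dom_of_small hΩ hΛ' hB hBo hf' (hn.imp And.right id)
  have e1 : T.symm '' (T '' Λ \ (fun x => T (f x)) '' B) = Λ \ f '' B := by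
    ext y
    constructor
    · rintro ⟨_, ⟨⟨z, hz, rfl⟩, hz'⟩, rfl⟩
      rw [T.symm_apply_apply]
      refine ⟨hz, ?_⟩
      rintro ⟨x, hx, rfl⟩
      exact hz' ⟨x, hx, rfl⟩
    · rintro ⟨hy, hy'⟩
      refine ⟨T y, ⟨⟨y, hy, rfl⟩, ?_⟩, T.symm_apply_apply y⟩
      rintro ⟨x, hx, hx'⟩
      exact hy' ⟨x, hx, T.injective hx'⟩
  have d3 : St.IsBoundedDomain (Λ \ f '' B) := e1 ▸ domain_lin T.symm d2
  have h1 : FA p (Ω \ B) (T '' Λ \ (fun x => T (f x)) '' B) (fun x => T (f x))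
      (fun x => mm A (F x)) := by
    refine fa_lin (A := A') T.symm hT' hp hBo ?_
    have e2 : (fun x => T.symm ((fun x => T (f x)) x)) = f := funext fun x => T.symm_apply_apply _
    have e3 : (fun x => mm A' ((fun x => mm A (F x)) x)) = F :=
      funext fun x => mm_inv T hT hT' (F x)
    rw [e1, e2, e3]
    exact ih d1 d3
  exact fa_lin T hT hp hΩ.1 (H694.FA.step V5.fineT hp hΩ hΛ' hB hBo hf' hF' h1 hn)

/-- regular maps are finely approximable -/
theorem fa_of_reg (hp : 1 ≤ p) (hΩ : St.IsBoundedDomain Ω)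
    (hΛ : St.IsBoundedDomain Λ) {f : V → V} {F : V → Mat} (hf : St.IsHomeo Ω Λ f)
    (hF : St.IsSobolev p Ω f F) (h : Reg Ω Λ f) : FA p Ω Λ f F := by
  rcases h with h | h | ⟨A, hA, h⟩ | h | h
  · exact H694.fa_of_reg V5.fineT hp hΩ hΛ hf hF (Or.inl h)
  · exact H694.fa_of_reg V5.fineT hp hΩ hΛ hf hF (Or.inr (Or.inl h))
  · obtain ⟨T, hT⟩ := exists_equiv hA
    have hfT : (fun x => ap A (f x)) = fun x => T (f x) := funext fun x => (hT _).symm
    have hF' : St.IsSobolev p Ω (fun x => T (f x)) (fun x => mm A (F x)) := by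
      rw [← hfT]
      exact specSobLin p Ω f F A hp hΩ hF
    refine fa_lin T hT hp hΩ.1 (MM.H694.fa_of_mono H183.psd MM.specSmooth hp hΩ (domain_lin T hΛ)
      (homeo_lin T hf) hF' fun a ha => ?_)
    obtain ⟨r, hr, h1⟩ := h a ha
    refine ⟨r, hr, fun x y hx hy => ?_⟩
    have h2 := h1 x y hx hy
    rw [← hT, map_sub] at h2
    exact h2
  · exact H694.fa_of_reg V5.fineT hp hΩ hΛ hf hF (Or.inr (Or.inr (Or.inl h)))
  · exact H694.fa_of_reg V5.fineT hp hΩ hΛ hf hF (Or.inr (Or.inr (Or.inr h)))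

/-- **towers are finely approximable** -/
theorem fa_of_tower (hp : 1 ≤ p) {f : V → V} (h : Tower p Ω Λ f) :
    ∀ F : V → Mat, St.IsBoundedDomain Ω → St.IsBoundedDomain Λ → St.IsHomeo Ω Λ f →
      St.IsSobolev p Ω f F → FA p Ω Λ f F := by
  induction h with
  | reg h => exact fun F hΩ hΛ hf hF => fa_of_reg hp hΩ hΛ hf hF h
  | step hB hBo hA hs _ ih =>
    intro F hΩ hΛ hf hF
    exact step_lin hp hΩ hΛ hB hBo hf hF hA hs fun d1 d2 =>
      ih F d1 d2 (homeo_restrict hB hf) (RED.isSobolev_mono hBo sdiff_subset hF)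

/-- **towers are finely approximable** -/
theorem tower_finely (hp : 1 ≤ p) (hΩ : St.IsBoundedDomain Ω)
    (hΛ : St.IsBoundedDomain Λ) {f : V → V} {F : V → Mat} (hf : St.IsHomeo Ω Λ f)
    (hF : St.IsSobolev p Ω f F) (h : Tower p Ω Λ f) : FinelyApproximable p Ω Λ f F :=
  finely_of_FA hp hΩ hΛ hf hF (fa_of_tower hp h F hΩ hΛ hf hF)

/-- **towers are approximable** -/
theorem tower_approximable (hp : 1 ≤ p) (hΩ : St.IsBoundedDomain Ω)
    (hΛ : St.IsBoundedDomain Λ) {f : V → V} {F : V → Mat} (hf : St.IsHomeo Ω Λ f)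
    (hF : St.IsSobolev p Ω f F) (h : Tower p Ω Λ f) : St.DiffeoApproximable p Ω Λ f F :=
  H694.FA.approximable hp hΩ hΛ hf hF (fa_of_tower hp h F hΩ hΛ hf hF)

/-- the identity matrix -/
theorem exists_one : ∃ A : Mat, NonSing A ∧ ∀ v, ap A v = v := by
  have h : ∀ v : V, ap (fun i j => if j = i then (1 : ℝ) else 0) v = v := by
    intro v
    funext i
    simp [ap]
  exact ⟨_, fun v hv => by rw [h] at hv; exact hv, h⟩

/-- a tower of the smaller class is a tower -/
theorem tower_of_tower {f : V → V} (h : V6.Tower p Ω Λ f) : Tower p Ω Λ f := by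
  obtain ⟨A, hA, hA1⟩ := exists_one
  induction h with
  | reg h =>
    refine Tower.reg ?_
    rcases h with h | h | h | h | h
    · exact Or.inl h
    · exact Or.inr (Or.inl h)
    · refine Or.inr (Or.inr (Or.inl ⟨A, hA, fun a ha => ?_⟩))
      obtain ⟨r, hr, h1⟩ := h a ha
      refine ⟨r, hr, fun x y hx hy => ?_⟩
      rw [hA1]
      exact h1 x y hx hy
    · exact Or.inr (Or.inr (Or.inr (Or.inl h)))
    · exact Or.inr (Or.inr (Or.inr (Or.inr h)))
  | step hB hBo hs _ ih =>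
    refine Tower.step (A := A) hB hBo hA ?_ ih
    simp only [hA1]
    exact hs

/-- **the equivalence** -/
theorem tower_iff (hp : 1 ≤ p) (hΩ : St.IsBoundedDomain Ω)
    (hΛ : St.IsBoundedDomain Λ) {f : V → V} {F : V → Mat} (hf : St.IsHomeo Ω Λ f)
    (hF : St.IsSobolev p Ω f F) :
    TowerApproximable p Ω Λ f F ↔ St.DiffeoApproximable p Ω Λ f F := by
  constructor
  · rintro ⟨g, G, hg, hlim⟩
    exact approximable_of_limit hp hΩ hΛ hf hF (fun k => (hg k).2.1)
      (fun k => tower_approximable hp hΩ hΛ (hg k).1 (hg k).2.1 (hg k).2.2) hlim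
  · intro h
    obtain ⟨g, G, hg, hlim⟩ := (V6.tower_iff hp hΩ hΛ hf hF).2 h
    exact ⟨g, G, fun k => ⟨(hg k).1, (hg k).2.1, tower_of_tower (hg k).2.2⟩, hlim⟩

end Vale.Agent.P073.H655.V7
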