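import Vale.Agent.P073.H655.Tame4Defs
import Vale.Agent.P073.H655.FinelyDefs

/-!
# P073: towers of small singular sets, up to linear changes of the target
-/

namespace Vale.Agent.P073.H655.V7

open MeasureTheory Set Filter Topology Vale.Agent.P073.St
open Vale.Agent.P073.H880 (LocPA)
open Vale.Agent.P073.H655.V4 (Small)

/-- `f` is locally monotone on `U` up to a linear change of the target: for some invertible matrix
`A`, near each point of `U`, `(A f x - A f y) · (x - y) ≥ 0`. -/
def LocMonotone (U : Set V) (f : V → V) : Prop :=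
  ∃ A : Mat, NonSing A ∧ ∀ a ∈ U, ∃ r : ℝ, 0 < r ∧ ∀ x y, euc (x - a) < r → euc (y - a) < r →
    0 ≤ ∑ i, (x i - y i) * ap A (f x - f y) i

/-- One of the following holds for the homeomorphism `f` of the open set `U` onto `W`: `f` is of
class `C¹` with injective (that is, invertible) derivative at every point; or `f` is locally finite
piecewise affine; or `f` is locally monotone up to a linear change of the target; or near every
point of `U` the map `f` has small distortion, with a fixed constant `c < √5`, or is directionally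
monotone; or `f` is a composition of finitely many homeomorphisms of the last kind between bounded
domains (the class `Generated`). -/
def Reg (U W : Set V) (f : V → V) : Prop :=
  (ContDiffOn ℝ 1 f U ∧ ∀ x ∈ U, ∀ v, fderiv ℝ f x v = 0 → v = 0) ∨ LocPA U f ∨ LocMonotone U f ∨
    (∃ c : ℝ, c < Real.sqrt 5 ∧ ∀ a ∈ U, SmallDistortionAt c f a ∨ DirMonotoneAt f a) ∨
    Generated U W f

/-- **towers**: the homeomorphism `f` of `Ω` onto `Λ` is regular, or `Ω` contains a relatively
closed set `B`, small for `A f` with some invertible matrix `A`, such that `f` is of this class on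
`Ω \ B`. So there are relatively closed subsets `∅ = K_0 ⊆ K_1 ⊆ ... ⊆ K_m` of `Ω` such that `f` is
regular off `K_m` and `K_(i+1) \ K_i` is small in `Ω \ K_i` for all `i < m` (for the map `A_i f`). -/
inductive Tower (p : ℝ) : Set V → Set V → (V → V) → Prop
  | reg {Ω Λ : Set V} {f : V → V} (h : Reg Ω Λ f) : Tower p Ω Λ f
  | step {Ω Λ B : Set V} {f : V → V} {A : Mat} (hB : B ⊆ Ω) (hBo : IsOpen (Ω \ B))
      (hA : NonSing A) (hs : Small p Ω (fun x => ap A (f x)) B)
      (h : Tower p (Ω \ B) (Λ \ f '' B) f) : Tower p Ω Λ f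

/-- `f : Ω → Λ`, with weak derivative matrix `F`, is the limit in `W^{1,p}` of `W^{1,p}`
homeomorphisms `g k` of `Ω` onto the same `Λ` which are towers. -/
def TowerApproximable (p : ℝ) (Ω Λ : Set V) (f : V → V) (F : V → Mat) : Prop :=
  ∃ (g : ℕ → V → V) (G : ℕ → V → Mat),
    (∀ k, IsHomeo Ω Λ (g k) ∧ IsSobolev p Ω (g k) (G k) ∧ Tower p Ω Λ (g k)) ∧
    Tendsto (fun k => int Ω (fun x => euc (g k x - f x) ^ p + frob (G k x - F x) ^ p))
      atTop (𝓝 0)

end Vale.Agent.P073.H655.V7
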