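import Vale.Agent.P073.H655.Tame8Defs
import Vale.Agent.P073.H655.Tame7
import Vale.Agent.P073.H655.LinD
import Vale.Agent.P073.MM.H694.Dom

/-!
# P073: towers of small singular sets, up to linear changes of the variables: the theorem
-/

namespace Vale.Agent.P073.H655.V8

open MeasureTheory Set Filter Topology Metric Vale.Agent.P073.St Vale.Agent.P073.AB
open Vale.Agent.P073.H655.V6 (FinelyApproximable finely_of_FA)
open scoped ContDiff ENNReal

variable {p : ℝ} {Ω Λ B : Set V}

theorem mm_inv_right {A A' : Mat} (T : V ≃L[ℝ] V) (hT : ∀ v, T v = ap A v)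
    (hT' : ∀ v, T.symm v = ap A' v) (M : Mat) : mm (mm M A) A' = M := by
  funext i j
  have h1 : ∀ v, ap (mm (mm M A) A') v = ap M v := by
    intro v
    have e : ∀ (X Y : Mat) (v : V), ap (mm X Y) v = ap X (ap Y v) := by
      intro X Y v
      funext i
      simp only [ap, mm, Finset.mul_sum, Finset.sum_mul]
      rw [Finset.sum_comm]
      simp only [mul_assoc]
    rw [e, e, ← hT, ← hT', T.apply_symm_apply]
  have h2 := congrFun (h1 (Pi.single j 1)) i
  simpa [ap, Pi.single_apply] using h2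

/-- the step, up to linear changes of the variables -/
theorem step_lin (hp : 1 ≤ p) (hΩ : St.IsBoundedDomain Ω)
    (hΛ : St.IsBoundedDomain Λ) (hB : B ⊆ Ω) (hBo : IsOpen (Ω \ B)) {f : V → V} {F : V → Mat}
    (hf : St.IsHomeo Ω Λ f) (hF : St.IsSobolev p Ω f F) (hs : SmallLin p Ω f B)
    (ih : St.IsBoundedDomain (Ω \ B) → St.IsBoundedDomain (Λ \ f '' B) →
      FA p (Ω \ B) (Λ \ f '' B) f F) : FA p Ω Λ f F := by
  obtain ⟨A, N, hA, hN, hs⟩ := hs
  obtain ⟨T, hT⟩ := exists_equiv hN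
  -- `S = N⁻¹`
  set S : V ≃L[ℝ] V := T.symm with hS
  have hSN : ∀ v, S.symm v = ap N v := fun v => by rw [hS, T.symm_symm]; exact hT v
  obtain ⟨A', hA'⟩ := V7.exists_inv_mat T
  have himg : ∀ X : Set V, {x | ap N x ∈ X} = S '' X := by
    intro X
    ext x
    constructor
    · intro hx
      exact ⟨ap N x, hx, by rw [← hSN, S.apply_symm_apply]⟩
    · rintro ⟨y, hy, rfl⟩
      show ap N (S y) ∈ X
      rw [← hSN, S.symm_apply_apply]
      exact hy
  have hfS : (fun x => ap A (f (ap N x))) = fun x => ap A (f (S.symm x)) :=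
    funext fun x => by rw [hSN]
  rw [himg, himg, hfS] at hs
  have hF' := MM.H694.sobolev_dom hp hΩ S hSN hF
  have hΩ' := domain_lin S hΩ
  have hf' := homeo_dom S hf
  have hB' : S '' B ⊆ S '' Ω := image_mono hB
  have e0 : S '' Ω \ S '' B = S '' (Ω \ B) := (image_sdiff S.injective Ω B).symm
  have hBo' : IsOpen (S '' Ω \ S '' B) := by
    rw [e0]
    exact S.toHomeomorph.isOpenMap _ hBo
  have e1 : (fun x => f (S.symm x)) '' (S '' B) = f '' B := by
    rw [image_image]
    simp only [S.symm_apply_apply]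
  refine fa_dom S hSN hp hΩ.1 hF' ?_
  refine V7.step_lin hp hΩ' hΛ hB' hBo' hf' hF' hA hs fun d1 d2 => ?_
  rw [e0] at d1 ⊢
  rw [e1] at d2 ⊢
  have d3 : St.IsBoundedDomain (Ω \ B) := by
    have h1 := domain_lin S.symm d1
    have h2 : S.symm '' (S '' (Ω \ B)) = Ω \ B := by
      rw [image_image]
      simp only [S.symm_apply_apply, image_id']
    rwa [h2] at h1
  have hFU : St.IsSobolev p (Ω \ B) f F := RED.isSobolev_mono hBo sdiff_subset hF
  have hFU' := MM.H694.sobolev_dom hp d3 S hSN hFU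
  -- back: the domain change by `S⁻¹`
  have h3 := ih d3 d2
  have e2 : S.symm '' (S '' (Ω \ B)) = Ω \ B := by
    rw [image_image]
    simp only [S.symm_apply_apply, image_id']
  have e3 : (fun x => (fun x => f (S.symm x)) (S.symm.symm x)) = f :=
    funext fun x => by simp
  have e4 : (fun x => mm ((fun x => mm (F (S.symm x)) N) (S.symm.symm x)) A') = F := by
    funext x
    show mm (mm (F (S.symm (S x))) N) A' = F x
    rw [S.symm_apply_apply]
    exact mm_inv_right T hT hA' (F x)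
  refine fa_dom (A := A') S.symm (fun v => by rw [S.symm_symm]; exact hA' v) hp d1.1 ?_ ?_
  · rw [e2, e3, e4]
    exact hFU
  · rw [e2, e3, e4]
    exact h3

/-- **towers are finely approximable** -/
theorem fa_of_tower (hp : 1 ≤ p) {f : V → V} (h : Tower p Ω Λ f) :
    ∀ F : V → Mat, St.IsBoundedDomain Ω → St.IsBoundedDomain Λ → St.IsHomeo Ω Λ f →
      St.IsSobolev p Ω f F → FA p Ω Λ f F := by
  induction h with
  | reg h => exact fun F hΩ hΛ hf hF => V7.fa_of_reg hp hΩ hΛ hf hF h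
  | step hB hBo hs _ ih =>
    intro F hΩ hΛ hf hF
    exact step_lin hp hΩ hΛ hB hBo hf hF hs fun d1 d2 =>
      ih F d1 d2 (homeo_restrict hB hf) (RED.isSobolev_mono hBo sdiff_subset hF)

/-- **towers are finely approximable** -/
theorem tower_finely (hp : 1 ≤ p) (hΩ : St.IsBoundedDomain Ω)
    (hΛ : St.IsBoundedDomain Λ) {f : V → V} {F : V → Mat} (hf : St.IsHomeo Ω Λ f)
    (hF : St.IsSobolev p Ω f F) (h : Tower p Ω Λ f) : FinelyApproximable p Ω Λ f F :=
  finely_of_FA hp hΩ hΛ hf hF (fa_of_tower hp h F hΩ hΛ hf hF)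

/-- **towers are approximable** -/
theorem tower_approximable (hp : 1 ≤ p) (hΩ : St.IsBoundedDomain Ω)
    (hΛ : St.IsBoundedDomain Λ) {f : V → V} {F : V → Mat} (hf : St.IsHomeo Ω Λ f)
    (hF : St.IsSobolev p Ω f F) (h : Tower p Ω Λ f) : St.DiffeoApproximable p Ω Λ f F :=
  H694.FA.approximable hp hΩ hΛ hf hF (fa_of_tower hp h F hΩ hΛ hf hF)

/-- a tower of the smaller class is a tower -/
theorem tower_of_tower {f : V → V} (h : V7.Tower p Ω Λ f) : Tower p Ω Λ f := by
  obtain ⟨E, hE, hE1⟩ := V7.exists_one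
  induction h with
  | reg h => exact Tower.reg h
  | @step Ω Λ B f A hB hBo hA hs _ ih =>
    refine Tower.step hB hBo ⟨A, E, hA, hE, ?_⟩ ih
    simp only [hE1]
    exact hs

/-- **the equivalence** -/
theorem tower_iff (hp : 1 ≤ p) (hΩ : St.IsBoundedDomain Ω)
    (hΛ : St.IsBoundedDomain Λ) {f : V → V} {F : V → Mat} (hf : St.IsHomeo Ω Λ f)
    (hF : St.IsSobolev p Ω f F) :
    TowerApproximable p Ω Λ f F ↔ St.DiffeoApproximable p Ω Λ f F := by
  constructor
  · rintro ⟨g, G, hg, hlim⟩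
    exact approximable_of_limit hp hΩ hΛ hf hF (fun k => (hg k).2.1)
      (fun k => tower_approximable hp hΩ hΛ (hg k).1 (hg k).2.1 (hg k).2.2) hlim
  · intro h
    obtain ⟨g, G, hg, hlim⟩ := (V7.tower_iff hp hΩ hΛ hf hF).2 h
    exact ⟨g, G, fun k => ⟨(hg k).1, (hg k).2.1, tower_of_tower (hg k).2.2⟩, hlim⟩

end Vale.Agent.P073.H655.V8
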